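import Vale.Agent.P130.Chars

open MeasureTheory Filter Topology
open scoped ComplexConjugate InnerProductSpace

namespace Vale.Agent.P130
noncomputable section

abbrev Cir := UnitAddCircle
abbrev G := ℕ → Cir
abbrev Gam := ℕ →₀ ℤ

def haar : Measure G := Measure.addHaarMeasure ⊤

instance : haar.IsAddHaarMeasure := by unfold haar; infer_instance
instance : IsProbabilityMeasure haar := ⟨by
  have := Measure.addHaarMeasure_self (G := G) (K₀ := ⊤)
  simpa [haar] using this⟩

def dot (n : Gam) : G →+ Cir where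
  toFun x := n.sum fun i k => k • x i
  map_zero' := by simp
  map_add' x y := by simp [Finsupp.sum, Finset.sum_add_distrib]

lemma dot_apply (n : Gam) (x : G) : dot n x = n.sum fun i k => k • x i := rfl

lemma dot_add (n m : Gam) (x : G) : dot (n + m) x = dot n x + dot m x := by
  simp only [dot_apply]
  rw [Finsupp.sum_add_index'] <;> simp [add_smul]

@[simp] lemma dot_zero (x : G) : dot 0 x = 0 := by simp [dot_apply]

def dotL (x : G) : Gam →+ Cir where
  toFun n := dot n x
  map_zero' := dot_zero x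
  map_add' n m := dot_add n m x

lemma dot_neg (n : Gam) (x : G) : dot (-n) x = - dot n x := (dotL x).map_neg n
lemma dot_zsmul (j : ℤ) (n : Gam) (x : G) : dot (j • n) x = j • dot n x := (dotL x).map_zsmul j n

lemma dot_single_right (n : Gam) (i : ℕ) (t : Cir) : dot n (Pi.single i t) = n i • t := by
  classical
  rw [dot_apply, Finsupp.sum, Finset.sum_eq_single i]
  · simp
  · intro j _ hj; simp [hj]
  · intro hi; simp [Finsupp.notMem_support_iff.1 hi]

lemma dot_single_left (i : ℕ) (k : ℤ) (x : G) : dot (Finsupp.single i k) x = k • x i := by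
  rw [dot_apply, Finsupp.sum_single_index]; simp

@[fun_prop] lemma continuous_dot (n : Gam) : Continuous (dot n) := by
  change Continuous fun x : G => ∑ i ∈ n.support, n i • x i
  fun_prop

def dotC (n : Gam) : C(G, Cir) := ⟨dot n, continuous_dot n⟩
@[simp] lemma dotC_apply (n : Gam) (x : G) : dotC n x = dot n x := rfl

abbrev fo (j : ℤ) : C(Cir, ℂ) := fourier j

lemma fo_add_right (j : ℤ) (x y : Cir) : fo j (x + y) = fo j x * fo j y := by
  simp only [fourier_apply, smul_add, AddCircle.toCircle_add, Circle.coe_mul]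

lemma fo_neg_right (j : ℤ) (x : Cir) : fo j (-x) = fo (-j) x := by
  simp only [fourier_apply, smul_neg, neg_smul]

lemma fo_zsmul (j k : ℤ) (x : Cir) : fo j (k • x) = fo (j * k) x := by
  simp only [fourier_apply, mul_smul]

lemma isCh_fo : IsCh fo where
  zero := by ext x; exact fourier_zero
  add a b := by ext x; exact fourier_add
  neg a := by ext x; exact fourier_neg
  norm a x := Circle.norm_coe _

def e (n : Gam) : C(G, ℂ) := (fo 1).comp (dotC n)

lemma e_apply (n : Gam) (x : G) : e n x = fo 1 (dot n x) := rfl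

lemma fo_dot (j : ℤ) (n : Gam) (x : G) : fo j (dot n x) = e (j • n) x := by
  rw [e_apply, dot_zsmul, fo_zsmul, one_mul]

lemma isCh_e : IsCh e where
  zero := by ext x; simp [e_apply]
  add a b := by ext x; simp only [e_apply, dot_add, fo_add_right, ContinuousMap.mul_apply]
  neg a := by
    ext x
    rw [e_apply, dot_neg, fo_neg_right, isCh_fo.neg_apply]; rfl
  norm a x := isCh_fo.norm _ _

lemma e_add_right (n : Gam) (x y : G) : e n (x + y) = e n x * e n y := by
  simp only [e_apply, map_add, fo_add_right]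

lemma e_zsmul_right (n : Gam) (j : ℤ) (x : G) : e n (j • x) = e (j • n) x := by
  rw [e_apply, map_zsmul, e_apply, dot_zsmul]

@[simp] lemma e_zero_right (n : Gam) : e n 0 = 1 := by simp [e_apply]

@[simp] lemma e_zero (x : G) : e 0 x = 1 := isCh_e.zero_apply x

@[simp] lemma norm_e (n : Gam) (x : G) : ‖e n x‖ = 1 := isCh_e.norm n x

lemma e_single_right (n : Gam) (i : ℕ) (t : Cir) : e n (Pi.single i t) = fo (n i) t := by
  rw [e_apply, dot_single_right, fo_zsmul, one_mul]

lemma conj_e_mul (n : Gam) (x : G) : conj (e n x) * e n x = 1 := by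
  rw [← isCh_e.neg_apply, ← isCh_e.add_apply, neg_add_cancel, e_zero]

lemma fo_half {k : ℤ} (hk : k ≠ 0) : fo k (((1 : ℝ) / 2 / k : ℝ) : Cir) = -1 := by
  have := fourier_add_half_inv_index (T := 1) hk one_pos 0
  rwa [zero_add, fourier_eval_zero] at this

lemma dense_fo : Dense (TP fo : Set C(Cir, ℂ)) := by
  apply isCh_fo.dense
  intro x y hxy
  refine ⟨1, ?_⟩
  rw [fourier_one, fourier_one]
  intro h
  exact hxy (AddCircle.injective_toCircle one_ne_zero (Subtype.ext h))

lemma e_sep (x y : G) (hxy : x ≠ y) : ∃ a, e a x ≠ e a y := by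
  obtain ⟨i, hi⟩ := Function.ne_iff.1 hxy
  refine ⟨Finsupp.single i 1, ?_⟩
  rw [e_apply, e_apply, dot_single_left, dot_single_left, one_smul, one_smul,
    fourier_one, fourier_one]
  intro h
  exact hi (AddCircle.injective_toCircle one_ne_zero (Subtype.ext h))

lemma dense_e : Dense (TP e : Set C(G, ℂ)) := isCh_e.dense e_sep

/-- vanishing of an integral by translating one coordinate -/
lemma int_zero_coord (φ : G → ℂ) (i : ℕ) {k : ℤ} (hk : k ≠ 0)
    (h : ∀ x t, φ (x + Pi.single i t) = fo k t * φ x) : ∫ x, φ x ∂haar = 0 :=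
  int_zero_of_translate haar φ (Pi.single i (((1 : ℝ) / 2 / k : ℝ) : Cir)) (-1) (by norm_num)
    fun x => by rw [h, fo_half hk]

def hat (W : Measure G) (m : Gam) : ℂ := ∫ x, e m x ∂W

lemma hat_zero (W : Measure G) [IsProbabilityMeasure W] : hat W 0 = 1 := by simp [hat]

lemma norm_hat_le (W : Measure G) [IsProbabilityMeasure W] (m : Gam) : ‖hat W m‖ ≤ 1 := by
  have := norm_integral_le_of_norm_le_const (μ := W) (f := e m) (C := 1)
    (ae_of_all _ fun x => (norm_e m x).le)
  simpa [hat] using this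

lemma hat_neg (W : Measure G) (m : Gam) : hat W (-m) = conj (hat W m) := by
  simp only [hat, isCh_e.neg_apply, integral_conj]

lemma hat_haar (m : Gam) : hat haar m = if m = 0 then 1 else 0 := by
  split_ifs with h
  · rw [h, hat_zero]
  · obtain ⟨i, hi⟩ := Finsupp.ne_iff.1 h
    refine int_zero_coord _ i hi fun x t => ?_
    rw [e_add_right, e_single_right, mul_comm]

lemma measure_ext_hat {μ ν : Measure G} [IsFiniteMeasure μ] [IsFiniteMeasure ν]
    (h : ∀ m, hat μ m = hat ν m) : μ = ν := by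
  apply ext_of_forall_integral_eq_of_IsFiniteMeasure
  intro f
  have := int_ext dense_e (μ := μ) (μ' := ν) measurable_id measurable_id
    (integrable_const (1 : ℂ)) (integrable_const (1 : ℂ)) (fun a => by simpa [hat] using h a)
    (toC f.toContinuousMap)
  simp only [toC_apply, id, mul_one, integral_complex_ofReal] at this
  exact Complex.ofReal_injective this

def FS (W : Measure G) : Prop := {m | hat W m ≠ 0}.Finite

lemma FS.fsf {W : Measure G} [IsFiniteMeasure W] (h : FS W) {φ : C(G, ℂ)} (hφ : φ ∈ TP e) :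
    FSf e W φ := isCh_e.fsf (by simpa [FSf, FS, hat] using h) hφ

lemma fs_haar : FS haar := by
  refine (Set.finite_singleton 0).subset fun m hm => ?_
  by_contra h
  exact hm (by rw [hat_haar, if_neg (by simpa using h)])

abbrev H := Lp ℂ 2 haar

def E (n : Gam) : H := ContinuousMap.toLp 2 haar ℂ (e n)

lemma E_ae (n : Gam) : E n =ᵐ[haar] e n := ContinuousMap.coeFn_toLp (p := 2) (𝕜 := ℂ) haar (e n)

lemma orthonormal_E : Orthonormal ℂ E := by
  classical
  rw [orthonormal_iff_ite]
  intro n m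
  rw [E, E, ContinuousMap.inner_toLp]
  simp only [← isCh_e.neg_apply, ← isCh_e.add_apply]
  have := hat_haar (m + -n)
  rw [hat] at this
  rw [this]
  simp only [add_neg_eq_zero, eq_comm]

lemma norm_E (n : Gam) : ‖E n‖ = 1 := orthonormal_E.1 n

lemma inner_E (n m : Gam) : ⟪E n, E m⟫_ℂ = if n = m then 1 else 0 := by
  classical
  have := orthonormal_iff_ite.1 orthonormal_E n m
  convert this

lemma dense_span_E : Dense (Submodule.span ℂ (Set.range E) : Set H) := by
  have h1 := ContinuousMap.toLp_denseRange ℂ haar ℂ (p := 2) (by simp)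
  have h2 := h1.dense_image (ContinuousMap.toLp 2 haar ℂ).continuous dense_e
  refine h2.mono ?_
  rintro _ ⟨φ, hφ, rfl⟩
  have : Submodule.span ℂ (Set.range E) = (TP e).map (ContinuousMap.toLp 2 haar ℂ).toLinearMap := by
    rw [TP, Submodule.map_span, ← Set.range_comp]; rfl
  rw [this]
  exact ⟨φ, hφ, rfl⟩

def basisE : HilbertBasis Gam ℂ H :=
  HilbertBasis.mk orthonormal_E (by
    intro x _
    exact dense_span_E x)

lemma basisE_apply (n : Gam) : basisE n = E n :=
  congrFun (HilbertBasis.coe_mk orthonormal_E _) n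

lemma hasSum_E (g : H) : HasSum (fun k => ⟪E k, g⟫_ℂ • E k) g := by
  have := basisE.hasSum_repr g
  simpa only [HilbertBasis.repr_apply_apply, basisE_apply] using this

def poly : (Gam →₀ ℂ) →ₗ[ℂ] H := Finsupp.linearCombination ℂ E

lemma poly_apply (c : Gam →₀ ℂ) : poly c = ∑ n ∈ c.support, c n • E n := by
  rw [poly, Finsupp.linearCombination_apply, Finsupp.sum]

lemma poly_single (n : Gam) (z : ℂ) : poly (Finsupp.single n z) = z • E n := by
  simp [poly]

lemma inner_E_poly (n : Gam) (c : Gam →₀ ℂ) : ⟪E n, poly c⟫_ℂ = c n :=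
  orthonormal_E.inner_right_finsupp c n

lemma exists_poly (g : H) {ε : ℝ} (hε : 0 < ε) : ∃ c, ‖g - poly c‖ < ε := by
  obtain ⟨y, hy, h⟩ := dense_span_E.exists_dist_lt g hε
  obtain ⟨c, rfl⟩ := Finsupp.mem_span_range_iff_exists_finsupp.1 hy
  exact ⟨c, by rwa [dist_eq_norm] at h⟩

abbrev PM := ProbabilityMeasure G

lemma mp_J (W : Measure G) [IsProbabilityMeasure W] (j : ℤ) :
    MeasurePreserving (fun z : G × G => z.1 + j • z.2) (haar.prod W) haar := by
  refine ⟨by fun_prop, measure_ext_hat fun m => ?_⟩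
  rw [hat, integral_map (by fun_prop) (e m).continuous.aestronglyMeasurable]
  simp only [e_add_right]
  rw [integral_prod_mul (fun x => e m x) (fun a => e m (j • a))]
  change hat haar m * _ = _
  rw [hat_haar]
  split_ifs with h
  · simp [h]
  · simp

def cmp {α β : Type*} [MeasurableSpace α] [MeasurableSpace β] {μ : Measure α} {ν : Measure β}
    (f : α → β) (hf : MeasurePreserving f μ ν) : Lp ℂ 2 ν →ₗᵢ[ℂ] Lp ℂ 2 μ :=
  Lp.compMeasurePreservingₗᵢ ℂ f hf

section cmp
variable {α β γ : Type*} [MeasurableSpace α] [MeasurableSpace β] [MeasurableSpace γ]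
  {μ : Measure α} {ν : Measure β} {ρ : Measure γ}

lemma cmp_ae {f : α → β} (hf : MeasurePreserving f μ ν) (g : Lp ℂ 2 ν) :
    cmp f hf g =ᵐ[μ] fun x => g (f x) := Lp.coeFn_compMeasurePreserving g hf

lemma cmp_ae' {f : α → β} (hf : MeasurePreserving f μ ν) {g : Lp ℂ 2 ν} {φ : β → ℂ}
    (h : g =ᵐ[ν] φ) : cmp f hf g =ᵐ[μ] fun x => φ (f x) :=
  (cmp_ae hf g).trans (hf.quasiMeasurePreserving.ae_eq_comp h)

lemma cmp_cmp {f : α → β} (hf : MeasurePreserving f μ ν) {f' : β → γ}
    (hf' : MeasurePreserving f' ν ρ) (g : Lp ℂ 2 ρ) {f'' : α → γ}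
    (hf'' : MeasurePreserving f'' μ ρ) (h : ∀ x, f'' x = f' (f x)) :
    cmp f hf (cmp f' hf' g) = cmp f'' hf'' g := by
  obtain rfl : f'' = f' ∘ f := funext h
  exact (Lp.compMeasurePreserving_comp_apply g hf' hf).symm

lemma cmp_id {f : α → α} (hf : MeasurePreserving f μ μ) (h : ∀ x, f x = x) (g : Lp ℂ 2 μ) :
    cmp f hf g = g := by
  obtain rfl : f = id := funext h
  exact Lp.compMeasurePreserving_id_apply g

lemma inner_of_ae {u v : Lp ℂ 2 μ} {φ ψ : α → ℂ} (hu : u =ᵐ[μ] φ) (hv : v =ᵐ[μ] ψ) :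
    ⟪u, v⟫_ℂ = ∫ x, conj (φ x) * ψ x ∂μ := by
  rw [L2.inner_def]
  apply integral_congr_ae
  filter_upwards [hu, hv] with x h1 h2
  rw [h1, h2, RCLike.inner_apply, mul_comm]

lemma norm_sq_of_ae {u : Lp ℂ 2 μ} {φ : α → ℂ} (hu : u =ᵐ[μ] φ) :
    ‖u‖ ^ 2 = ∫ x, ‖φ x‖ ^ 2 ∂μ := by
  have := inner_of_ae hu hu
  rw [inner_self_eq_norm_sq_to_K] at this
  simp only [Complex.conj_mul'] at this
  have h2 : ∫ x, ((‖φ x‖ : ℂ)) ^ 2 ∂μ = ((∫ x, ‖φ x‖ ^ 2 ∂μ : ℝ) : ℂ) := by
    rw [← integral_complex_ofReal]; push_cast; rfl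
  rw [h2] at this
  apply Complex.ofReal_injective
  rw [← this]; simp

end cmp

def J (W : PM) (j : ℤ) : H →ₗᵢ[ℂ] Lp ℂ 2 (haar.prod (W : Measure G)) := cmp _ (mp_J W j)

def cor (W : PM) (u v : H) (j : ℤ) : ℂ := ⟪J W 0 u, J W j v⟫_ℂ

lemma mp_R (W : Measure G) [IsProbabilityMeasure W] (j : ℤ) :
    MeasurePreserving (fun z : G × G => (z.1 + j • z.2, z.2)) (haar.prod W) (haar.prod W) := by
  have h1 : MeasurePreserving (fun z : G × G => (z.1, z.2 + j • z.1)) (W.prod haar) (W.prod haar) :=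
    MeasurePreserving.skew_product (f := id) (g := fun a x => x + j • a) (MeasurePreserving.id W)
      (by fun_prop) (ae_of_all _ fun a => map_add_right_eq_self haar _)
  exact (Measure.measurePreserving_swap.comp h1).comp Measure.measurePreserving_swap

lemma inner_J (W : PM) (u v : H) (i j : ℤ) : ⟪J W i u, J W j v⟫_ℂ = cor W u v (j - i) := by
  have h : ∀ (k : ℤ) (w : H), J W (k + i) w = cmp _ (mp_R W i) (J W k w) := fun k w =>
    (cmp_cmp _ _ _ _ fun z => by simp only [add_smul]; abel).symm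
  have h1 := h 0 u
  have h2 := h (j - i) v
  rw [zero_add] at h1
  rw [sub_add_cancel] at h2
  rw [h1, h2, LinearIsometry.inner_map_map, cor]

lemma J_E_ae (W : PM) (j : ℤ) (n : Gam) :
    J W j (E n) =ᵐ[haar.prod W] fun z => e n z.1 * e (j • n) z.2 := by
  refine (cmp_ae' _ (E_ae n)).trans (ae_of_all _ fun z => ?_)
  simp only [e_add_right, e_zsmul_right]

lemma cor_E (W : PM) (n m : Gam) (j : ℤ) :
    cor W (E n) (E m) j = if n = m then hat W (j • n) else 0 := by
  rw [cor, inner_of_ae (J_E_ae W 0 n) (J_E_ae W j m)]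
  simp only [zero_smul, e_zero, mul_one, ← mul_assoc, ← isCh_e.neg_apply, ← isCh_e.add_apply]
  rw [integral_prod_mul (fun x => e (-n + m) x) (fun a => e (j • m) a)]
  change hat haar _ * hat W _ = _
  rw [hat_haar]
  simp only [neg_add_eq_zero]
  split_ifs with h
  · simp [h]
  · simp

lemma cor_sum (W : PM) {ι κ : Type*} (s : Finset ι) (t : Finset κ) (a : ι → ℂ) (b : κ → ℂ)
    (u : ι → H) (v : κ → H) (j : ℤ) :
    cor W (∑ i ∈ s, a i • u i) (∑ k ∈ t, b k • v k) j =
      ∑ i ∈ s, ∑ k ∈ t, conj (a i) * b k * cor W (u i) (v k) j := by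
  simp only [cor, map_sum, map_smul, sum_inner, inner_sum, inner_smul_left, inner_smul_right,
    Finset.mul_sum, mul_assoc]
  rw [Finset.sum_comm]
  refine Finset.sum_congr rfl fun i _ => Finset.sum_congr rfl fun k _ => by ring

lemma cor_poly (W : PM) (c : Gam →₀ ℂ) (j : ℤ) :
    cor W (poly c) (poly c) j = ∑ n ∈ c.support, ((‖c n‖ ^ 2 : ℝ) : ℂ) * hat W (j • n) := by
  classical
  rw [poly_apply, cor_sum]
  refine Finset.sum_congr rfl fun n hn => ?_
  simp only [cor_E, mul_ite, mul_zero, Finset.sum_ite_eq, if_pos hn, Complex.conj_mul']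
  push_cast; ring

lemma cor_zero (W : PM) (u v : H) : cor W u v 0 = ⟪u, v⟫_ℂ := by
  rw [cor, LinearIsometry.inner_map_map]

lemma norm_cor_sub (W : PM) (u v u' v' : H) (j : ℤ) :
    ‖cor W u' v' j - cor W u v j‖ ≤ ‖u' - u‖ * ‖v'‖ + ‖u‖ * ‖v' - v‖ := by
  have : cor W u' v' j - cor W u v j = ⟪J W 0 (u' - u), J W j v'⟫_ℂ + ⟪J W 0 u, J W j (v' - v)⟫_ℂ := by
    simp only [cor, map_sub, inner_sub_left, inner_sub_right]; ring
  rw [this]
  refine (norm_add_le _ _).trans (add_le_add ?_ ?_) <;>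
  exact (norm_inner_le_norm _ _).trans (by simp only [LinearIsometry.norm_map]; rfl)

end
end Vale.Agent.P130
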