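import Mathlib

open MeasureTheory Filter Topology
open scoped ComplexConjugate

namespace Vale.Agent.P130
noncomputable section

variable {X Γ : Type*} [TopologicalSpace X] [AddCommGroup Γ]

structure IsCh (χ : Γ → C(X, ℂ)) : Prop where
  zero : χ 0 = 1
  add : ∀ a b, χ (a + b) = χ a * χ b
  neg : ∀ a, χ (-a) = star (χ a)
  norm : ∀ a x, ‖χ a x‖ = 1

def TP (χ : Γ → C(X, ℂ)) : Submodule ℂ C(X, ℂ) := Submodule.span ℂ (Set.range χ)

variable {χ : Γ → C(X, ℂ)}

omit [AddCommGroup Γ] in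
lemma TP_ch (a : Γ) : χ a ∈ TP χ := Submodule.subset_span ⟨a, rfl⟩

lemma IsCh.add_apply (h : IsCh χ) (a b : Γ) (x : X) : χ (a + b) x = χ a x * χ b x := by
  rw [h.add]; rfl

lemma IsCh.neg_apply (h : IsCh χ) (a : Γ) (x : X) : χ (-a) x = conj (χ a x) := by
  rw [h.neg]; rfl

lemma IsCh.zero_apply (h : IsCh χ) (x : X) : χ 0 x = 1 := by
  rw [h.zero]; rfl

lemma IsCh.one_mem (h : IsCh χ) : (1 : C(X, ℂ)) ∈ TP χ := h.zero ▸ TP_ch 0

lemma IsCh.mul_mem (h : IsCh χ) {φ ψ : C(X, ℂ)} (hφ : φ ∈ TP χ) (hψ : ψ ∈ TP χ) :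
    φ * ψ ∈ TP χ := by
  induction hφ using Submodule.span_induction with
  | mem x hx =>
    obtain ⟨a, rfl⟩ := hx
    induction hψ using Submodule.span_induction with
    | mem y hy => obtain ⟨b, rfl⟩ := hy; rw [← h.add]; exact TP_ch _
    | zero => simp
    | add y z _ _ hy hz => rw [mul_add]; exact add_mem hy hz
    | smul c y _ hy => rw [mul_smul_comm]; exact Submodule.smul_mem _ _ hy
  | zero => simp
  | add y z _ _ hy hz => rw [add_mul]; exact add_mem hy hz
  | smul c y _ hy => rw [smul_mul_assoc]; exact Submodule.smul_mem _ _ hy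

lemma IsCh.star_mem (h : IsCh χ) {φ : C(X, ℂ)} (hφ : φ ∈ TP χ) : star φ ∈ TP χ := by
  induction hφ using Submodule.span_induction with
  | mem x hx => obtain ⟨a, rfl⟩ := hx; rw [← h.neg]; exact TP_ch _
  | zero => simp
  | add y z _ _ hy hz => rw [star_add]; exact add_mem hy hz
  | smul c y _ hy => rw [star_smul]; exact Submodule.smul_mem _ _ hy

def IsCh.alg (h : IsCh χ) : StarSubalgebra ℂ C(X, ℂ) where
  carrier := TP χ
  mul_mem' := h.mul_mem
  add_mem' := add_mem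
  algebraMap_mem' c := by
    rw [Algebra.algebraMap_eq_smul_one]; exact Submodule.smul_mem _ _ h.one_mem
  star_mem' := h.star_mem

lemma IsCh.dense [CompactSpace X] (h : IsCh χ) (sep : ∀ x y, x ≠ y → ∃ a, χ a x ≠ χ a y) :
    Dense (TP χ : Set C(X, ℂ)) := by
  have := ContinuousMap.starSubalgebra_topologicalClosure_eq_top_of_separatesPoints h.alg (by
    intro x y hxy
    obtain ⟨a, ha⟩ := sep x y hxy
    exact ⟨_, ⟨χ a, TP_ch a, rfl⟩, ha⟩)
  intro φ
  have h2 : φ ∈ h.alg.topologicalClosure := this ▸ StarSubalgebra.mem_top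
  exact h2

def toC : C(X, ℝ) →ₐ[ℝ] C(X, ℂ) := Complex.ofRealAm.compLeftContinuous ℝ Complex.continuous_ofReal

@[simp] lemma toC_apply (φ : C(X, ℝ)) (x : X) : toC φ x = (φ x : ℂ) := rfl

def IsCh.RT (h : IsCh χ) : Subalgebra ℝ C(X, ℝ) :=
  (h.alg.toSubalgebra.restrictScalars ℝ).comap toC

lemma IsCh.mem_RT (h : IsCh χ) {φ : C(X, ℝ)} : φ ∈ h.RT ↔ toC φ ∈ TP χ := Iff.rfl

def reC (φ : C(X, ℂ)) : C(X, ℝ) := ⟨fun x => (φ x).re, by fun_prop⟩
def imC (φ : C(X, ℂ)) : C(X, ℝ) := ⟨fun x => (φ x).im, by fun_prop⟩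
@[simp] lemma reC_apply (φ : C(X, ℂ)) (x : X) : reC φ x = (φ x).re := rfl
@[simp] lemma imC_apply (φ : C(X, ℂ)) (x : X) : imC φ x = (φ x).im := rfl

lemma IsCh.re_mem (h : IsCh χ) {φ : C(X, ℂ)} (hφ : φ ∈ TP χ) : reC φ ∈ h.RT := by
  rw [h.mem_RT]
  have : toC (reC φ) = (1 / 2 : ℂ) • (φ + star φ) := by
    ext x
    simp only [toC_apply, reC_apply, ContinuousMap.smul_apply, ContinuousMap.add_apply,
      ContinuousMap.star_apply, smul_eq_mul, RCLike.star_def, Complex.add_conj]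
    push_cast; ring
  rw [this]
  exact Submodule.smul_mem _ _ (add_mem hφ (h.star_mem hφ))

lemma IsCh.im_mem (h : IsCh χ) {φ : C(X, ℂ)} (hφ : φ ∈ TP χ) : imC φ ∈ h.RT := by
  have : imC φ = reC ((-Complex.I) • φ) := by
    ext x; simp
  rw [this]
  exact h.re_mem (Submodule.smul_mem _ _ hφ)

section meas
variable [CompactSpace X] [MeasurableSpace X] [OpensMeasurableSpace X]

lemma integrable_C {E : Type*} [NormedAddCommGroup E] [SecondCountableTopology E]
    [MeasurableSpace E] [BorelSpace E] (φ : C(X, E)) (μ : Measure X) [IsFiniteMeasure μ] : Integrable φ μ :=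
  (BoundedContinuousFunction.mkOfCompact φ).integrable μ

lemma integrable_comp_mul {Y : Type*} [MeasurableSpace Y] {μ : Measure Y} {g : Y → X}
    (hg : Measurable g) {ρ : Y → ℂ} (hρ : Integrable ρ μ) (φ : C(X, ℂ)) :
    Integrable (fun y => φ (g y) * ρ y) μ :=
  hρ.bdd_mul (c := ‖φ‖) (φ.continuous.measurable.comp hg).aestronglyMeasurable
    (ae_of_all _ fun _ => φ.norm_coe_le_norm _)

def intL {Y : Type*} [MeasurableSpace Y] (μ : Measure Y) (g : Y → X) (hg : Measurable g)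
    (ρ : Y → ℂ) (hρ : Integrable ρ μ) : C(X, ℂ) →L[ℂ] ℂ :=
  LinearMap.mkContinuous
    { toFun := fun φ => ∫ y, φ (g y) * ρ y ∂μ
      map_add' := fun φ ψ => by
        rw [← integral_add (integrable_comp_mul hg hρ φ) (integrable_comp_mul hg hρ ψ)]
        simp [add_mul]
      map_smul' := fun c φ => by
        simp [mul_assoc, integral_const_mul] } (∫ y, ‖ρ y‖ ∂μ) (fun φ => by
      simp only [LinearMap.coe_mk, AddHom.coe_mk]
      rw [← integral_mul_const]
      refine norm_integral_le_of_norm_le (hρ.norm.mul_const _) (ae_of_all _ fun y => ?_)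
      rw [norm_mul, mul_comm]
      gcongr
      exact φ.norm_coe_le_norm _)

omit [AddCommGroup Γ] in
lemma int_ext (hd : Dense (TP χ : Set C(X, ℂ)))
    {Y Y' : Type*} [MeasurableSpace Y] [MeasurableSpace Y'] {μ : Measure Y} {μ' : Measure Y'}
    {g : Y → X} (hg : Measurable g) {g' : Y' → X} (hg' : Measurable g')
    {ρ : Y → ℂ} (hρ : Integrable ρ μ) {ρ' : Y' → ℂ} (hρ' : Integrable ρ' μ')
    (h : ∀ a, ∫ y, χ a (g y) * ρ y ∂μ = ∫ y, χ a (g' y) * ρ' y ∂μ') (φ : C(X, ℂ)) :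
    ∫ y, φ (g y) * ρ y ∂μ = ∫ y, φ (g' y) * ρ' y ∂μ' := by
  have : intL μ g hg ρ hρ = intL μ' g' hg' ρ' hρ' := by
    apply ContinuousLinearMap.ext_on (s := Set.range χ) hd
    rintro _ ⟨a, rfl⟩
    exact h a
  exact congrArg (fun T : C(X, ℂ) →L[ℂ] ℂ => T φ) this

def FSf (χ : Γ → C(X, ℂ)) (μ : Measure X) (φ : C(X, ℂ)) : Prop :=
  {m | ∫ x, χ m x * φ x ∂μ ≠ 0}.Finite

lemma IsCh.fsf (h : IsCh χ) {μ : Measure X} [IsFiniteMeasure μ] (hμ : FSf χ μ 1)
    {φ : C(X, ℂ)} (hφ : φ ∈ TP χ) : FSf χ μ φ := by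
  induction hφ using Submodule.span_induction with
  | mem x hx =>
    obtain ⟨a, rfl⟩ := hx
    refine (hμ.preimage (f := fun m => m + a) (add_left_injective a).injOn).subset ?_
    intro m hm
    simpa [h.add_apply] using hm
  | zero => simp [FSf]
  | add y z _ _ hy hz =>
    refine (hy.union hz).subset ?_
    intro m hm
    by_contra hc
    simp only [Set.mem_union, Set.mem_ofPred_eq, not_or, not_not] at hc
    apply hm
    simp only [ContinuousMap.add_apply, mul_add]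
    have := integral_add (integrable_C (χ m * y) μ) (integrable_C (χ m * z) μ)
    simp only [ContinuousMap.mul_apply] at this
    rw [this, hc.1, hc.2, add_zero]
  | smul c y _ hy =>
    refine hy.subset ?_
    intro m hm hc
    apply hm
    simp only [ContinuousMap.smul_apply, smul_eq_mul, mul_left_comm _ c]
    rw [integral_const_mul, hc, mul_zero]

/-- avoiding a finite set along a ray, uniformly in a transversal direction -/
lemma ray_avoid {S : Set Γ} (hS : S.Finite) (p : Γ) (R : Set Γ)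
    (hR : ∀ r ∈ R, ∀ r' ∈ R, ∀ M M' : ℕ, r + (M : ℤ) • p = r' + (M' : ℤ) • p → M = M') :
    ∀ᶠ M : ℕ in atTop, ∀ r ∈ R, r + (M : ℤ) • p ∉ S := by
  rw [← Nat.cofinite_eq_atTop, eventually_cofinite]
  have : ∀ σ ∈ S, {M : ℕ | ∃ r ∈ R, r + (M : ℤ) • p = σ}.Finite := by
    intro σ _
    apply Set.Subsingleton.finite
    rintro M ⟨r, hr, h1⟩ M' ⟨r', hr', h2⟩
    exact hR r hr r' hr' M M' (h1.trans h2.symm)
  refine (hS.biUnion this).subset ?_
  intro M hM
  simp only [Set.mem_ofPred_eq, not_forall, not_not] at hM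
  obtain ⟨r, hr, h⟩ := hM
  exact Set.mem_biUnion h ⟨r, hr, rfl⟩

end meas

lemma int_zero_of_translate {Y : Type*} [AddCommGroup Y] [MeasurableSpace Y] [MeasurableAdd Y]
    (μ : Measure Y) [μ.IsAddRightInvariant] (φ : Y → ℂ) (t : Y) (l : ℂ) (hl : l ≠ 1)
    (h : ∀ x, φ (x + t) = l * φ x) : ∫ x, φ x ∂μ = 0 := by
  have h1 := integral_add_right_eq_self (μ := μ) φ t
  simp only [h, integral_const_mul] at h1
  have : (l - 1) * ∫ x, φ x ∂μ = 0 := by rw [sub_mul, h1]; ring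
  exact (mul_eq_zero.1 this).resolve_left (sub_ne_zero.2 hl)

end
end Vale.Agent.P130
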