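import Vale.Agent.P130.Kernel

open MeasureTheory Filter Topology
open scoped ComplexConjugate InnerProductSpace

namespace Vale.Agent.P130
noncomputable section

section IC
variable {X : Type*} [TopologicalSpace X] [CompactSpace X] [MeasurableSpace X]
  [OpensMeasurableSpace X] (μ : Measure X) [IsFiniteMeasure μ]

def IC : C(X, ℂ) →ₗ[ℂ] ℂ where
  toFun φ := ∫ x, φ x ∂μ
  map_add' φ ψ := integral_add (integrable_C φ μ) (integrable_C ψ μ)
  map_smul' c φ := integral_smul c φ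

def IR : C(X, ℝ) →ₗ[ℝ] ℝ where
  toFun φ := ∫ x, φ x ∂μ
  map_add' φ ψ := integral_add (integrable_C φ μ) (integrable_C ψ μ)
  map_smul' c φ := integral_smul c φ

lemma IC_apply (φ : C(X, ℂ)) : IC μ φ = ∫ x, φ x ∂μ := rfl
lemma IR_apply (φ : C(X, ℝ)) : IR μ φ = ∫ x, φ x ∂μ := rfl

lemma IC_toC (φ : C(X, ℝ)) : IC μ (toC φ) = (IR μ φ : ℂ) := by
  simp only [IC_apply, IR_apply, toC_apply, integral_complex_ofReal]

lemma IR_mono {φ ψ : C(X, ℝ)} (h : ∀ x, φ x ≤ ψ x) : IR μ φ ≤ IR μ ψ :=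
  integral_mono (integrable_C φ μ) (integrable_C ψ μ) h

lemma IR_nonneg {φ : C(X, ℝ)} (h : ∀ x, 0 ≤ φ x) : 0 ≤ IR μ φ := integral_nonneg h

lemma IC_star (φ : C(X, ℂ)) : IC μ (star φ) = conj (IC μ φ) := by
  simp only [IC_apply, ContinuousMap.star_apply, RCLike.star_def, integral_conj]

omit [CompactSpace X] [MeasurableSpace X] [OpensMeasurableSpace X] in
lemma toC_reC (φ : C(X, ℂ)) : toC (reC φ) = (1 / 2 : ℂ) • (φ + star φ) := by
  ext x
  simp only [toC_apply, reC_apply, ContinuousMap.smul_apply, ContinuousMap.add_apply,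
    ContinuousMap.star_apply, smul_eq_mul, RCLike.star_def, Complex.add_conj]
  push_cast; ring

omit [CompactSpace X] [MeasurableSpace X] [OpensMeasurableSpace X] in
lemma toC_imC (φ : C(X, ℂ)) : toC (imC φ) = (-Complex.I / 2 : ℂ) • (φ - star φ) := by
  ext x
  simp only [toC_apply, imC_apply, ContinuousMap.smul_apply, ContinuousMap.sub_apply,
    ContinuousMap.star_apply, smul_eq_mul, RCLike.star_def, Complex.sub_conj]
  push_cast
  linear_combination ((φ x).im : ℂ) * Complex.I_sq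

omit [CompactSpace X] [MeasurableSpace X] [OpensMeasurableSpace X] in
lemma star_toC (φ : C(X, ℝ)) : star (toC φ) = toC φ := by
  ext x; simp

omit [CompactSpace X] [MeasurableSpace X] [OpensMeasurableSpace X] in
lemma toC_smul (r : ℝ) (φ : C(X, ℝ)) : toC (r • φ) = (r : ℂ) • toC φ := by
  ext x; simp

variable {Γ : Type*} [AddCommGroup Γ] {χ : Γ → C(X, ℂ)}

lemma ev_zero {φ : C(X, ℂ)} (hφ : FSf χ μ φ) (a : Γ) (R : Set Γ)
    (hR : ∀ r ∈ R, ∀ r' ∈ R, ∀ k : ℤ, r - r' = k • a → k = 0) :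
    ∀ᶠ M : ℕ in atTop, ∀ r ∈ R, IC μ (χ (r + (M : ℤ) • a) * φ) = 0 ∧
      IC μ (χ (r + (M : ℤ) • (-a)) * φ) = 0 := by
  have h1 := ray_avoid hφ a R fun r hr r' hr' M M' h => by
    have := hR r hr r' hr' (M' - M) (by rw [sub_smul, sub_eq_sub_iff_add_eq_add, h, add_comm])
    omega
  have h2 := ray_avoid hφ (-a) R fun r hr r' hr' M M' h => by
    have := hR r hr r' hr' (M - M') (by
      rw [smul_neg, smul_neg, ← sub_eq_add_neg, ← sub_eq_add_neg, sub_eq_sub_iff_sub_eq_sub] at h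
      rw [sub_smul, h])
    omega
  filter_upwards [h1, h2] with M h1 h2 r hr
  exact ⟨not_not.1 (h1 r hr), not_not.1 (h2 r hr)⟩

end IC

abbrev hc : Measure Cir := AddCircle.haarAddCircle

lemma IC_fo (j : ℤ) : IC hc (fo j) = dl j := by
  unfold dl
  split_ifs with h
  · simp [h, IC_apply]
  · refine int_zero_of_translate hc _ (((1 : ℝ) / 2 / j : ℝ) : Cir) (-1) (by norm_num) fun x => ?_
    rw [fo_add_right, fo_half h, mul_comm]

lemma fsf_fo {φ : C(Cir, ℂ)} (hφ : φ ∈ TP fo) : FSf fo hc φ := by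
  refine isCh_fo.fsf ((Set.finite_singleton 0).subset fun m hm => ?_) hφ
  by_contra h
  have := IC_fo m
  rw [dl, if_neg (by simpa using h)] at this
  exact hm (by simpa [IC_apply] using this)

lemma hat_eq_IC (W : PM) (m : Gam) : hat W m = IC (W : Measure G) (e m) := rfl

lemma fo_comp (j : ℤ) (n : Gam) : (fo j).comp (dotC n) = e (j • n) := by
  ext x; exact fo_dot j n x

lemma nonneg_of_int (a : C(Cir, ℝ)) (h : ∀ ψ : C(Cir, ℝ), (∀ ξ, 0 ≤ ψ ξ) → 0 ≤ IR hc (ψ * a))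
    (ξ : Cir) : 0 ≤ a ξ := by
  let ψ : C(Cir, ℝ) := ⟨fun ξ => max (-a ξ) 0, by fun_prop⟩
  have h1 := h ψ fun ξ => le_max_right _ _
  have h2 : ψ * a = -(ψ * ψ) := by
    ext ξ
    simp only [ψ, ContinuousMap.mul_apply, ContinuousMap.neg_apply, ContinuousMap.coe_mk]
    rcases le_total (-a ξ) 0 with h | h
    · simp [max_eq_right h]
    · simp [max_eq_left h]
  rw [h2, map_neg] at h1
  have h3 : IR hc (ψ * ψ) = 0 :=
    le_antisymm (by linarith) (IR_nonneg _ fun ξ => mul_self_nonneg _)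
  rw [IR_apply, integral_eq_zero_iff_of_nonneg (f := (ψ * ψ : C(Cir, ℝ)))
    (fun ξ => mul_self_nonneg (ψ ξ)) (integrable_C _ _)] at h3
  have h4 := congrFun ((Continuous.ae_eq_iff_eq hc (ψ * ψ).continuous continuous_zero).1 h3) ξ
  have h5 : ψ ξ = 0 := mul_self_eq_zero.1 h4
  have h6 : -a ξ ≤ ψ ξ := le_max_left _ _
  linarith

lemma den_unique {a a' : C(Cir, ℝ)} (h : ∀ j, IC hc (fo j * toC a) = IC hc (fo j * toC a')) :
    a = a' := by
  have h1 : ∀ ψ : C(Cir, ℝ), IR hc (ψ * a) = IR hc (ψ * a') := fun ψ => by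
    have := int_ext dense_fo measurable_id measurable_id (integrable_C (toC a) hc)
      (integrable_C (toC a') hc) h (toC ψ)
    apply Complex.ofReal_injective
    rw [← IC_toC, ← IC_toC, map_mul toC, map_mul toC]
    exact this
  ext ξ
  have h2 := nonneg_of_int (a - a') (fun ψ _ => by rw [mul_sub, map_sub, h1, sub_self]) ξ
  have h3 := nonneg_of_int (a' - a) (fun ψ _ => by rw [mul_sub, map_sub, h1, sub_self]) ξ
  simp only [ContinuousMap.sub_apply] at h2 h3
  linarith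

lemma push {W : PM} {n : Gam} {r : ℝ} {a : C(Cir, ℝ)}
    (h : ∀ j, (r : ℂ) * hat W (j • n) = IC hc (fo j * toC a)) (ψ : C(Cir, ℂ)) :
    (r : ℂ) * IC (W : Measure G) (ψ.comp (dotC n)) = IC hc (ψ * toC a) := by
  have := int_ext dense_fo (continuous_dot n).measurable measurable_id
    (integrable_const (μ := (W : Measure G)) (r : ℂ)) (integrable_C (toC a) hc) (fun j => by
      simp only [fo_dot, integral_mul_const]
      rw [mul_comm]; exact h j) ψ
  rw [integral_mul_const, mul_comm] at this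
  exact this

lemma pushR {W : PM} {n : Gam} {r : ℝ} {a : C(Cir, ℝ)}
    (h : ∀ j, (r : ℂ) * hat W (j • n) = IC hc (fo j * toC a)) (ψ : C(Cir, ℝ)) :
    r * IR (W : Measure G) (ψ.comp (dotC n)) = IR hc (ψ * a) := by
  apply Complex.ofReal_injective
  rw [← IC_toC, map_mul, ← push h, Complex.ofReal_mul, ← IC_toC]
  rfl

lemma den_nonneg {W : PM} {n : Gam} {r : ℝ} (hr : 0 ≤ r) {a : C(Cir, ℝ)}
    (h : ∀ j, (r : ℂ) * hat W (j • n) = IC hc (fo j * toC a)) (ξ : Cir) : 0 ≤ a ξ :=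
  nonneg_of_int a (fun ψ hψ => by
    rw [← pushR h]; exact mul_nonneg hr (IR_nonneg _ fun x => hψ _)) ξ

lemma exists_RT (s : ℤ → ℂ) (s₀ : Finset ℤ) (hz : ∀ j ∉ s₀, s j = 0)
    (hs : ∀ j, s (-j) = conj (s j)) : ∃ a ∈ isCh_fo.RT, (∀ j, IC hc (fo j * toC a) = s j) ∧
      ∀ ξ, a ξ = (∑ j ∈ s₀, s j * fo (-j) ξ).re := by
  classical
  set A : C(Cir, ℂ) := ∑ j ∈ s₀, s j • fo (-j) with hA
  have h1 : ∀ i, IC hc (fo i * A) = s i := fun i => by
    simp only [hA, Finset.mul_sum, map_sum, mul_smul_comm, map_smul, ← isCh_fo.add, IC_fo, dl,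
      add_neg_eq_zero, smul_eq_mul, mul_ite, mul_one, mul_zero, Finset.sum_ite_eq]
    split_ifs with h
    exacts [rfl, (hz i h).symm]
  refine ⟨reC A, isCh_fo.re_mem (sum_mem fun j _ => Submodule.smul_mem _ _ (TP_ch _)),
    fun j => ?_, fun ξ => by simp [hA]⟩
  have h2 : fo j * star A = star (fo (-j) * A) := by
    rw [star_mul', ← isCh_fo.neg, neg_neg]
  rw [toC_reC, mul_smul_comm, mul_add, map_smul, map_add, h2, IC_star, h1, h1, hs]
  simp; ring

lemma RT_comp {ψ : C(Cir, ℝ)} (h : ψ ∈ isCh_fo.RT) (n : Gam) : ψ.comp (dotC n) ∈ isCh_e.RT := by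
  have : ∀ φ ∈ TP fo, φ.comp (dotC n) ∈ TP e := fun φ hφ => by
    induction hφ using Submodule.span_induction with
    | mem x hx => obtain ⟨j, rfl⟩ := hx; rw [fo_comp]; exact TP_ch _
    | zero => exact zero_mem _
    | add y z _ _ hy hz => exact add_mem hy hz
    | smul c y _ hy => exact Submodule.smul_mem _ c hy
  exact this _ h

lemma exists_fresh {S : Set Gam} (hS : S.Finite) : ∃ d, ∀ m ∈ S, ∀ i, d ≤ i → m i = 0 := by
  obtain ⟨d, hd⟩ := (hS.biUnion fun m _ => m.support.finite_toSet).bddAbove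
  refine ⟨d + 1, fun m hm i hi => ?_⟩
  by_contra h
  have := hd (Set.mem_biUnion hm (Finsupp.mem_support_iff.2 h))
  omega

lemma exists_wd' (W : PM) (hW : FS W) (ρ : C(G, ℝ)) (hρ : ρ ∈ isCh_e.RT) (h0 : ∀ x, 0 ≤ ρ x)
    (h1 : IC (W : Measure G) (toC ρ) = 1) :
    ∃ W' : PM, FS W' ∧ ∀ m, hat W' m = IC (W : Measure G) (e m * toC ρ) := by
  obtain ⟨W', h⟩ := exists_wd W ρ h0 (by
    rw [IC_toC] at h1; exact_mod_cast h1)
  exact ⟨W', fs_of_wd hW hρ h, fun m => h _⟩

lemma cor_poly' (W : PM) (c : Gam →₀ ℂ) (j : ℤ) {s : Finset Gam} (hs : c.support ⊆ s) :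
    cor W (poly c) (poly c) j = ∑ n ∈ s, ((‖c n‖ ^ 2 : ℝ) : ℂ) * hat W (j • n) := by
  rw [cor_poly]
  refine Finset.sum_subset hs fun n _ hn => ?_
  simp [Finsupp.notMem_support_iff.1 hn]

lemma Valid.sum_neg {c : Gam →₀ ℂ} (hc : Valid c) {M : Type*} [AddCommMonoid M] (F : Gam → M) :
    ∑ n ∈ c.support, F (-n) = ∑ n ∈ c.support, F n :=
  Finset.sum_nbij' Neg.neg Neg.neg (fun _ h => hc.neg_mem h) (fun _ h => hc.neg_mem h)
    (fun _ _ => neg_neg _) (fun _ _ => neg_neg _) fun _ _ => rfl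

lemma cor_neg {W : PM} {c : Gam →₀ ℂ} (hc : Valid c) (j : ℤ) :
    cor W (poly c) (poly c) (-j) = cor W (poly c) (poly c) j := by
  rw [cor_poly, cor_poly, ← hc.sum_neg]
  simp [hc.2]

lemma cor_conj (W : PM) (c : Gam →₀ ℂ) (j : ℤ) :
    cor W (poly c) (poly c) (-j) = conj (cor W (poly c) (poly c) j) := by
  simp only [cor_poly, neg_smul, hat_neg, map_sum, map_mul, Complex.conj_ofReal]

lemma fresh_int {W : PM} {z : ℕ} (hz : ∀ m, hat W m ≠ 0 → m z = 0) {m : Gam} (hm : m z = 0)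
    {ψ : C(Cir, ℂ)} (hψ : ψ ∈ TP fo) :
    IC (W : Measure G) (e m * ψ.comp (dotC (Finsupp.single z 1))) = hat W m * IC hc ψ := by
  induction hψ using Submodule.span_induction with
  | mem x hx =>
    obtain ⟨j, rfl⟩ := hx
    rw [fo_comp, ← isCh_e.add, ← hat_eq_IC, IC_fo, dl]
    split_ifs with h
    · simp [h]
    · rw [mul_zero]
      by_contra hc
      have := hz _ hc
      simp [hm, h] at this
  | zero => simp
  | add y z _ _ hy hz => rw [ContinuousMap.add_comp, mul_add, map_add, map_add, hy, hz, mul_add]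
  | smul c y _ hy =>
    rw [ContinuousMap.smul_comp, mul_smul_comm, map_smul, map_smul, hy]; simp; ring

theorem fill {γ : ℝ} (hγ : 0 < γ) : ∃ ε : ℝ, 0 < ε ∧ ∀ (W : PM) (c : Gam →₀ ℂ), FS W → Valid c →
    NP c → AF W (poly c) ε → ∀ Φ : Finset Gam, ∃ (W' : PM) (c' : Gam →₀ ℂ), FS W' ∧ Valid c' ∧
      NP c' ∧ c.support ⊆ c'.support ∧ Flat W' (poly c') ∧ ‖poly c' - poly c‖ ≤ γ ∧
      ∀ m ∈ Φ, hat W' m = hat W m := by
  classical
  refine ⟨min (1 / 2) (min (γ / 4) (γ ^ 2 / 24)), by positivity, ?_⟩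
  set ε := min (1 / 2) (min (γ / 4) (γ ^ 2 / 24))
  have hε : 0 < ε := by positivity
  have hε1 : ε ≤ 1 / 2 := min_le_left _ _
  have hε2 : ε ≤ γ / 4 := (min_le_right _ _).trans (min_le_left _ _)
  have hε3 : ε ≤ γ ^ 2 / 24 := (min_le_right _ _).trans (min_le_right _ _)
  intro W c hW hval hNP hAF Φ
  obtain ⟨z, hz⟩ := exists_fresh (hW.union (c.support ∪ Φ).finite_toSet)
  have hz1 : ∀ m, hat W m ≠ 0 → m z = 0 := fun m hm => hz m (Or.inl hm) z le_rfl
  have hz2 : ∀ m ∈ c.support, m z = 0 := fun m hm =>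
    hz m (Or.inr (Finset.mem_union_left _ hm)) z le_rfl
  have hz3 : ∀ m ∈ Φ, m z = 0 := fun m hm => hz m (Or.inr (Finset.mem_union_right _ hm)) z le_rfl
  set ez : Gam := Finsupp.single z 1 with hez
  obtain ⟨s₀, hs0, hs⟩ := exists_J0 hW c.support hval.zero_notMem
  set s := fun j => cor W (poly c) (poly c) j with hsdef
  obtain ⟨S, hS, hS1, hS2⟩ := exists_RT s s₀ (fun j hj => by
    simp only [hsdef, cor_poly]
    exact Finset.sum_eq_zero fun n hn => by rw [hs j hj n hn, mul_zero]) (cor_conj W c)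
  have hSle : ∀ ξ, S ξ ≤ 1 + ε := fun ξ => by
    have h1 : ∑ j ∈ s₀, s j * fo (-j) ξ = 1 + ∑ j ∈ s₀, (s j - dl j) * fo (-j) ξ := by
      simp only [sub_mul, Finset.sum_sub_distrib, dl, ite_mul, one_mul, zero_mul,
        Finset.sum_ite_eq', if_pos hs0, neg_zero, isCh_fo.zero_apply]
      ring
    rw [hS2, h1, Complex.add_re, Complex.one_re]
    refine add_le_add le_rfl ((Complex.re_le_norm _).trans ((norm_sum_le _ _).trans ?_))
    simpa only [norm_mul, isCh_fo.norm, mul_one] using hAF s₀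
  set N := ‖poly c‖ ^ 2 with hN
  have hs00 : s 0 = (N : ℂ) := by
    simp only [hsdef, cor_zero, inner_self_eq_norm_sq_to_K, hN]; simp
  have hNb : |N - 1| ≤ ε := by
    have := hAF {0}
    rw [Finset.sum_singleton] at this
    change ‖s 0 - dl 0‖ ≤ ε at this
    rw [hs00, dl, if_pos rfl] at this
    rw [← Real.norm_eq_abs, ← Complex.norm_real]
    simpa using this
  obtain ⟨hN1, hN2⟩ := abs_le.1 hNb
  set l := 1 - ε with hl
  have hl0 : 0 < l := by linarith
  have hl2 : l ^ 2 * (1 + ε) < 1 := by rw [hl]; nlinarith [mul_pos hε hε]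
  set δ := 1 - l ^ 2 * N with hδ
  have hδ0 : 0 < δ := by
    have : l ^ 2 * N ≤ l ^ 2 * (1 + ε) := by gcongr; linarith
    linarith
  have hδ1 : δ ≤ 3 * ε := by
    have : l ^ 2 * l ≤ l ^ 2 * N := by gcongr; linarith
    have h2 : 1 - 3 * ε ≤ l ^ 2 * l := by rw [hl]; nlinarith [mul_pos hε hε]
    linarith
  set ρ : C(Cir, ℝ) := δ⁻¹ • (1 - l ^ 2 • S) with hρ
  have hρR : ρ ∈ isCh_fo.RT :=
    Subalgebra.smul_mem _ (sub_mem (one_mem _) (Subalgebra.smul_mem _ hS _)) _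
  have hρc : ∀ j, IC hc (fo j * toC ρ) = (δ : ℂ)⁻¹ * (dl j - (l : ℂ) ^ 2 * s j) := fun j => by
    rw [hρ, toC_smul, map_sub, toC_smul, map_one]
    simp only [mul_smul_comm, mul_sub, mul_one, map_smul, map_sub, hS1, IC_fo, smul_eq_mul]
    push_cast; ring
  have hδC : (δ : ℂ) ≠ 0 := by exact_mod_cast hδ0.ne'
  have hρ1 : IC hc (toC ρ) = 1 := by
    have := hρc 0
    rw [isCh_fo.zero, one_mul, hs00, dl, if_pos rfl] at this
    rw [this, inv_mul_eq_iff_eq_mul₀ hδC, hδ]; push_cast; ring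
  have hfr : ∀ m, m z = 0 → IC (W : Measure G) (e m * toC (ρ.comp (dotC ez))) = hat W m :=
    fun m hm => by
      have := fresh_int hz1 hm (isCh_fo.mem_RT.1 hρR)
      rw [hρ1, mul_one] at this
      exact this
  obtain ⟨W', hW', hh⟩ := exists_wd' W hW (ρ.comp (dotC ez)) (RT_comp hρR ez) (fun x => by
    have := hSle (dot ez x)
    have h2 : l ^ 2 * S (dot ez x) ≤ l ^ 2 * (1 + ε) := by gcongr
    simp only [hρ, ContinuousMap.comp_apply, dotC_apply, ContinuousMap.smul_apply,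
      ContinuousMap.sub_apply, ContinuousMap.one_apply, smul_eq_mul]
    exact mul_nonneg (inv_nonneg.2 hδ0.le) (by linarith)) (by
      have := hfr 0 rfl
      rwa [isCh_e.zero, one_mul, hat_zero] at this)
  have hez1 : ∀ j : ℤ, hat W' (j • ez) = (δ : ℂ)⁻¹ * (dl j - (l : ℂ) ^ 2 * s j) := fun j => by
    have := fresh_int hz1 (m := 0) rfl (isCh_fo.mul_mem (TP_ch j) (isCh_fo.mem_RT.1 hρR))
    rw [hρc, hat_zero, one_mul, isCh_e.zero, one_mul, ContinuousMap.mul_comp, fo_comp] at this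
    rw [hh]; exact this
  set κ := √(δ / 2) with hκ
  have hκ0 : 0 < κ := Real.sqrt_pos.2 (by linarith)
  have hκ2 : κ ^ 2 = δ / 2 := Real.sq_sqrt (by linarith)
  set c' : Gam →₀ ℂ := (l : ℂ) • c + (Finsupp.single ez (κ : ℂ) + Finsupp.single (-ez) (κ : ℂ))
    with hc'
  have n1 : ez ∉ c.support := fun h => by simpa [hez] using hz2 _ h
  have n2 : -ez ∉ c.support := fun h => by simpa [hez] using hz2 _ h
  have n3 : ez ≠ -ez := fun h => by simpa [hez] using DFunLike.congr_fun h z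
  have n4 : ez ≠ 0 := fun h => by simpa [hez] using DFunLike.congr_fun h z
  have v1 : c' ez = κ := by simp [hc', Finsupp.notMem_support_iff.1 n1, n3]
  have v2 : c' (-ez) = κ := by simp [hc', Finsupp.notMem_support_iff.1 n2, n3.symm]
  have v3 : ∀ n, n ≠ ez → n ≠ -ez → c' n = l * c n := fun n h1 h2 => by
    simp [hc', h1.symm, h2.symm]
  have v4 : ∀ n ∈ c.support, c' n = l * c n := fun n hn =>
    v3 n (by rintro rfl; exact n1 hn) (by rintro rfl; exact n2 hn)
  have v5 : ∀ n, c' n ≠ 0 → n = ez ∨ n = -ez ∨ n ∈ c.support := fun n hn => by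
    by_contra h
    simp only [not_or, Finsupp.mem_support_iff, not_not] at h
    exact hn (by rw [v3 n h.1 h.2.1, h.2.2, mul_zero])
  have hlC : (l : ℂ) ≠ 0 := by exact_mod_cast hl0.ne'
  refine ⟨W', c', hW', ⟨?_, fun n => ?_⟩, ?_, fun n hn => ?_, fun j => ?_, ?_,
    fun m hm => by rw [hh, hfr m (hz3 m hm)]⟩
  · rw [v3 0 n4.symm (by simpa using n4), hval.1, mul_zero]
  · by_cases h1 : n = ez
    · rw [h1, v1, v2]
    by_cases h2 : n = -ez
    · rw [h2, neg_neg, v1, v2]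
    rw [v3 n h1 h2, v3 (-n) (fun h => h2 (neg_eq_iff_eq_neg.1 h)) (fun h => h1 (neg_inj.1 h)),
      norm_mul, norm_mul, hval.2]
  · intro k k' hk hk' a b ha hab
    have hab' := DFunLike.congr_fun hab z
    have h0 : k ≠ 0 := by
      rintro rfl
      exact hk (by rw [v3 0 n4.symm (by simpa using n4), hval.1, mul_zero])
    have hb : b ≠ 0 := by
      rintro rfl
      rw [zero_smul, smul_eq_zero] at hab
      exact hab.elim ha h0
    rcases v5 k hk with h1 | h1 | h1 <;> rcases v5 k' hk' with h2 | h2 | h2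
    · simp [h1, h2]
    · simp [h1, h2]
    · simp [h1, hez, hz2 _ h2, ha] at hab'
    · simp [h1, h2]
    · simp [h1, h2]
    · simp [h1, hez, hz2 _ h2, ha] at hab'
    · simp [h2, hez, hz2 _ h1, hb.symm] at hab'
    · simp [h2, hez, hz2 _ h1, hb] at hab'
    · exact hNP k k' (Finsupp.mem_support_iff.1 h1) (Finsupp.mem_support_iff.1 h2) a b ha hab
  · rw [Finsupp.mem_support_iff, v4 n hn]
    exact mul_ne_zero hlC (Finsupp.mem_support_iff.1 hn)
  · rw [cor_poly' W' c' j (s := insert ez (insert (-ez) c.support)) (fun n hn => by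
      simpa using v5 n (Finsupp.mem_support_iff.1 hn)),
      Finset.sum_insert (by simp only [Finset.mem_insert, not_or]; exact ⟨n3, n1⟩),
      Finset.sum_insert n2, v1, v2, smul_neg, ← neg_smul, hez1, hez1]
    have h1 : ∑ n ∈ c.support, ((‖c' n‖ ^ 2 : ℝ) : ℂ) * hat W' (j • n) = (l : ℂ) ^ 2 * s j := by
      simp only [hsdef, cor_poly, Finset.mul_sum]
      refine Finset.sum_congr rfl fun n hn => ?_
      rw [v4 n hn, hh, hfr _ (by simp [hz2 n hn]), norm_mul, Complex.norm_real,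
        Real.norm_of_nonneg hl0.le]
      push_cast; ring
    have h2 : s (-j) = s j := cor_neg hval j
    have h3 : dl (-j) = dl j := by simp [dl]
    rw [h1, h2, h3, Complex.norm_real, Real.norm_of_nonneg hκ0.le, hκ2]
    push_cast; field_simp; ring
  · have h1 : poly c' - poly c = ((-ε : ℝ) : ℂ) • poly c + ((κ : ℂ) • E ez + (κ : ℂ) • E (-ez)) := by
      simp only [hc', map_add, map_smul, poly_single, hl]
      push_cast
      module
    have h2 : ‖poly c‖ ≤ 2 := by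
      have := norm_nonneg (poly c)
      nlinarith
    have h3 : κ ≤ γ / 4 := by
      rw [hκ, Real.sqrt_le_left (by positivity)]
      nlinarith
    rw [h1]
    refine (norm_add_le _ _).trans ((add_le_add le_rfl (norm_add_le _ _)).trans ?_)
    simp only [norm_smul, Complex.norm_real, norm_E, Real.norm_eq_abs, abs_neg, abs_of_pos hε,
      abs_of_pos hκ0]
    nlinarith

end
end Vale.Agent.P130
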