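import Vale.Agent.P130.Den

open MeasureTheory Filter Topology
open scoped ComplexConjugate InnerProductSpace

namespace Vale.Agent.P130
noncomputable section

def Sys (W : PM) (c : Gam →₀ ℂ) (A : Gam → C(Cir, ℝ)) : Prop :=
  ∀ n ∈ c.support, A n ∈ isCh_fo.RT ∧
    ∀ j, ((‖c n‖ ^ 2 : ℝ) : ℂ) * hat W (j • n) = IC hc (fo j * toC (A n))

variable {W : PM} {c : Gam →₀ ℂ} {A : Gam → C(Cir, ℝ)}

lemma Sys.nonneg (h : Sys W c A) {n : Gam} (hn : n ∈ c.support) (ξ : Cir) : 0 ≤ A n ξ :=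
  den_nonneg (sq_nonneg _) (h n hn).2 ξ

lemma Sys.neg (h : Sys W c A) (hv : Valid c) {n : Gam} (hn : n ∈ c.support) (ξ : Cir) :
    A n (-ξ) = A (-n) ξ := by
  have : (A n).comp ⟨Neg.neg, continuous_neg⟩ = A (-n) := den_unique fun j => by
    rw [← (h _ (hv.neg_mem hn)).2, hv.2, smul_neg, ← neg_smul, (h n hn).2, IC_apply, IC_apply,
      ← integral_neg_eq_self]
    simp only [ContinuousMap.mul_apply, toC_apply, ContinuousMap.comp_apply, ContinuousMap.coe_mk,
      neg_neg, fo_neg_right]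
  exact DFunLike.congr_fun this ξ

lemma exists_sys (hW : FS W) (hv : Valid c) : ∃ A, Sys W c A := by
  obtain ⟨s₀, -, hs⟩ := exists_J0 hW c.support hv.zero_notMem
  have : ∀ n, ∃ a : C(Cir, ℝ), n ∈ c.support → a ∈ isCh_fo.RT ∧
      ∀ j, ((‖c n‖ ^ 2 : ℝ) : ℂ) * hat W (j • n) = IC hc (fo j * toC a) := fun n => by
    by_cases hn : n ∈ c.support
    · obtain ⟨a, h1, h2, -⟩ := exists_RT (fun j => ((‖c n‖ ^ 2 : ℝ) : ℂ) * hat W (j • n)) s₀
        (fun j hj => by rw [hs j hj n hn, mul_zero]) fun j => by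
          rw [neg_smul, hat_neg, map_mul, Complex.conj_ofReal]
      exact ⟨a, fun _ => ⟨h1, fun j => (h2 j).symm⟩⟩
    · exact ⟨0, fun h => absurd h hn⟩
  choose A hA using this
  exact ⟨A, hA⟩

lemma Sys.cor_eq (h : Sys W c A) (j : ℤ) :
    cor W (poly c) (poly c) j = IC hc (fo j * toC (∑ n ∈ c.support, A n)) := by
  rw [cor_poly, map_sum, Finset.mul_sum, map_sum]
  exact Finset.sum_congr rfl fun n hn => (h n hn).2 j

lemma Sys.flat_iff (h : Sys W c A) : Flat W (poly c) ↔ ∑ n ∈ c.support, A n = 1 := by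
  constructor
  · intro hF
    exact den_unique fun j => by rw [← h.cor_eq, hF, map_one, mul_one, IC_fo]
  · intro hF j
    rw [h.cor_eq, hF, map_one, mul_one, IC_fo]

lemma Sys.le_one (h : Sys W c A) (h1 : ∑ n ∈ c.support, A n = 1) {n : Gam} (hn : n ∈ c.support)
    (ξ : Cir) : A n ξ ≤ 1 := by
  have := Finset.single_le_sum (f := fun n => A n ξ) (fun n hn => h.nonneg hn ξ) hn
  have h2 := DFunLike.congr_fun h1 ξ
  simp only [ContinuousMap.coe_sum, Finset.sum_apply, ContinuousMap.one_apply] at h2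
  linarith

def sM (M : ℕ) : C(Cir, ℝ) := imC (fo M)

lemma sM_RT (M : ℕ) : sM M ∈ isCh_fo.RT := isCh_fo.im_mem (TP_ch _)

lemma abs_sM_le (M : ℕ) (ξ : Cir) : |sM M ξ| ≤ 1 :=
  (Complex.abs_im_le_norm _).trans (isCh_fo.norm _ _).le

lemma sM_neg (M : ℕ) (ξ : Cir) : sM M (-ξ) = -sM M ξ := by
  simp only [sM, imC_apply, fo_neg_right, isCh_fo.neg_apply, Complex.conj_im]

lemma ev_sM_G (hW : FS W) {ψ : C(Cir, ℝ)} (hψ : ψ ∈ isCh_fo.RT) (a : Gam) (R : Set Gam)
    (hR : ∀ r ∈ R, ∀ r' ∈ R, ∀ k : ℤ, r - r' = k • a → k = 0) :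
    ∀ᶠ M : ℕ in atTop, ∀ r ∈ R,
      IC (W : Measure G) (e r * toC ((ψ * sM M).comp (dotC a))) = 0 := by
  filter_upwards [ev_zero (W : Measure G) (hW.fsf (isCh_e.mem_RT.1 (RT_comp hψ a))) a R hR]
    with M hM r hr
  have : e r * toC ((ψ * sM M).comp (dotC a)) = (-Complex.I / 2 : ℂ) •
      (e (r + (M : ℤ) • a) * toC (ψ.comp (dotC a)) -
        e (r + (M : ℤ) • (-a)) * toC (ψ.comp (dotC a))) := by
    have h1 := toC_imC (fo M)
    ext x
    have h2 := DFunLike.congr_fun h1 (dot a x)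
    simp only [toC_apply, ContinuousMap.smul_apply, ContinuousMap.sub_apply,
      ContinuousMap.star_apply, fo_dot, RCLike.star_def, smul_eq_mul] at h2
    simp only [ContinuousMap.mul_apply, toC_apply, ContinuousMap.comp_apply, dotC_apply,
      ContinuousMap.smul_apply, ContinuousMap.sub_apply, isCh_e.add_apply, smul_neg,
      isCh_e.neg_apply, smul_eq_mul, Complex.ofReal_mul, sM, h2]
    ring
  rw [this, map_smul, map_sub, (hM r hr).1, (hM r hr).2]; simp

lemma ev_sM_C {ψ : C(Cir, ℝ)} (hψ : ψ ∈ isCh_fo.RT) :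
    ∀ᶠ M : ℕ in atTop, IR hc (ψ * sM M) = 0 ∧ IR hc (ψ * sM M ^ 2) = IR hc ψ / 2 := by
  have h := fsf_fo (isCh_fo.mem_RT.1 hψ)
  filter_upwards [ev_zero hc h 1 {0} (by simp), ev_zero hc h 2 {0} (by simp)] with M h1 h2
  have h1 := h1 0 rfl
  have h2 := h2 0 rfl
  simp only [zero_add, smul_eq_mul, mul_one, mul_neg] at h1 h2
  constructor
  · apply Complex.ofReal_injective
    rw [← IC_toC, map_mul toC, sM, toC_imC, ← isCh_fo.neg, mul_smul_comm, mul_sub, map_smul,
      map_sub, mul_comm, h1.1, mul_comm, h1.2]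
    simp
  · apply Complex.ofReal_injective
    have : toC (sM M ^ 2) = (1 / 2 : ℂ) • 1 - (1 / 4 : ℂ) • (fo (M * 2) + fo (-(M * 2))) := by
      rw [map_pow, sM, toC_imC, ← isCh_fo.neg, mul_two, neg_add, isCh_fo.add, isCh_fo.add]
      have h3 : fo M * fo (-M) = 1 := by rw [← isCh_fo.add, add_neg_cancel, isCh_fo.zero]
      ext ξ
      have h4 := DFunLike.congr_fun h3 ξ
      simp only [ContinuousMap.mul_apply, ContinuousMap.one_apply] at h4
      simp only [ContinuousMap.pow_apply, ContinuousMap.smul_apply, ContinuousMap.sub_apply,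
        ContinuousMap.add_apply, ContinuousMap.mul_apply, ContinuousMap.one_apply, smul_eq_mul]
      linear_combination (fo M ξ - fo (-M) ξ) ^ 2 / 4 * Complex.I_sq + (1 / 2) * h4
    rw [← IC_toC, map_mul toC, this, mul_sub, mul_smul_comm, mul_smul_comm, mul_add, map_sub,
      map_smul, map_smul, map_add, mul_comm _ (fo _), h2.1, mul_comm _ (fo _), h2.2, mul_one,
      IC_toC]
    simp; ring

open Classical in
def Dm (A : Gam → C(Cir, ℝ)) (a b n : Gam) : C(Cir, ℝ) :=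
  (if n = a then A b else 0) - (if n = -a then A (-b) else 0)

lemma ev_key (hW : FS W) (hv : Valid c) (hNP : NP c) (h : Sys W c A) {a b : Gam}
    (ha : a ∈ c.support) (hb : b ∈ c.support) :
    ∀ᶠ M : ℕ in atTop, ∀ n ∈ c.support, ∀ j : ℤ, ((‖c n‖ ^ 2 : ℝ) : ℂ) *
      IC (W : Measure G) (e (j • n) * toC ((A b * sM M).comp (dotC a))) =
        IC hc (fo j * toC (A n * sM M * Dm A a b n)) := by
  have ha0 : a ≠ 0 := by rintro rfl; exact hv.zero_notMem ha
  have hne : a ≠ -a := fun h => ha0 (by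
    have : (2 : ℤ) • a = 0 := by rw [two_smul]; nth_rewrite 2 [h]; exact add_neg_cancel a
    exact (smul_eq_zero.1 this).resolve_left two_ne_zero)
  rw [eventually_all_finset]
  intro n hn
  by_cases h1 : n = a
  · refine Eventually.of_forall fun M j => ?_
    subst h1
    have := push (h n hn).2 (fo j * toC (A b * sM M))
    rw [ContinuousMap.mul_comp, fo_comp] at this
    refine this.trans ?_
    simp only [Dm, if_neg hne, if_true, sub_zero, map_mul toC]
    congr 1; ring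
  by_cases h2 : n = -a
  · refine Eventually.of_forall fun M j => ?_
    have := push (h n hn).2 (fo j * toC (-(A (-b) * sM M)))
    rw [ContinuousMap.mul_comp, fo_comp] at this
    have h3 : toC ((A b * sM M).comp (dotC a)) = (toC (-(A (-b) * sM M))).comp (dotC n) := by
      ext x
      have : dot a x = -dot n x := by rw [h2, dot_neg, neg_neg]
      simp only [toC_apply, ContinuousMap.comp_apply, dotC_apply, ContinuousMap.mul_apply,
        ContinuousMap.neg_apply, this, h.neg hv hb, sM_neg, mul_neg]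
    rw [h3]
    refine this.trans ?_
    simp only [Dm, if_neg h1, if_pos h2, zero_sub, map_mul toC, map_neg]
    congr 1; ring
  filter_upwards [ev_sM_G hW (h b hb).1 a (Set.range fun j : ℤ => j • n) (by
    rintro _ ⟨j, rfl⟩ _ ⟨j', rfl⟩ k hk
    by_contra hk0
    rw [← sub_smul] at hk
    exact (hNP a n (Finsupp.mem_support_iff.1 ha) (Finsupp.mem_support_iff.1 hn) k _ hk0
      hk.symm).elim h1 h2)] with M hM j
  rw [hM _ ⟨j, rfl⟩]
  simp [Dm, h1, h2]

def En (c : Gam →₀ ℂ) (A : Gam → C(Cir, ℝ)) : ℝ := ∑ n ∈ c.support, IR hc (A n ^ 2)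

lemma Dm_RT (hv : Valid c) (h : Sys W c A) (a : Gam) {b : Gam} (hb : b ∈ c.support) (n : Gam) :
    Dm A a b n ∈ isCh_fo.RT := by
  refine sub_mem ?_ ?_ <;> split_ifs
  exacts [(h b hb).1, zero_mem _, (h _ (hv.neg_mem hb)).1, zero_mem _]

lemma sum_Dm (hv : Valid c) {a : Gam} (ha : a ∈ c.support) (b : Gam) :
    ∑ n ∈ c.support, A n * Dm A a b n = A a * A b - A (-a) * A (-b) := by
  simp only [Dm, mul_sub, Finset.sum_sub_distrib, mul_ite, mul_zero, Finset.sum_ite_eq',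
    if_pos ha, if_pos (hv.neg_mem ha)]

theorem modulate (hW : FS W) (hv : Valid c) (hNP : NP c) (h : Sys W c A)
    (h1 : ∑ n ∈ c.support, A n = 1) (Φ : Finset Gam) {p q : Gam} (hp : p ∈ c.support)
    (hq : q ∈ c.support) (hpq : p ≠ q) :
    ∃ (W' : PM) (A' : Gam → C(Cir, ℝ)), FS W' ∧ Sys W' c A' ∧ ∑ n ∈ c.support, A' n = 1 ∧
      (∀ m ∈ Φ, hat W' m = hat W m) ∧ En c A + IR hc (A p ^ 2 * A q ^ 2) / 8 ≤ En c A' := by
  classical
  set D := fun n => Dm A p q n - Dm A q p n with hD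
  have hDR : ∀ n, D n ∈ isCh_fo.RT := fun n => sub_mem (Dm_RT hv h _ hq n) (Dm_RT hv h _ hp n)
  have hz : ∀ {a b}, a ∈ c.support → b ∈ c.support → ∀ᶠ M : ℕ in atTop, ∀ m ∈ insert 0 Φ,
      IC (W : Measure G) (e m * toC ((A b * sM M).comp (dotC a))) = 0 := fun {a b} ha hb => by
    rw [eventually_all_finset]
    intro m _
    have ha0 : a ≠ 0 := by rintro rfl; exact hv.zero_notMem ha
    filter_upwards [ev_sM_G hW (h b hb).1 a {m} (by
      simp [ha0, eq_comm (a := (0 : Gam))])] with M hM using hM m rfl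
  have hE : ∀ᶠ M : ℕ in atTop, ∀ n ∈ c.support, IR hc (A n ^ 2 * D n * sM M) = 0 ∧
      IR hc (A n ^ 2 * D n ^ 2 * sM M ^ 2) = IR hc (A n ^ 2 * D n ^ 2) / 2 := by
    rw [eventually_all_finset]
    intro n hn
    filter_upwards [ev_sM_C (mul_mem (pow_mem (h n hn).1 2) (hDR n)),
      ev_sM_C (mul_mem (pow_mem (h n hn).1 2) (pow_mem (hDR n) 2))] with M h1 h2
    exact ⟨h1.1, h2.2⟩
  obtain ⟨M, k1, k2, z1, z2, hE⟩ := ((ev_key hW hv hNP h hp hq).and ((ev_key hW hv hNP h hq hp).and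
    ((hz hp hq).and ((hz hq hp).and hE)))).exists
  set ρ : C(G, ℝ) := 1 + (1 / 2 : ℝ) •
    ((A q * sM M).comp (dotC p) - (A p * sM M).comp (dotC q)) with hρ
  have hI : ∀ m, IC (W : Measure G) (e m * toC ρ) = hat W m + (1 / 2 : ℂ) *
      (IC (W : Measure G) (e m * toC ((A q * sM M).comp (dotC p))) -
        IC (W : Measure G) (e m * toC ((A p * sM M).comp (dotC q)))) := fun m => by
    rw [hρ, map_add, toC_smul, map_one, map_sub, mul_add, mul_one, mul_smul_comm, mul_sub,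
      map_add, map_smul, map_sub, hat_eq_IC]
    simp
  have hΦ : ∀ m ∈ insert 0 Φ, IC (W : Measure G) (e m * toC ρ) = hat W m := fun m hm => by
    rw [hI, z1 m hm, z2 m hm]; simp
  have hb : ∀ n ∈ c.support, ∀ ξ, |A n ξ * sM M ξ| ≤ 1 := fun n hn ξ => by
    rw [abs_mul, abs_of_nonneg (h.nonneg hn ξ)]
    exact mul_le_one₀ (h.le_one h1 hn ξ) (abs_nonneg _) (abs_sM_le M ξ)
  obtain ⟨W', hW', hh⟩ := exists_wd' W hW ρ (add_mem (one_mem _) (Subalgebra.smul_mem _
    (sub_mem (RT_comp (mul_mem (h q hq).1 (sM_RT M)) p) (RT_comp (mul_mem (h p hp).1 (sM_RT M)) q))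
      _)) (fun x => by
      have a1 := abs_le.1 (hb q hq (dot p x))
      have a2 := abs_le.1 (hb p hp (dot q x))
      simp only [hρ, ContinuousMap.add_apply, ContinuousMap.one_apply, ContinuousMap.smul_apply,
        ContinuousMap.sub_apply, ContinuousMap.comp_apply, ContinuousMap.mul_apply, dotC_apply,
        smul_eq_mul]
      linarith) (by
      have := hΦ 0 (Finset.mem_insert_self _ _)
      rwa [isCh_e.zero, one_mul, hat_zero] at this)
  refine ⟨W', fun n => A n + (1 / 2 : ℝ) • (A n * sM M * D n), hW', fun n hn => ⟨?_, fun j => ?_⟩,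
    ?_, fun m hm => by rw [hh, hΦ m (Finset.mem_insert_of_mem hm)], ?_⟩
  · exact add_mem (h n hn).1
      (Subalgebra.smul_mem _ (mul_mem (mul_mem (h n hn).1 (sM_RT M)) (hDR n)) _)
  · rw [hh, hI, mul_add, (h n hn).2, mul_left_comm, mul_sub, k1 n hn, k2 n hn, map_add toC,
      toC_smul, hD]
    simp only [mul_sub, map_sub, mul_add, map_add, mul_smul_comm, map_smul, smul_eq_mul]
    push_cast; ring
  · rw [Finset.sum_add_distrib, h1, ← Finset.smul_sum]
    have : ∑ n ∈ c.support, A n * sM M * D n = sM M * (∑ n ∈ c.support, A n * Dm A p q n -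
        ∑ n ∈ c.support, A n * Dm A q p n) := by
      rw [← Finset.sum_sub_distrib, Finset.mul_sum]
      exact Finset.sum_congr rfl fun n _ => by rw [hD]; ring
    rw [this, sum_Dm hv hp, sum_Dm hv hq]
    have : A p * A q - A (-p) * A (-q) - (A q * A p - A (-q) * A (-p)) = 0 := by ring
    rw [this]; simp
  · have e1 : ∀ n ∈ c.support, IR hc ((A n + (1 / 2 : ℝ) • (A n * sM M * D n)) ^ 2) =
        IR hc (A n ^ 2) + IR hc (A n ^ 2 * D n ^ 2) / 8 := fun n hn => by
      have : (A n + (1 / 2 : ℝ) • (A n * sM M * D n)) ^ 2 = A n ^ 2 + A n ^ 2 * D n * sM M +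
          (1 / 4 : ℝ) • (A n ^ 2 * D n ^ 2 * sM M ^ 2) := by
        ext ξ; simp; ring
      rw [this, map_add, map_add, map_smul, (hE n hn).1, (hE n hn).2]
      simp; ring
    simp only [En]
    rw [Finset.sum_congr rfl e1, Finset.sum_add_distrib]
    refine add_le_add le_rfl (le_trans ?_ (Finset.single_le_sum
      (f := fun n => IR hc (A n ^ 2 * D n ^ 2) / 8) (fun n _ => div_nonneg
        (IR_nonneg _ fun ξ => by simp; positivity) (by norm_num)) hp))
    have hp0 : p ≠ 0 := by rintro rfl; exact hv.zero_notMem hp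
    have hne : p ≠ -p := fun h => hp0 (by
      have : (2 : ℤ) • p = 0 := by rw [two_smul]; nth_rewrite 2 [h]; exact add_neg_cancel p
      exact (smul_eq_zero.1 this).resolve_left two_ne_zero)
    refine div_le_div_of_nonneg_right (IR_mono _ fun ξ => ?_) (by norm_num)
    have a1 := h.nonneg hq ξ
    have a2 := h.nonneg (hv.neg_mem hp) ξ
    have a3 : A q ξ ≤ D p ξ := by
      simp only [hD, Dm, if_neg hne, if_neg hpq, if_true]
      split_ifs <;> simp [a2]
    simp only [ContinuousMap.mul_apply, ContinuousMap.pow_apply]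
    gcongr

theorem separate (hW : FS W) (hv : Valid c) (hNP : NP c) (hF : Flat W (poly c)) (Φ : Finset Gam)
    {δ : ℝ} (hδ : 0 < δ) : ∃ (W' : PM) (A : Gam → C(Cir, ℝ)), FS W' ∧ Sys W' c A ∧
      ∑ n ∈ c.support, A n = 1 ∧ (∀ m ∈ Φ, hat W' m = hat W m) ∧
      ∀ p ∈ c.support, ∀ q ∈ c.support, p ≠ q → IR hc (A p ^ 2 * A q ^ 2) ≤ δ := by
  set S : Set ℝ := {r | ∃ (W' : PM) (A : Gam → C(Cir, ℝ)), FS W' ∧ Sys W' c A ∧
      ∑ n ∈ c.support, A n = 1 ∧ (∀ m ∈ Φ, hat W' m = hat W m) ∧ En c A = r}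
  have hne : S.Nonempty := by
    obtain ⟨A, hA⟩ := exists_sys hW hv
    exact ⟨_, W, A, hW, hA, hA.flat_iff.1 hF, fun _ _ => rfl, rfl⟩
  have hbd : BddAbove S := by
    refine ⟨c.support.card, ?_⟩
    rintro _ ⟨W', A, -, h2, h3, -, rfl⟩
    have : ∀ n ∈ c.support, IR hc (A n ^ 2) ≤ 1 := fun n hn => by
      have := IR_mono hc (φ := A n ^ 2) (ψ := 1) fun ξ =>
        pow_le_one₀ (h2.nonneg hn ξ) (h2.le_one h3 hn ξ)
      simpa [IR_apply] using this
    simpa [En] using Finset.sum_le_card_nsmul _ _ 1 this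
  obtain ⟨_, ⟨W', A, h1, h2, h3, h4, rfl⟩, h5⟩ :=
    exists_lt_of_lt_csSup hne (sub_lt_self (sSup S) (show 0 < δ / 8 by positivity))
  refine ⟨W', A, h1, h2, h3, h4, fun p hp q hq hpq => ?_⟩
  obtain ⟨W'', A', k1, k2, k3, k4, k5⟩ := modulate h1 hv hNP h2 h3 Φ hp hq hpq
  have := le_csSup hbd ⟨W'', A', k1, k2, k3, fun m hm => (k4 m hm).trans (h4 m hm), rfl⟩
  linarith

theorem cyclic (c u : Gam →₀ ℂ) (hu : u.support ⊆ c.support) {η : ℝ} (hη : 0 < η) :
    ∃ δ : ℝ, 0 < δ ∧ ∀ (W : PM) (A : Gam → C(Cir, ℝ)), Sys W c A → ∑ n ∈ c.support, A n = 1 →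
      (∀ p ∈ c.support, ∀ q ∈ c.support, p ≠ q → IR hc (A p ^ 2 * A q ^ 2) ≤ δ) →
      ∃ (s : Finset ℤ) (p : ℤ → ℂ), ‖∑ j ∈ s, p j • J W j (poly c) - J W 0 (poly u)‖ < η := by
  classical
  set t := fun n => u n / c n with ht
  set T := 2 * ∑ m ∈ c.support, ‖t m‖ with hT
  set k : ℝ := (c.support.card : ℝ) with hk
  have hlim : Tendsto (fun ι : ℝ => k * √(T ^ 2 * (k * (2 * ι)))) (𝓝[>] 0) (𝓝 0) := by
    have : Continuous fun ι : ℝ => k * √(T ^ 2 * (k * (2 * ι))) := by fun_prop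
    simpa using (this.tendsto 0).mono_left (nhdsWithin_le_nhds (s := Set.Ioi 0))
  obtain ⟨ι, hι1, hι⟩ := ((hlim.eventually (gt_mem_nhds hη)).and self_mem_nhdsWithin).exists
  have hι : 0 < ι := hι
  refine ⟨ι ^ 2, by positivity, fun W A h h1 hδ => ?_⟩
  set τ : C(Cir, ℂ) := ∑ m ∈ c.support, t m • toC (A m) with hτ
  have hτT : τ ∈ TP fo := sum_mem fun m hm => Submodule.smul_mem _ _ (h m hm).1
  obtain ⟨P, hP⟩ := Finsupp.mem_span_range_iff_exists_finsupp.1 hτT
  refine ⟨P.support, P, lt_of_le_of_lt ?_ hι1⟩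
  have e1 : ∑ j ∈ P.support, P j • J W j (poly c) - J W 0 (poly u) =
      ∑ n ∈ c.support, c n • (∑ j ∈ P.support, P j • J W j (E n) - t n • J W 0 (E n)) := by
    have : poly u = ∑ n ∈ c.support, (c n * t n) • E n := by
      rw [poly_apply]
      refine (Finset.sum_subset hu fun n _ hn => by
        simp [Finsupp.notMem_support_iff.1 hn]).trans (Finset.sum_congr rfl fun n hn => ?_)
      rw [ht, mul_div_cancel₀ _ (Finsupp.mem_support_iff.1 hn)]
    rw [this, poly_apply]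
    simp only [map_sum, map_smul, Finset.smul_sum, smul_sub, Finset.sum_sub_distrib, mul_smul]
    rw [Finset.sum_comm]
    simp only [smul_comm (P _)]
  rw [e1]
  refine (norm_sum_le _ _).trans ?_
  refine (Finset.sum_le_card_nsmul _ _ _ fun n hn => ?_).trans_eq (nsmul_eq_mul _ _)
  apply Real.le_sqrt_of_sq_le
  have e2 : (∑ j ∈ P.support, P j • J W j (E n) - t n • J W 0 (E n) :
      Lp ℂ 2 (haar.prod (W : Measure G))) =ᵐ[haar.prod W]
        fun z => e n z.1 * (τ (dot n z.2) - t n) := by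
    have a1 : ∀ᵐ z ∂haar.prod (W : Measure G), ∀ j, (P j • J W j (E n) :
        Lp ℂ 2 (haar.prod (W : Measure G))) z = P j * (e n z.1 * e (j • n) z.2) :=
      ae_all_iff.2 fun j => by
        filter_upwards [Lp.coeFn_smul (P j) (J W j (E n)), J_E_ae W j n] with z h1 h2
        rw [h1, Pi.smul_apply, h2, smul_eq_mul]
    filter_upwards [Lp.coeFn_sub (∑ j ∈ P.support, P j • J W j (E n)) (t n • J W 0 (E n)),
      Lp.coeFn_finsetSum P.support fun j => P j • J W j (E n), a1,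
      Lp.coeFn_smul (t n) (J W 0 (E n)), J_E_ae W 0 n] with z h1 h2 h3 h4 h5
    rw [h1, Pi.sub_apply, h2, h4, Pi.smul_apply, h5, Finset.sum_apply, ← hP]
    simp only [h3, Finsupp.sum, ContinuousMap.coe_sum, Finset.sum_apply, ContinuousMap.smul_apply,
      fo_dot, smul_eq_mul, zero_smul, e_zero, mul_sub, Finset.mul_sum]
    congr 1
    · exact Finset.sum_congr rfl fun j _ => by ring
    · ring
  set ψ : C(Cir, ℝ) := ⟨fun ξ => ‖τ ξ - t n‖ ^ 2, by fun_prop⟩ with hψ
  have e3 : ‖c n • (∑ j ∈ P.support, P j • J W j (E n) - t n • J W 0 (E n))‖ ^ 2 =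
      IR hc (ψ * A n) := by
    rw [norm_smul, mul_pow, norm_sq_of_ae e2, ← pushR (h n hn).2]
    simp only [norm_mul, norm_e, one_mul]
    rw [integral_fun_snd (fun a => ‖τ (dot n a) - t n‖ ^ 2)]
    simp [IR_apply, hψ]
  rw [e3]
  have hT0 : ∀ m ∈ c.support, ‖t m - t n‖ ≤ T := fun m hm => by
    have a1 := Finset.single_le_sum (f := fun m => ‖t m‖) (fun _ _ => norm_nonneg _) hm
    have a2 := Finset.single_le_sum (f := fun m => ‖t m‖) (fun _ _ => norm_nonneg _) hn
    have := norm_sub_le (t m) (t n)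
    linarith
  have e4 : ∀ ξ, (ψ * A n) ξ ≤
      (T ^ 2 • ∑ m ∈ c.support.erase n, (ι • 1 + ι⁻¹ • (A m ^ 2 * A n ^ 2)) : C(Cir, ℝ)) ξ := by
    intro ξ
    have b1 := DFunLike.congr_fun h1 ξ
    simp only [ContinuousMap.coe_sum, Finset.sum_apply, ContinuousMap.one_apply] at b1
    set B := ∑ m ∈ c.support.erase n, A m ξ with hB
    have b2 : τ ξ - t n = ∑ m ∈ c.support.erase n, (t m - t n) * A m ξ := by
      rw [Finset.sum_erase _ (by simp)]
      have : (1 : ℂ) = ∑ m ∈ c.support, (A m ξ : ℂ) := by exact_mod_cast b1.symm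
      simp only [sub_mul, Finset.sum_sub_distrib, ← Finset.mul_sum, ← this, mul_one]
      simp [hτ]
    have b3 : ‖τ ξ - t n‖ ≤ T * B := by
      rw [b2, hB, Finset.mul_sum]
      refine (norm_sum_le _ _).trans (Finset.sum_le_sum fun m hm => ?_)
      have hm' := Finset.mem_of_mem_erase hm
      rw [norm_mul, Complex.norm_real, Real.norm_of_nonneg (h.nonneg hm' ξ)]
      exact mul_le_mul_of_nonneg_right (hT0 m hm') (h.nonneg hm' ξ)
    have b4 : 0 ≤ B := Finset.sum_nonneg fun m hm => h.nonneg (Finset.mem_of_mem_erase hm) ξ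
    have b5 : B ≤ 1 := by
      have := Finset.add_sum_erase _ (fun m => A m ξ) hn
      have := h.nonneg hn ξ
      linarith
    have b6 : B * A n ξ ≤ ∑ m ∈ c.support.erase n, (ι + ι⁻¹ * (A m ξ ^ 2 * A n ξ ^ 2)) := by
      rw [hB, Finset.sum_mul]
      refine Finset.sum_le_sum fun m _ => ?_
      rw [← mul_pow, ← sub_nonneg]
      have : ι + ι⁻¹ * (A m ξ * A n ξ) ^ 2 - A m ξ * A n ξ =
          ι⁻¹ * ((A m ξ * A n ξ - ι / 2) ^ 2 + 3 / 4 * ι ^ 2) := by field_simp; ring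
      rw [this]; positivity
    have b7 : ‖τ ξ - t n‖ ^ 2 ≤ T ^ 2 * B := by
      have : ‖τ ξ - t n‖ ^ 2 ≤ (T * B) ^ 2 := by gcongr
      have h2 : B ^ 2 ≤ B := by nlinarith
      rw [mul_pow] at this
      exact this.trans (by gcongr)
    simp only [hψ, ContinuousMap.mul_apply, ContinuousMap.coe_mk, ContinuousMap.smul_apply,
      ContinuousMap.coe_sum, Finset.sum_apply, ContinuousMap.add_apply, ContinuousMap.one_apply,
      ContinuousMap.pow_apply, smul_eq_mul, mul_one]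
    calc _ ≤ T ^ 2 * B * A n ξ := mul_le_mul_of_nonneg_right b7 (h.nonneg hn ξ)
      _ ≤ _ := by rw [mul_assoc]; gcongr
  refine (IR_mono _ e4).trans ?_
  rw [map_smul, map_sum, smul_eq_mul]
  gcongr
  refine (Finset.sum_le_card_nsmul _ _ (2 * ι) fun m hm => ?_).trans ?_
  · rw [map_add, map_smul, map_smul, smul_eq_mul, smul_eq_mul]
    have := hδ m (Finset.mem_of_mem_erase hm) n hn (Finset.ne_of_mem_erase hm)
    have h2 : ι⁻¹ * IR hc (A m ^ 2 * A n ^ 2) ≤ ι⁻¹ * ι ^ 2 := by gcongr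
    have h3 : ι⁻¹ * ι ^ 2 = ι := by field_simp
    have h4 : IR hc 1 = 1 := by simp [IR_apply]
    rw [h4]; linarith
  · rw [nsmul_eq_mul]
    gcongr
    exact Nat.cast_le.2 Finset.card_erase_le

end
end Vale.Agent.P130
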