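import Vale.Agent.P130.Prom

open MeasureTheory Filter Topology
open scoped ComplexConjugate InnerProductSpace

namespace Vale.Agent.P130
noncomputable section

lemma exists_wd (W : PM) (ρ : C(G, ℝ)) (h0 : ∀ x, 0 ≤ ρ x) (h1 : ∫ x, ρ x ∂(W : Measure G) = 1) :
    ∃ W' : PM, ∀ φ : G → ℂ, ∫ x, φ x ∂(W' : Measure G) = ∫ x, φ x * ρ x ∂(W : Measure G) := by
  have hm : Measurable fun x => ENNReal.ofReal (ρ x) := ρ.continuous.measurable.ennreal_ofReal
  refine ⟨⟨(W : Measure G).withDensity fun x => ENNReal.ofReal (ρ x), ⟨?_⟩⟩, fun φ => ?_⟩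
  · rw [withDensity_apply _ MeasurableSet.univ, Measure.restrict_univ,
      ← ofReal_integral_eq_lintegral_ofReal (integrable_C ρ _) (ae_of_all _ h0), h1]
    simp
  · change ∫ x, φ x ∂((W : Measure G).withDensity fun x => ENNReal.ofReal (ρ x)) = _
    rw [integral_withDensity_eq_integral_toReal_smul hm (ae_of_all _ fun x => ENNReal.ofReal_lt_top)]
    simp [ENNReal.toReal_ofReal (h0 _), mul_comm]

lemma fs_of_wd {W W' : PM} (hW : FS W) {ρ : C(G, ℝ)} (hρ : ρ ∈ isCh_e.RT)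
    (h : ∀ φ : G → ℂ, ∫ x, φ x ∂(W' : Measure G) = ∫ x, φ x * ρ x ∂(W : Measure G)) :
    FS (W' : Measure G) := by
  have := hW.fsf (isCh_e.mem_RT.1 hρ)
  simpa only [FS, FSf, hat, h, toC_apply] using this

def haarP : PM := ⟨haar, inferInstance⟩
@[simp] lemma haarP_coe : (haarP : Measure G) = haar := rfl

lemma exists_peak (φ : C(G, ℝ)) (h0 : ∀ x, 0 ≤ φ x) (h1 : φ 0 = 1) {ε : ℝ} (hε : 0 < ε)
    (hε1 : ε < 1) : ∃ N : ℕ, 0 < ∫ x, φ x ^ N ∂haar ∧
      (1 - ε) * ∫ x, φ x ^ N ∂haar ≤ ∫ x, φ x ^ (N + 1) ∂haar := by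
  set U := {x | 1 - ε / 2 < φ x}
  have hU : IsOpen U := isOpen_lt continuous_const φ.continuous
  have hpos : 0 < haar.real U := by
    refine ENNReal.toReal_pos (hU.measure_pos haar ⟨0, ?_⟩).ne' (measure_ne_top _ _)
    change 1 - ε / 2 < φ 0
    linarith
  have hlow : ∀ N : ℕ, (1 - ε / 2) ^ N * haar.real U ≤ ∫ x, φ x ^ N ∂haar := by
    intro N
    have hi : Integrable (fun x => φ x ^ N) haar := integrable_C (φ ^ N) haar
    refine le_trans ?_ (setIntegral_le_integral (s := U) hi (ae_of_all _ fun x => pow_nonneg (h0 x) N))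
    refine setIntegral_ge_of_const_le_real hU.measurableSet (measure_ne_top _ _) (fun x hx => ?_)
      hi.integrableOn
    exact pow_le_pow_left₀ (by linarith) (le_of_lt hx) N
  have hp : ∀ N : ℕ, 0 < ∫ x, φ x ^ N ∂haar := fun N =>
    lt_of_lt_of_le (mul_pos (pow_pos (by linarith) _) hpos) (hlow N)
  by_contra hc
  push Not at hc
  have hup : ∀ N : ℕ, ∫ x, φ x ^ N ∂haar ≤ (1 - ε) ^ N := by
    intro N
    induction N with
    | zero => simp
    | succ N ih =>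
      refine (hc N (hp N)).le.trans ?_
      rw [pow_succ']
      exact mul_le_mul_of_nonneg_left ih (by linarith)
  have ht := tendsto_pow_atTop_nhds_zero_of_lt_one (r := (1 - ε) / (1 - ε / 2))
    (div_nonneg (by linarith) (by linarith)) (by rw [div_lt_one (by linarith)]; linarith)
  obtain ⟨N, hN⟩ := (ht.eventually (gt_mem_nhds hpos)).exists
  rw [div_pow, div_lt_iff₀ (pow_pos (by linarith) _)] at hN
  have := (hlow N).trans (hup N)
  linarith

lemma norm_sub_one_sq {z : ℂ} (hz : ‖z‖ = 1) : ‖z - 1‖ ^ 2 = 2 * (1 - z.re) := by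
  have h := Complex.sq_norm z
  rw [hz, Complex.normSq_apply] at h
  rw [Complex.sq_norm, Complex.normSq_apply]
  simp only [Complex.sub_re, Complex.one_re, Complex.sub_im, Complex.one_im]
  nlinarith

lemma exists_kernel (Φ : Finset Gam) {ε : ℝ} (hε : 0 < ε) (hε1 : ε ≤ 1) :
    ∃ K : PM, FS K ∧ ∀ m ∈ Φ, ‖hat K m - 1‖ ≤ ε := by
  set c : ℝ := 1 / (2 * Φ.card + 1) with hc
  have hc0 : 0 < c := by positivity
  have hc1 : c * (2 * Φ.card + 1) = 1 := by rw [hc]; field_simp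
  have hre : ∀ m x, 0 ≤ 1 - (e m x).re ∧ 1 - (e m x).re ≤ 2 := fun m x => by
    have := abs_le.1 ((Complex.abs_re_le_norm (e m x)).trans (norm_e m x).le)
    constructor <;> linarith
  set φ : C(G, ℝ) := 1 - c • ∑ m ∈ Φ, (1 - reC (e m)) with hφ
  have hφa : ∀ x, φ x = 1 - c * ∑ m ∈ Φ, (1 - (e m x).re) := fun x => by
    simp [hφ]
  have hφR : φ ∈ isCh_e.RT := sub_mem (one_mem _) (Subalgebra.smul_mem _
    (sum_mem fun m _ => sub_mem (one_mem _) (isCh_e.re_mem (TP_ch m))) _)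
  have h0 : ∀ x, 0 ≤ φ x := fun x => by
    rw [hφa]
    have : ∑ m ∈ Φ, (1 - (e m x).re) ≤ Φ.card * 2 := by
      simpa using Finset.sum_le_card_nsmul Φ _ 2 fun m _ => (hre m x).2
    nlinarith
  have hc2 : c ≤ 1 := by
    have : (0 : ℝ) ≤ Φ.card := Nat.cast_nonneg _
    nlinarith
  obtain ⟨N, hI, hN⟩ := exists_peak φ h0 (by simp [hφa]) (ε := c * ε ^ 2 / 2) (by positivity)
    (by nlinarith [mul_le_mul hc2 (pow_le_one₀ hε.le hε1 (n := 2)) (by positivity) zero_le_one])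
  set I := ∫ x, φ x ^ N ∂haar with hIdef
  obtain ⟨K, hK⟩ := exists_wd haarP (I⁻¹ • φ ^ N)
    (fun x => by simpa using mul_nonneg (inv_nonneg.2 hI.le) (pow_nonneg (h0 x) N))
    (by simp [integral_const_mul, ← hIdef, hI.ne'])
  refine ⟨K, fs_of_wd (W := haarP) fs_haar (Subalgebra.smul_mem _ (pow_mem hφR N) _) hK, fun m hm => ?_⟩
  have e1 : hat K m - 1 = ∫ x, (e m x - 1) ∂(K : Measure G) := by
    rw [integral_sub (integrable_C _ _) (integrable_const _)]; simp [hat]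
  have e2 : ∫ x, (1 - φ x) ∂(K : Measure G) ≤ c * ε ^ 2 / 2 := by
    have h := hK fun x => ((1 - φ x : ℝ) : ℂ)
    simp only [← Complex.ofReal_mul, integral_complex_ofReal, Complex.ofReal_inj] at h
    rw [h]
    have : ∀ x, (1 - φ x) * (I⁻¹ • φ ^ N) x = I⁻¹ * (φ x ^ N - φ x ^ (N + 1)) := fun x => by
      simp; ring
    simp only [this, haarP_coe]
    have i1 : Integrable (fun x => φ x ^ N) haar := integrable_C (φ ^ N) _
    have i2 : Integrable (fun x => φ x ^ (N + 1)) haar := integrable_C (φ ^ (N + 1)) _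
    rw [integral_const_mul, integral_sub i1 i2, inv_mul_le_iff₀ hI, ← hIdef]
    linarith
  rw [e1]
  have e3 : ∀ x, ‖e m x - 1‖ ≤ ε / 2 + (1 / (c * ε)) * (1 - φ x) := fun x => by
    have h1 := norm_sub_one_sq (norm_e m x)
    have h2 : 1 - (e m x).re ≤ ∑ m ∈ Φ, (1 - (e m x).re) :=
      Finset.single_le_sum (f := fun m => 1 - (e m x).re) (fun m _ => (hre m x).1) hm
    have h3 : (1 / (c * ε)) * (1 - φ x) = (∑ m ∈ Φ, (1 - (e m x).re)) / ε := by
      rw [hφa]; field_simp; ring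
    rw [h3]
    have h4 : (1 - (e m x).re) / ε ≤ (∑ m ∈ Φ, (1 - (e m x).re)) / ε := by gcongr
    have h5 : ‖e m x - 1‖ ≤ ε / 2 + (1 - (e m x).re) / ε := by
      rw [← sub_nonneg]
      have : ε / 2 + (1 - (e m x).re) / ε - ‖e m x - 1‖ = (‖e m x - 1‖ - ε) ^ 2 / (2 * ε) := by
        field_simp; linarith
      rw [this]; positivity
    linarith
  have hi : Integrable (fun x => 1 - φ x) (K : Measure G) := integrable_C (1 - φ) _
  refine (norm_integral_le_of_norm_le ((integrable_const _).add (hi.const_mul _))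
    (ae_of_all _ e3)).trans ?_
  simp only [Pi.add_apply]
  rw [integral_add (integrable_const _) (hi.const_mul _), integral_const_mul]
  have : 1 / (c * ε) * ∫ x, (1 - φ x) ∂(K : Measure G) ≤ 1 / (c * ε) * (c * ε ^ 2 / 2) := by gcongr
  have h2 : 1 / (c * ε) * (c * ε ^ 2 / 2) = ε / 2 := by field_simp
  simp only [integral_const, probReal_univ, smul_eq_mul, one_mul]
  linarith

lemma exists_kernel_seq : ∃ K : ℕ → PM, (∀ N, FS (K N)) ∧
    ∀ m, Tendsto (fun N => hat (K N) m) atTop (𝓝 1) := by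
  classical
  obtain ⟨en, hen⟩ := exists_surjective_nat Gam
  have h := fun N : ℕ => exists_kernel ((Finset.range N).image en) (ε := 1 / ((N : ℝ) + 1))
    Nat.one_div_pos_of_nat (by rw [div_le_one (by positivity)]; simp)
  choose K h1 h2 using h
  refine ⟨K, h1, fun m => ?_⟩
  obtain ⟨k, rfl⟩ := hen m
  rw [tendsto_iff_norm_sub_tendsto_zero]
  refine squeeze_zero' (Eventually.of_forall fun _ => norm_nonneg _) ?_
    tendsto_one_div_add_atTop_nhds_zero_nat
  filter_upwards [eventually_gt_atTop k] with N hN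
  exact h2 N _ (Finset.mem_image_of_mem _ (Finset.mem_range.2 hN))

lemma exists_conv (W F : PM) : ∃ W' : PM, ∀ m, hat W' m = hat W m * hat F m := by
  refine ⟨⟨(W : Measure G) ∗ (F : Measure G), inferInstance⟩, fun m => ?_⟩
  change ∫ x, e m x ∂((W : Measure G) ∗ (F : Measure G)) = _
  rw [integral_conv (integrable_C _ _)]
  simp only [e_add_right, integral_const_mul, integral_mul_const, hat]

def dl (j : ℤ) : ℂ := if j = 0 then 1 else 0

def AF (W : PM) (f : H) (ε : ℝ) : Prop := ∀ s : Finset ℤ, ∑ j ∈ s, ‖cor W f f j - dl j‖ ≤ ε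

def Flat (W : PM) (f : H) : Prop := ∀ j, cor W f f j = dl j

lemma Flat.af {W : PM} {f : H} (h : Flat W f) : AF W f 0 := fun s => by simp [h _]

lemma AF.step {W W' : PM} {f f' : H} {ε ε' : ℝ} (h : AF W f ε) (s₀ : Finset ℤ) (h0 : 0 ∈ s₀)
    (hz : ∀ j ∉ s₀, cor W' f' f' j = 0) (hs : ∑ j ∈ s₀, ‖cor W' f' f' j - cor W f f j‖ ≤ ε') :
    AF W' f' (ε + ε') := by
  classical
  intro s
  calc ∑ j ∈ s, ‖cor W' f' f' j - dl j‖ ≤ ∑ j ∈ s₀, ‖cor W' f' f' j - dl j‖ := by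
        rw [← Finset.sum_inter_add_sum_sdiff s s₀, Finset.sum_eq_zero (s := s \ s₀), add_zero]
        · exact Finset.sum_le_sum_of_subset_of_nonneg Finset.inter_subset_right
            fun _ _ _ => norm_nonneg _
        · intro j hj
          have hj' := (Finset.mem_sdiff.1 hj).2
          rw [hz j hj', dl, if_neg (by rintro rfl; exact hj' h0)]; simp
    _ ≤ ∑ j ∈ s₀, (‖cor W f f j - dl j‖ + ‖cor W' f' f' j - cor W f f j‖) :=
        Finset.sum_le_sum fun j _ => by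
          rw [add_comm]; exact norm_sub_le_norm_sub_add_norm_sub _ _ _
    _ ≤ ε + ε' := by rw [Finset.sum_add_distrib]; exact add_le_add (h s₀) hs

lemma AF.ev {α : Type*} {l : Filter α} {W : PM} {f : H} {ε ε' : ℝ} (h : AF W f ε) (hε' : 0 < ε')
    (W' : α → PM) (f' : α → H) (s₀ : Finset ℤ) (h0 : 0 ∈ s₀)
    (hz : ∀ a, ∀ j ∉ s₀, cor (W' a) (f' a) (f' a) j = 0)
    (ht : ∀ j, Tendsto (fun a => cor (W' a) (f' a) (f' a) j) l (𝓝 (cor W f f j))) :
    ∀ᶠ a in l, AF (W' a) (f' a) (ε + ε') := by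
  have := tendsto_finsetSum s₀ fun j _ => tendsto_iff_norm_sub_tendsto_zero.1 (ht j)
  rw [Finset.sum_const_zero] at this
  filter_upwards [this.eventually (gt_mem_nhds hε')] with a ha
  exact h.step s₀ h0 (hz a) ha.le

lemma continuous_cor (W : PM) (j : ℤ) : Continuous fun f => cor W f f j :=
  ((J W 0).continuous).inner (J W j).continuous

lemma exists_J0 {W : Measure G} (hW : FS W) (Λ : Finset Gam) (h0 : 0 ∉ Λ) :
    ∃ s₀ : Finset ℤ, 0 ∈ s₀ ∧ ∀ j ∉ s₀, ∀ n ∈ Λ, hat W (j • n) = 0 := by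
  classical
  have : ∀ n ∈ (Λ : Set Gam), {j : ℤ | hat W (j • n) ≠ 0}.Finite := fun n hn =>
    hW.preimage (f := fun j : ℤ => j • n)
      (smul_left_injective ℤ (by rintro rfl; exact h0 hn)).injOn
  refine ⟨insert 0 (Λ.finite_toSet.biUnion this).toFinset, Finset.mem_insert_self _ _, ?_⟩
  intro j hj n hn
  by_contra hc
  exact hj (Finset.mem_insert_of_mem (by simpa using ⟨n, hn, hc⟩))

lemma pc_ev {α : Type*} {l : Filter α} {W : PM} {f : H} {Ps : Set Prom} (hfin : Ps.Finite)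
    (hP : ∀ P ∈ Ps, Holds W f P) (W' : α → PM) (f' : α → H) (hf : Tendsto f' l (𝓝 f))
    (hW : ∀ m, Tendsto (fun a => hat (W' a) m) l (𝓝 (hat W m))) :
    ∀ᶠ a in l, ∀ P ∈ Ps, Holds (W' a) (f' a) P := by
  obtain ⟨Φ, δ, hδ, h⟩ := pc_id W f hfin hP
  have h1 := (tendsto_iff_norm_sub_tendsto_zero.1 hf).eventually (gt_mem_nhds hδ)
  have h2 : ∀ᶠ a in l, ∀ m ∈ Φ, ‖hat (W' a) m - hat W m‖ < δ :=
    (eventually_all_finset Φ).2 fun m _ =>
      (tendsto_iff_norm_sub_tendsto_zero.1 (hW m)).eventually (gt_mem_nhds hδ)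
  filter_upwards [h1, h2] with a h1 h2
  exact h _ _ h1.le fun m hm => (h2 m hm).le

def Valid (c : Gam →₀ ℂ) : Prop := c 0 = 0 ∧ ∀ n, ‖c (-n)‖ = ‖c n‖

lemma Valid.zero_notMem {c : Gam →₀ ℂ} (h : Valid c) : 0 ∉ c.support := by simp [h.1]

lemma Valid.neg_mem {c : Gam →₀ ℂ} (h : Valid c) {n : Gam} (hn : n ∈ c.support) :
    -n ∈ c.support := by
  rw [Finsupp.mem_support_iff, ← norm_ne_zero_iff] at hn ⊢
  rwa [h.2]

def NP (C : Gam → ℂ) : Prop :=
  ∀ k k', C k ≠ 0 → C k' ≠ 0 → ∀ a b : ℤ, a ≠ 0 → a • k = b • k' → k' = k ∨ k' = -k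

lemma add_modes {W : PM} (hW : FS W) {c : Gam →₀ ℂ} (hc : Valid c) (N : Finset Gam) (hN : 0 ∉ N)
    {Ps : Set Prom} (hfin : Ps.Finite) (hP : ∀ P ∈ Ps, Holds W (poly c) P) {ε₀ ε : ℝ}
    (hAF : AF W (poly c) ε₀) (hε : 0 < ε) :
    ∃ c', Valid c' ∧ N ⊆ c'.support ∧ (∀ P ∈ Ps, Holds W (poly c') P) ∧
      AF W (poly c') (ε₀ + ε) := by
  classical
  set N' := (N ∪ N.image Neg.neg) \ c.support with hN'
  let b : Gam →₀ ℂ := Finsupp.indicator N' fun _ _ => 1
  have hb : ∀ n, b n = if n ∈ N' then 1 else 0 := fun n => by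
    simp only [b, Finsupp.indicator_apply]; split_ifs <;> rfl
  have hneg : ∀ n, -n ∈ N' ↔ n ∈ N' := by
    have : ∀ n, n ∈ N' → -n ∈ N' := by
      intro n hn
      simp only [hN', Finset.mem_sdiff, Finset.mem_union, Finset.mem_image] at hn ⊢
      refine ⟨?_, fun h => hn.2 (by simpa using hc.neg_mem h)⟩
      rcases hn.1 with h | ⟨m, hm, rfl⟩
      · exact Or.inr ⟨n, h, rfl⟩
      · exact Or.inl (by simpa using hm)
    exact fun n => ⟨fun h => by simpa using this _ h, this n⟩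
  have h0 : 0 ∉ N' := by
    simp only [hN', Finset.mem_sdiff, Finset.mem_union, Finset.mem_image, not_and]
    rintro (h | ⟨m, hm, h⟩)
    · exact absurd h hN
    · exact absurd (neg_eq_zero.1 h ▸ hm) hN
  have hcN : ∀ n ∈ N', c n = 0 := fun n hn => by
    simpa using (Finset.mem_sdiff.1 hn).2
  have hval : ∀ τ : ℂ, Valid (c + τ • b) := fun τ => by
    refine ⟨by simp [hb, h0, hc.1], fun n => ?_⟩
    by_cases hn : n ∈ N'
    · simp [hb, hn, (hneg n).2 hn, hcN n hn, hcN _ ((hneg n).2 hn)]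
    · simp [hb, hn, (hneg n).not.2 hn, hc.2]
  have ht : Tendsto (fun τ : ℂ => poly (c + τ • b)) (𝓝[≠] 0) (𝓝 (poly c)) := by
    have : Continuous fun τ : ℂ => poly c + τ • poly b := by fun_prop
    have h := (this.tendsto 0).mono_left (nhdsWithin_le_nhds (s := {0}ᶜ))
    simpa using h
  obtain ⟨s₀, hs0, hs⟩ := exists_J0 hW (c.support ∪ N') (by
    simp only [Finset.mem_union, not_or]; exact ⟨hc.zero_notMem, h0⟩)
  have h1 := pc_ev hfin hP (fun _ => W) _ ht fun m => tendsto_const_nhds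
  have h2 := hAF.ev hε (fun _ => W) (fun τ : ℂ => poly (c + τ • b)) s₀ hs0 (fun τ j hj => by
    rw [cor_poly]
    refine Finset.sum_eq_zero fun n hn => ?_
    rw [hs j hj n, mul_zero]
    by_contra hc'
    simp only [Finset.mem_union, not_or, Finsupp.mem_support_iff, not_not] at hc'
    simp [hb, hc'.1, hc'.2] at hn) fun j => ((continuous_cor W j).tendsto _).comp ht
  obtain ⟨τ, ⟨h1, h2⟩, hτ⟩ := ((h1.and h2).and self_mem_nhdsWithin).exists
  refine ⟨c + τ • b, hval τ, fun n hn => ?_, h1, h2⟩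
  by_cases h : n ∈ c.support
  · have : n ∉ N' := fun h' => (Finset.mem_sdiff.1 h').2 h
    simpa [hb, this] using h
  · have : n ∈ N' := Finset.mem_sdiff.2 ⟨Finset.mem_union_left _ hn, h⟩
    simpa [hb, this, hcN n this] using hτ

def trunc (B : Finset Gam) (g : H) : Gam →₀ ℂ := Finsupp.indicator B fun k _ => ⟪E k, g⟫_ℂ

lemma trunc_apply (B : Finset Gam) (g : H) (k : Gam) :
    trunc B g k = if k ∈ B then ⟪E k, g⟫_ℂ else 0 := by
  simp only [trunc, Finsupp.indicator_apply]; split_ifs <;> rfl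

def symm (B : Finset Gam) : Finset Gam := B ∪ B.image Neg.neg

lemma neg_mem_symm (B : Finset Gam) (k : Gam) : -k ∈ symm B ↔ k ∈ symm B := by
  simp only [symm, Finset.mem_union, Finset.mem_image, exists_eq_right,
    neg_eq_iff_eq_neg, neg_neg, or_comm]

lemma tendsto_trunc (g : H) : Tendsto (fun B => poly (trunc (symm B) g)) atTop (𝓝 g) := by
  have h1 : Tendsto symm atTop atTop :=
    tendsto_atTop_mono (fun B => Finset.subset_union_left) tendsto_id
  have h2 : ∀ B, poly (trunc B g) = ∑ k ∈ B, ⟪E k, g⟫_ℂ • E k := fun B => by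
    rw [poly, Finsupp.linearCombination_apply, Finsupp.sum_of_support_subset (trunc B g)
      (Finsupp.support_indicator_subset B _) _ (by simp)]
    exact Finset.sum_congr rfl fun k hk => by rw [trunc_apply, if_pos hk]
  simp only [h2]
  exact (hasSum_E g).comp h1

theorem smooth_trunc {W : PM} {g y : H} (hC0 : ⟪E 0, g⟫_ℂ = 0)
    (hCs : ∀ k, ‖⟪E (-k), g⟫_ℂ‖ = ‖⟪E k, g⟫_ℂ‖) (hNP : NP fun k => ⟪E k, g⟫_ℂ)
    (hy : ∀ k, ⟪E k, y⟫_ℂ ≠ 0 → ⟪E k, g⟫_ℂ ≠ 0) (s₀ : Finset ℤ) (hs0 : 0 ∈ s₀)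
    (hs : ∀ j ∉ s₀, ∀ k, ⟪E k, g⟫_ℂ ≠ 0 → hat W (j • k) = 0)
    {Ps : Set Prom} (hfin : Ps.Finite) (hP : ∀ P ∈ Ps, Holds W g P) {ε₀ ε η : ℝ}
    (hAF : AF W g ε₀) (hε : 0 < ε) (hη : 0 < η) :
    ∃ (W' : PM) (c' u' : Gam →₀ ℂ), FS W' ∧ Valid c' ∧ NP c' ∧ u'.support ⊆ c'.support ∧
      ‖poly u' - y‖ < η ∧ (∀ P ∈ Ps, Holds W' (poly c') P) ∧ AF W' (poly c') (ε₀ + ε) := by
  have hsupp : ∀ B k, trunc B g k ≠ 0 → ⟪E k, g⟫_ℂ ≠ 0 := fun B k h => by
    rw [trunc_apply] at h; split_ifs at h; exacts [h, absurd rfl h]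
  have h1 := pc_ev hfin hP (fun _ => W) _ (tendsto_trunc g) fun m => tendsto_const_nhds
  have h2 := hAF.ev (half_pos hε) (fun _ => W) (fun B => poly (trunc (symm B) g)) s₀ hs0
    (fun B j hj => by
      rw [cor_poly]
      refine Finset.sum_eq_zero fun n hn => ?_
      rw [hs j hj n (hsupp _ _ (Finsupp.mem_support_iff.1 hn)), mul_zero])
    fun j => ((continuous_cor W j).tendsto _).comp (tendsto_trunc g)
  have h3 := (tendsto_iff_norm_sub_tendsto_zero.1 (tendsto_trunc y)).eventually (gt_mem_nhds hη)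
  obtain ⟨B, h1, h2, h3⟩ := (h1.and (h2.and h3)).exists
  set c' := trunc (symm B) g
  obtain ⟨K, hK1, hK2⟩ := exists_kernel_seq
  choose W' hW' using fun N => exists_conv W (K N)
  have ht : ∀ m, Tendsto (fun N => hat (W' N) m) atTop (𝓝 (hat W m)) := fun m => by
    simpa only [hW', mul_one] using (hK2 m).const_mul (hat W m)
  have h4 := pc_ev hfin h1 W' (fun _ => poly c') tendsto_const_nhds ht
  have h5 := h2.ev (half_pos hε) W' (fun _ => poly c') s₀ hs0 (fun N j hj => by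
      rw [cor_poly]
      refine Finset.sum_eq_zero fun n hn => ?_
      rw [hW', hs j hj n (hsupp _ _ (Finsupp.mem_support_iff.1 hn)), zero_mul, mul_zero])
    (l := atTop) fun j => by
      simp only [cor_poly]
      exact tendsto_finsetSum _ fun n _ => (ht _).const_mul _
  obtain ⟨N, h4, h5⟩ := (h4.and h5).exists
  refine ⟨W' N, c', trunc (symm B) y, (hK1 N).subset fun m hm => ?_, ⟨?_, fun n => ?_⟩,
    fun k k' hk hk' => hNP k k' (hsupp _ _ hk) (hsupp _ _ hk'), fun k hk => ?_, h3, h4, ?_⟩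
  · intro h; exact hm (by rw [hW', h, mul_zero])
  · simp [c', trunc_apply, hC0]
  · simp only [c', trunc_apply, neg_mem_symm]
    split_ifs
    exacts [hCs n, rfl]
  · rw [Finsupp.mem_support_iff, trunc_apply] at hk ⊢
    split_ifs at hk ⊢
    exacts [hy k hk, hk]
  · rwa [add_assoc, add_halves] at h5

end
end Vale.Agent.P130
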