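import Vale.Agent.P130.Skew

open MeasureTheory Filter Topology
open scoped ComplexConjugate InnerProductSpace

namespace Vale.Agent.P130
noncomputable section

open Classical in
def ix (n : Gam) : ℕ := if h : ∃ i, n i ≠ 0 then h.choose else 0

lemma ix_spec {n : Gam} (hn : n ≠ 0) : n (ix n) ≠ 0 := by
  have h : ∃ i, n i ≠ 0 := Finsupp.ne_iff.1 hn
  rw [ix, dif_pos h]; exact h.choose_spec

def qq (n : Gam) : ℕ := (n (ix n)).natAbs
def th (n : Gam) : G := Pi.single (ix n) ((1 / qq n : ℝ) : Cir)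
def zc (d : ℕ) (n : Gam) : ℕ := d + 2 + (exists_injective_nat Gam).choose n

lemma zc_inj (d : ℕ) : Function.Injective (zc d) := fun _ _ h =>
  (exists_injective_nat Gam).choose_spec (Nat.add_left_cancel h)

lemma le_zc (d : ℕ) (n : Gam) : d + 2 ≤ zc d n := Nat.le_add_right _ _

lemma qq_ne {n : Gam} (hn : n ≠ 0) : qq n ≠ 0 := Int.natAbs_ne_zero.2 (ix_spec hn)

lemma e_th_self {n : Gam} (hn : n ≠ 0) : e n (th n) = 1 := by
  rw [th, e_single_right, fo_eq_one_iff _ (qq_ne hn), qq, Int.natAbs_dvd]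

lemma qq_th {n : Gam} (hn : n ≠ 0) : (qq n : ℤ) • th n = 0 := by
  have hq : (qq n : ℝ) ≠ 0 := by exact_mod_cast qq_ne hn
  rw [th, ← Pi.single_smul', ← AddCircle.coe_zsmul, zsmul_eq_mul, Int.cast_natCast,
    mul_one_div_cancel hq, AddCircle.coe_period, Pi.single_zero]

lemma e_th_ne {n n' : Gam} (hn : n ≠ 0) {a b : ℤ} (ha : a ≠ 0) (hab : a.natAbs < b.natAbs)
    (h : a • n = b • n') : e n' (th n) ≠ 1 := by
  rw [th, e_single_right, Ne, fo_eq_one_iff _ (qq_ne hn), qq, Int.natAbs_dvd]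
  rintro ⟨m, hm⟩
  have h1 := DFunLike.congr_fun h (ix n)
  simp only [Finsupp.smul_apply, smul_eq_mul, hm] at h1
  have h2 : a = b * m := mul_right_cancel₀ (ix_spec hn) (by rw [h1]; ring)
  have h3 : m ≠ 0 := by rintro rfl; exact ha (by simpa using h2)
  rw [h2, Int.natAbs_mul] at hab
  exact absurd hab (not_lt.2 (Nat.le_mul_of_pos_right _ (Int.natAbs_pos.2 h3)))

def psi (d : ℕ) (Λ : Finset Gam) (A : Cir → G) (L : ℕ) (x : G) : G :=
  ∑ n ∈ Λ, fl (qq n) (x (zc d n)) • th n + fl L (x (d + 1)) • pr d (A (x d))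

variable {d : ℕ} {Λ : Finset Gam} {A : Cir → G}

lemma skew_psi (h0 : 0 ∉ Λ) (hΛ : ∀ n ∈ Λ, Low d n) (hA : Measurable A) (L : ℕ) :
    Skew d (psi d Λ A L) where
  meas := by
    unfold psi
    fun_prop
  low x i hi := by
    have : ∀ n ∈ Λ, th n i = 0 := fun n hn => by
      have h1 : ix n < d := by
        by_contra hc
        exact ix_spec (by rintro rfl; exact h0 hn) (hΛ n hn _ (not_lt.1 hc))
      exact lowG_single h1 _ i hi
    simp only [psi, Pi.add_apply, Finset.sum_apply, Pi.smul_apply, lowG_pr d _ i hi, smul_zero,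
      add_zero]
    exact Finset.sum_eq_zero fun n hn => by rw [this n hn, smul_zero]
  inv x y hy := by
    simp only [psi, Pi.add_apply, hy d le_rfl, hy (d + 1) (by omega), add_zero,
      fun n => hy (zc d n) (by have := le_zc d n; omega)]

lemma psi_single {n : Gam} (hn : n ∈ Λ) (L : ℕ) (x : G) (t : Cir) :
    psi d Λ A L (x + Pi.single (zc d n) t) = psi d Λ A L x +
      (fl (qq n) (x (zc d n) + t) - fl (qq n) (x (zc d n))) • th n := by
  classical
  have h1 := le_zc d n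
  simp only [psi, Pi.add_apply, Pi.single_eq_of_ne (show d ≠ zc d n by omega),
    Pi.single_eq_of_ne (show d + 1 ≠ zc d n by omega), add_zero]
  rw [← Finset.add_sum_erase _ _ hn, ← Finset.add_sum_erase _ _ hn, Pi.single_eq_same, sub_smul,
    Finset.sum_congr rfl fun m hm => by
      rw [Pi.single_eq_of_ne ((zc_inj d).ne (Finset.ne_of_mem_erase hm)), add_zero]]
  abel

lemma psi_V2 (h0 : 0 ∉ Λ) (hΛ : ∀ n ∈ Λ, Low d n) {L : ℕ} (h : Skew d (psi d Λ A L)) {n k : Gam}
    (hn : n ∈ Λ) (hk : k (zc d n) ≠ 0) : ⟪E k, h.L (E n)⟫_ℂ = 0 := by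
  have h1 := le_zc d n
  rw [h.coef]
  refine int_zero_coord _ (zc d n) (neg_ne_zero.2 hk) fun x t => ?_
  have h2 : ∀ j : ℤ, e n (j • th n) = 1 := fun j => by
    rw [e_apply, map_zsmul, fo_zsmul, mul_comm, ← fo_zsmul]
    have := e_th_self (n := n) (by rintro rfl; exact h0 hn)
    rw [e_apply, fourier_one, ← fourier_zero' (T := 1)] at this
    rw [AddCircle.injective_toCircle one_ne_zero (Subtype.ext this)]
    simp
  simp only [psi_single hn, e_add_right, e_single_right, hΛ n hn (zc d n) (by omega), h2,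
    isCh_fo.zero_apply, isCh_fo.neg_apply, map_mul]
  ring

lemma psi_V3 (h0 : 0 ∉ Λ) {L : ℕ} (h : Skew d (psi d Λ A L)) {n n' k : Gam}
    (hn : n ∈ Λ) (hn' : Low d n') (hk : k (zc d n) = 0) (hne : e n' (th n) ≠ 1) :
    ⟪E k, h.L (E n')⟫_ℂ = 0 := by
  have h1 := le_zc d n
  have hn0 : n ≠ 0 := by rintro rfl; exact h0 hn
  rw [h.coef]
  refine int_zero_of_translate haar _ (Pi.single (zc d n) ((1 / qq n : ℝ) : Cir)) _ hne fun x => ?_
  obtain ⟨m, hm⟩ := fl_add (qq_ne hn0) (x (zc d n))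
  have h2 : (fl (qq n) (x (zc d n)) + 1 + qq n * m - fl (qq n) (x (zc d n))) • th n = th n := by
    rw [show fl (qq n) (x (zc d n)) + 1 + qq n * m - fl (qq n) (x (zc d n)) = 1 + m * qq n by ring,
      add_smul, one_smul, mul_smul, qq_th hn0, smul_zero, add_zero]
  simp only [psi_single hn, hm, h2, e_add_right, e_single_right, hn' (zc d n) (by omega), hk,
    isCh_fo.zero_apply, mul_one]
  ring

lemma vol_single (z : Cir) : volume ({z} : Set Cir) = 0 := by
  have := AddCircle.volume_closedBall (T := 1) (x := z) 0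
  simpa using this

instance : NullSingletonClass (volume : Measure Cir) := ⟨vol_single⟩

def bet (d L : ℕ) : G := Pi.single (d + 1) ((1 / L : ℝ) : Cir)

lemma psi_lim {W : PM} (hA : MeasurePreserving A volume (W : Measure G)) (h0 : 0 ∉ Λ)
    (hΛ : ∀ n ∈ Λ, Low d n) {n : Gam} (hn : Low d n) (j : ℤ) :
    Tendsto (fun L => ∫ x, e n (psi d Λ A L (x + j • bet d L) - psi d Λ A L x) ∂haar) atTop
      (𝓝 (hat W (j • n))) := by
  have h1 : hat W (j • n) = ∫ x : G, e (j • n) (A (x d)) ∂haar := by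
    have := hA.comp (mp_eval d)
    rw [hat, ← this.map_eq, integral_map this.measurable.aemeasurable
      (e _).continuous.aestronglyMeasurable]
    rfl
  rw [h1]
  refine tendsto_integral_filter_of_dominated_convergence (fun _ => 1)
    (Eventually.of_forall fun L => ?_) (Eventually.of_forall fun L => ae_of_all _ fun x =>
      (norm_e _ _).le) (integrable_const _) ?_
  · have := (skew_psi h0 hΛ hA.measurable L).meas
    exact ((e n).continuous.measurable.comp
      ((this.comp (measurable_add_const _)).sub this)).aestronglyMeasurable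
  · filter_upwards [(mp_eval (d + 1)).quasiMeasurePreserving.ae (Measure.ae_ne volume 0)] with x hx
    refine tendsto_const_nhds.congr' ?_
    filter_upwards [fl_ev hx j] with L hL
    have h2 : ∀ m, (x + j • bet d L) (zc d m) = x (zc d m) := fun m => by
      have := le_zc d m
      simp [bet, Pi.single_eq_of_ne (show zc d m ≠ d + 1 by omega)]
    have h3 : (x + j • bet d L) d = x d := by simp [bet]
    have h4 : (x + j • bet d L) (d + 1) = x (d + 1) + j • ((1 / L : ℝ) : Cir) := by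
      simp only [bet, Pi.add_apply, Pi.smul_apply, Pi.single_eq_same]
    simp only [psi, h2, h3, h4, hL, add_smul]
    rw [show ∀ a b c : G, a + (b + c) - (a + b) = c from fun a b c => by abel, e_zsmul_right,
      e_pr, (hn.zsmul j).pj]

lemma psi_NP {c : Gam →₀ ℂ} (h0 : 0 ∉ c.support) (hΛ : ∀ n ∈ c.support, Low d n) {L : ℕ}
    (h : Skew d (psi d c.support A L)) : NP fun k => ⟪E k, h.L (poly c)⟫_ℂ := by
  have key : ∀ k k', ⟪E k, h.L (poly c)⟫_ℂ ≠ 0 → ⟪E k', h.L (poly c)⟫_ℂ ≠ 0 → ∀ a b : ℤ, a ≠ 0 →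
      a • k = b • k' → ¬ a.natAbs < b.natAbs := by
    intro k k' hk hk' a b ha hab hlt
    rw [h.coef_poly hΛ, mul_ne_zero_iff] at hk hk'
    have hn := Finsupp.mem_support_iff.2 hk.1
    have h1 : k (zc d (pj d k)) = 0 := by
      by_contra hc
      exact hk.2 (psi_V2 h0 hΛ h hn hc)
    have h2 : k' (zc d (pj d k)) = 0 := by
      have := DFunLike.congr_fun hab (zc d (pj d k))
      simp only [Finsupp.smul_apply, h1, smul_eq_mul, mul_zero] at this
      exact (mul_eq_zero.1 this.symm).resolve_left (by rintro rfl; simp at hlt)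
    refine hk'.2 (psi_V3 h0 h hn (low_pj d k') h2 (e_th_ne (by
      intro hc; exact h0 (hc ▸ hn)) ha hlt ?_))
    rw [← pj_zsmul, hab, pj_zsmul]
  intro k k' hk hk' a b ha hab
  have hk0 : k ≠ 0 := by
    rintro rfl
    simp only [h.coef_poly hΛ, mul_ne_zero_iff] at hk
    exact h0 (by simpa [pj, Finsupp.filter_zero] using hk.1)
  have hb : b ≠ 0 := by
    rintro rfl
    rw [zero_smul, smul_eq_zero] at hab
    exact hab.elim ha hk0
  have h1 := key k k' hk hk' a b ha hab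
  have h2 := key k' k hk' hk b a hb hab.symm
  rcases Int.natAbs_eq_natAbs_iff.1 (show a.natAbs = b.natAbs by omega) with rfl | rfl
  · exact Or.inl (smul_right_injective _ ha hab).symm
  · refine Or.inr (smul_right_injective _ hb ?_)
    simp only [smul_neg, ← hab, neg_smul]

theorem lift {W : PM} (hW : FS W) {c u : Gam →₀ ℂ} (hv : Valid c) (hu : u.support ⊆ c.support)
    (j₀ : ℤ) {Ps : Set Prom} (hfin : Ps.Finite) (hP : ∀ P ∈ Ps, Holds W (poly c) P) {ε₀ ε η : ℝ}
    (hAF : AF W (poly c) ε₀) (hε : 0 < ε) (hη : 0 < η) :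
    ∃ (h : G → G) (hh : MeasurePreserving h haar haar) (W' : PM) (c' u' : Gam →₀ ℂ),
      FS W' ∧ Valid c' ∧ NP c' ∧ u'.support ⊆ c'.support ∧
      (∀ P ∈ Ps, Holds W' (poly c') (P.map (cmp h hh))) ∧ AF W' (poly c') (ε₀ + ε) ∧
      ‖J W' j₀ (cmp h hh (poly u)) - J W' 0 (poly u')‖ < η := by
  classical
  have h0 := hv.zero_notMem
  obtain ⟨K, hK1, hK2⟩ := exists_kernel_seq
  choose W₁ hW₁ using fun N => exists_conv W (K N)
  have ht : ∀ m, Tendsto (fun N => hat (W₁ N) m) atTop (𝓝 (hat W m)) := fun m => by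
    simpa only [hW₁, mul_one] using (hK2 m).const_mul (hat W m)
  have a1 := pc_ev hfin hP W₁ (fun _ => poly c) tendsto_const_nhds ht
  obtain ⟨s₀, hs0, hs⟩ := exists_J0 hW c.support h0
  have a2 := hAF.ev (show 0 < ε / 3 by positivity) W₁ (fun _ => poly c) s₀ hs0 (fun N j hj => by
      rw [cor_poly]
      exact Finset.sum_eq_zero fun n hn => by rw [hW₁, hs j hj n hn, zero_mul, mul_zero])
    (l := atTop) fun j => by
      simp only [cor_poly]
      exact tendsto_finsetSum _ fun n _ => (ht _).const_mul _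
  have a3 : ∀ᶠ N in atTop,
      ∑ n ∈ u.support, ‖u n‖ * √(2 * (1 - (hat (K N) (j₀ • n)).re)) < η / 2 := by
    have : Tendsto (fun N => ∑ n ∈ u.support, ‖u n‖ * √(2 * (1 - (hat (K N) (j₀ • n)).re)))
        atTop (𝓝 (∑ n ∈ u.support, ‖u n‖ * √(2 * (1 - (1 : ℂ).re)))) :=
      tendsto_finsetSum _ fun n _ => Tendsto.const_mul _ (Tendsto.sqrt (Tendsto.const_mul _
        (Tendsto.const_sub _ ((Complex.continuous_re.tendsto _).comp (hK2 _)))))
    simp only [Complex.one_re, sub_self, mul_zero, Real.sqrt_zero, Finset.sum_const_zero] at this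
    exact this.eventually (gt_mem_nhds (half_pos hη))
  obtain ⟨N, a1, a2, a3⟩ := (a1.and (a2.and a3)).exists
  obtain ⟨Φ, δ, hδ, hpc⟩ := pc_gen (W₁ N) (poly c) hfin a1
  obtain ⟨d, hd⟩ := exists_fresh
    (c.support ∪ (Φ.image (·.1) ∪ Φ.image (·.2.1))).finite_toSet
  have hΛ : ∀ n ∈ c.support, Low d n := fun n hn => hd n (Finset.mem_union_left _ hn)
  obtain ⟨A, hA⟩ := exists_sample W
  have hS := fun L => skew_psi h0 hΛ hA.measurable L
  have hβ : ∀ L, HighG d (bet d L) := fun L => highG_single (Nat.le_succ d) _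
  have hcor : ∀ n m, Low d n → Low d m → ∀ j, Tendsto (fun L => cor (drift d (K N) (bet d L))
      ((hS L).L (E n)) ((hS L).L (E m)) j) atTop (𝓝 (cor (W₁ N) (E n) (E m) j)) := by
    intro n m hn hm j
    simp only [fun L => (hS L).cor_eq (K N) (hβ L) hn hm, cor_E, hW₁]
    split_ifs
    · exact (psi_lim hA h0 hΛ hn j).mul_const _
    · exact tendsto_const_nhds
  have b1 : ∀ᶠ L in atTop, ∀ t ∈ Φ, ‖cor (drift d (K N) (bet d L)) ((hS L).L (E t.1))
      ((hS L).L (E t.2.1)) t.2.2 - cor (W₁ N) (E t.1) (E t.2.1) t.2.2‖ < δ := by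
    rw [eventually_all_finset]
    intro t ht
    exact (tendsto_iff_norm_sub_tendsto_zero.1 (hcor _ _
      (hd _ (Finset.mem_union_right _ (Finset.mem_union_left _ (Finset.mem_image_of_mem _ ht))))
      (hd _ (Finset.mem_union_right _ (Finset.mem_union_right _ (Finset.mem_image_of_mem _ ht))))
      _)).eventually (gt_mem_nhds hδ)
  obtain ⟨s₁, hs1, hs'⟩ := exists_J0 (hK1 N) c.support h0
  have b2 := a2.ev (show 0 < ε / 3 by positivity) (fun L => drift d (K N) (bet d L))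
    (fun L => (hS L).L (poly c)) s₁ hs1 (fun L j hj => by
      simp only [poly_apply, map_sum, map_smul, cor_sum]
      refine Finset.sum_eq_zero fun n hn => Finset.sum_eq_zero fun m hm => ?_
      rw [(hS L).cor_eq (K N) (hβ L) (hΛ n hn) (hΛ m hm), hs' j hj n hn]
      simp) (l := atTop) fun j => by
      simp only [poly_apply, map_sum, map_smul, cor_sum]
      exact tendsto_finsetSum _ fun n hn => tendsto_finsetSum _ fun m hm =>
        (hcor n m (hΛ n hn) (hΛ m hm) j).const_mul _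
  obtain ⟨L, b1, b2⟩ := (b1.and b2).exists
  set W₂ := drift d (K N) (bet d L) with hW₂
  have h := hS L
  have b3 := hpc h.L W₂ (h.L (poly c)) (by simpa using hδ.le) fun t ht => (b1 t ht).le
  set y := tr (j₀ • bet d L) (h.L (poly u)) with hy
  let P₀ : Prom := ⟨∅, 0, j₀, h.L (poly u), y, η / 2⟩
  have b4 : Holds W₂ (h.L (poly c)) P₀ := by
    refine lt_of_le_of_lt ?_ a3
    simp only [P₀, Prom.vec, Finset.sum_empty, zero_add, hy, poly_apply, map_sum, map_smul,
      ← Finset.sum_sub_distrib, ← smul_sub]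
    refine (norm_sum_le _ _).trans (Finset.sum_le_sum fun n hn => ?_)
    rw [norm_smul, h.link (K N) (hβ L) (hΛ n (hu hn))]
  have hmem : ∀ k, ⟪E k, h.L (poly c)⟫_ℂ ≠ 0 → pj d k ∈ c.support := fun k hk => by
    rw [h.coef_poly hΛ, mul_ne_zero_iff] at hk
    exact Finsupp.mem_support_iff.2 hk.1
  obtain ⟨W', c', u', k1, k2, k3, k4, k5, k6, k7⟩ := smooth_trunc (W := W₂) (g := h.L (poly c))
    (y := y) (by
      by_contra hc
      exact h0 (by simpa [pj, Finsupp.filter_zero] using hmem 0 hc)) (fun k => by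
      rw [h.coef_poly hΛ, h.coef_poly hΛ, pj_neg, h.coef_neg, norm_mul, norm_mul, hv.2,
        RCLike.norm_conj]) (psi_NP h0 hΛ h) (fun k hk => by
      have := mt (tr_coef _ k _) hk
      rw [h.coef_poly (fun n hn => hΛ n (hu hn)), ← Ne, mul_ne_zero_iff] at this
      rw [h.coef_poly hΛ]
      exact mul_ne_zero (Finsupp.mem_support_iff.1 (hu (Finsupp.mem_support_iff.2 this.1))) this.2)
    s₁ hs1 (fun j hj k hk => by
      rw [hW₂, hat_drift, pj_zsmul, hs' j hj _ (hmem k hk), zero_mul])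
    (Ps := insert P₀ (Prom.map h.L '' Ps)) ((hfin.image _).insert _) (by
      rintro P (rfl | ⟨P, hP, rfl⟩)
      exacts [b4, b3 P hP]) b2 (show 0 < ε / 3 by positivity) (half_pos hη)
  refine ⟨_, h.mp, W', c', u', k1, k2, k3, k4, fun P hP => k6 _ (Or.inr ⟨P, hP, rfl⟩), ?_, ?_⟩
  · rwa [show ε₀ + ε / 3 + ε / 3 + ε / 3 = ε₀ + ε by ring] at k7
  · have k8 : ‖J W' j₀ (h.L (poly u)) - J W' 0 y‖ < η / 2 := by
      simpa [Holds, P₀, Prom.vec] using k6 P₀ (Or.inl rfl)
    have k9 : ‖J W' 0 y - J W' 0 (poly u')‖ < η / 2 := by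
      rwa [← map_sub, LinearIsometry.norm_map, norm_sub_rev]
    exact (norm_sub_le_norm_sub_add_norm_sub _ _ _).trans_lt
      ((add_lt_add k8 k9).trans_eq (add_halves _))

theorem step {W : PM} (hW : FS W) {c : Gam →₀ ℂ} (hv : Valid c) (hF : Flat W (poly c))
    {Ps : Set Prom} (hfin : Ps.Finite) (hP : ∀ P ∈ Ps, Holds W (poly c) P) (v : H)
    (hv0 : ⟪E 0, v⟫_ℂ = 0) (j₀ : ℤ) {η : ℝ} (hη : 0 < η) :
    ∃ (h : G → G) (hh : MeasurePreserving h haar haar) (W' : PM) (c' : Gam →₀ ℂ),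
      FS W' ∧ Valid c' ∧ Flat W' (poly c') ∧
      (∀ P ∈ Ps, Holds W' (poly c') (P.map (cmp h hh))) ∧ ∃ (g : H) (s : Finset ℤ) (p : ℤ → ℂ),
        Holds W' (poly c') ⟨∅, 0, j₀, cmp h hh v, g, η⟩ ∧ Holds W' (poly c') ⟨s, p, 0, 0, g, η⟩ := by
  classical
  obtain ⟨γ, hγ, hP1⟩ := exists_tight W (poly c) hfin hP
  obtain ⟨ε, hε, hfill⟩ := fill hγ
  obtain ⟨B, hB⟩ := ((tendsto_iff_norm_sub_tendsto_zero.1 (tendsto_trunc v)).eventually
    (gt_mem_nhds (half_pos hη))).exists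
  set u := trunc (symm B) v
  obtain ⟨c₁, v1, s1, p1, f1⟩ := add_modes hW hv u.support (by simp [u, trunc_apply, hv0])
    (hfin.image (Prom.tight γ)) (by rintro _ ⟨P, hP, rfl⟩; exact hP1 P hP) hF.af (half_pos hε)
  obtain ⟨h, hh, W₂, c₂, u₂, w2, v2, n2, s2, p2, f2, l2⟩ := lift hW v1 s1 j₀
    (hfin.image (Prom.tight γ)) p1 f1 (half_pos hε) (half_pos hη)
  rw [zero_add, add_halves] at f2
  let P₀ : Prom := ⟨∅, 0, j₀, cmp h hh v, poly u₂, η⟩
  have q2 : Holds W₂ (poly c₂) P₀ := by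
    have : ‖J W₂ j₀ (cmp h hh v) - J W₂ j₀ (cmp h hh (poly u))‖ < η / 2 := by
      rwa [← map_sub, ← map_sub, LinearIsometry.norm_map, LinearIsometry.norm_map, norm_sub_rev]
    simp only [Holds, P₀, Prom.vec, Finset.sum_empty, zero_add]
    exact (norm_sub_le_norm_sub_add_norm_sub _ _ _).trans_lt
      ((add_lt_add this l2).trans_eq (add_halves _))
  have hfin2 : (insert P₀ (Prom.map (cmp h hh) '' (Prom.tight γ '' Ps))).Finite :=
    ((hfin.image _).image _).insert _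
  obtain ⟨Φ, δ, hδ, hpc⟩ := pc_id W₂ (poly c₂) hfin2 (by
    rintro P (rfl | ⟨P, hP, rfl⟩)
    exacts [q2, p2 P hP])
  obtain ⟨W₃, c₃, w3, v3, n3, s3, f3, d3, e3⟩ := hfill W₂ c₂ w2 v2 n2 f2 Φ
  have p3 := hpc W₃ (poly c₂) (by simpa using hδ.le) fun m hm => by simpa [e3 m hm] using hδ.le
  have hfin3 : (insert P₀ (Prom.map (cmp h hh) '' Ps)).Finite := (hfin.image _).insert _
  obtain ⟨Φ', δ', hδ', hpc'⟩ := pc_id W₃ (poly c₃) hfin3 (by
    rintro P (rfl | ⟨P, hP, rfl⟩)
    · simpa [Holds, P₀, Prom.vec] using p3 P₀ (Or.inl rfl)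
    · exact holds_of_tight (p3 _ (Or.inr ⟨_, ⟨P, hP, rfl⟩, rfl⟩)) d3)
  obtain ⟨δ₄, hδ₄, hcyc⟩ := cyclic c₃ u₂ (s2.trans s3) hη
  obtain ⟨W₄, A, w4, y4, z4, e4, o4⟩ := separate w3 v3 n3 f3 Φ' hδ₄
  have p4 := hpc' W₄ (poly c₃) (by simpa using hδ'.le) fun m hm => by
    simpa [e4 m hm] using hδ'.le
  obtain ⟨s, p, hsp⟩ := hcyc W₄ A y4 z4 o4
  refine ⟨h, hh, W₄, c₃, w4, v3, y4.flat_iff.2 z4, fun P hP => p4 _ (Or.inr ⟨P, hP, rfl⟩),
    poly u₂, s, p, p4 P₀ (Or.inl rfl), ?_⟩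
  simpa [Holds, Prom.vec] using hsp

end
end Vale.Agent.P130
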