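import Vale.Agent.P130.Seq

open MeasureTheory Filter Topology
open scoped ComplexConjugate InnerProductSpace

namespace Vale.Agent.P130
noncomputable section

abbrev Om := ℤ → ℕ → G

instance : SecondCountableTopology G := inferInstance
instance : BorelSpace G := inferInstance
instance : SecondCountableTopology (ℕ → G) := inferInstance
instance : BorelSpace (ℕ → G) := Pi.borelSpace
instance : BorelSpace Om := Pi.borelSpace
instance : StandardBorelSpace G := inferInstance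
instance : StandardBorelSpace (ℕ → G) := StandardBorelSpace.pi_countable
instance : StandardBorelSpace Om := StandardBorelSpace.pi_countable

def U : Filter ℕ := hyperfilter ℕ
instance : U.NeBot := by unfold U; infer_instance
lemma U_le : U ≤ atTop := Nat.hyperfilter_le_atTop

def sh (i : ℤ) (ω : Om) : Om := fun j => ω (j + i)

@[fun_prop] lemma continuous_sh (i : ℤ) : Continuous (sh i) := by unfold sh; fun_prop

def evC (j : ℤ) (k : ℕ) : C(Om, G) := ⟨fun ω => ω j k, by fun_prop⟩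

lemma ext_C {μ ν : Measure Om} [IsFiniteMeasure μ] [IsFiniteMeasure ν]
    (h : ∀ φ : C(Om, ℂ), ∫ x, φ x ∂μ = ∫ x, φ x ∂ν) : μ = ν := by
  apply ext_of_forall_integral_eq_of_IsFiniteMeasure
  intro f
  have := h (toC f.toContinuousMap)
  simp only [toC_apply, integral_complex_ofReal] at this
  exact Complex.ofReal_injective this

namespace Data
variable (D : Data)

def Ph (K : ℕ) (z : G × G) : Om := fun j k => D.hh k K (z.1 + j • z.2)

lemma measurable_Ph (K : ℕ) : Measurable (D.Ph K) :=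
  measurable_pi_lambda _ fun j => measurable_pi_lambda _ fun k =>
    (D.mp k K).measurable.comp (by fun_prop)

lemma exists_lim : ∃ μ : ProbabilityMeasure Om, ∀ φ : C(Om, ℂ),
    Tendsto (fun K => ∫ z, φ (D.Ph K z) ∂(haar.prod (D.W K : Measure G))) U
      (𝓝 (∫ ω, φ ω ∂(μ : Measure Om))) := by
  let ν : ℕ → ProbabilityMeasure Om := fun K =>
    (haarP.prod (D.W K)).map (D.measurable_Ph K).aemeasurable
  obtain ⟨μ, -, hμ⟩ := isCompact_univ.ultrafilter_le_nhds ((hyperfilter ℕ).map ν) (by simp)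
  refine ⟨μ, fun φ => ?_⟩
  have := (ProbabilityMeasure.tendsto_iff_forall_integral_rclike_tendsto ℂ).1
    (show Tendsto ν U (𝓝 μ) from hμ) (BoundedContinuousFunction.mkOfCompact φ)
  refine this.congr fun K => ?_
  exact integral_map (D.measurable_Ph K).aemeasurable φ.continuous.aestronglyMeasurable

def mu : Measure Om := D.exists_lim.choose

instance : IsProbabilityMeasure D.mu := by unfold mu; infer_instance

lemma lim (φ : C(Om, ℂ)) : Tendsto (fun K => ∫ z, φ (D.Ph K z) ∂(haar.prod (D.W K : Measure G))) U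
    (𝓝 (∫ ω, φ ω ∂D.mu)) := D.exists_lim.choose_spec φ

lemma mp_ev (j : ℤ) (k : ℕ) : MeasurePreserving (fun ω : Om => ω j k) D.mu haar := by
  have hm : Measurable fun ω : Om => ω j k := (evC j k).continuous.measurable
  refine ⟨hm, measure_ext_hat fun m => ?_⟩
  rw [hat, integral_map hm.aemeasurable (e m).continuous.aestronglyMeasurable]
  refine tendsto_nhds_unique (D.lim ((e m).comp (evC j k))) (tendsto_const_nhds.congr fun K => ?_)
  have := (D.mp k K).comp (mp_J (D.W K) j)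
  conv_lhs => rw [hat, ← this.map_eq, integral_map this.measurable.aemeasurable
    (e m).continuous.aestronglyMeasurable]
  rfl

lemma mp_sh (i : ℤ) : MeasurePreserving (sh i) D.mu D.mu := by
  refine ⟨(continuous_sh i).measurable, ext_C fun φ => ?_⟩
  rw [integral_map (continuous_sh i).measurable.aemeasurable φ.continuous.aestronglyMeasurable]
  refine tendsto_nhds_unique (D.lim (φ.comp ⟨sh i, continuous_sh i⟩)) ((D.lim φ).congr fun K => ?_)
  have := mp_R (D.W K) i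
  conv_lhs => rw [← this.map_eq]
  rw [integral_map (f := fun z => φ (D.Ph K z)) this.measurable.aemeasurable
    (φ.continuous.measurable.comp (D.measurable_Ph K)).aestronglyMeasurable]
  congr 1
  funext z
  change φ _ = φ (sh i (D.Ph K z))
  congr 1
  funext j k
  simp only [Ph, sh, add_smul]
  congr 1; abel

abbrev L2 := Lp ℂ 2 D.mu

def I (j : ℤ) (k : ℕ) : H →ₗᵢ[ℂ] D.L2 := cmp _ (D.mp_ev j k)

abbrev LL (k K : ℕ) : H →ₗᵢ[ℂ] H := cmp _ (D.mp k K)

lemma LL_LL {k m K : ℕ} (h1 : k ≤ m) (h2 : m ≤ K) (v : H) : D.LL m K (D.LL k m v) = D.LL k K v :=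
  cmp_cmp _ _ _ _ (D.comp k m K h1 h2)

lemma I_ae (j : ℤ) (k : ℕ) (n : Gam) : D.I j k (E n) =ᵐ[D.mu] fun ω => e n (ω j k) :=
  cmp_ae' _ (E_ae n)

lemma gram_E (i j : ℤ) (k l : ℕ) (n m : Gam) :
    Tendsto (fun K => ⟪((J (D.W K) i).comp (D.LL k K)) (E n),
      ((J (D.W K) j).comp (D.LL l K)) (E m)⟫_ℂ) U (𝓝 ⟪D.I i k (E n), D.I j l (E m)⟫_ℂ) := by
  rw [inner_of_ae (D.I_ae i k n) (D.I_ae j l m)]
  refine (D.lim (star ((e n).comp (evC i k)) * (e m).comp (evC j l))).congr fun K => ?_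
  exact (inner_of_ae (cmp_ae' (mp_J (D.W K) i) (cmp_ae' (D.mp k K) (E_ae n)))
    (cmp_ae' (mp_J (D.W K) j) (cmp_ae' (D.mp l K) (E_ae m)))).symm

lemma gram (i j : ℤ) (k l : ℕ) (u v : H) :
    Tendsto (fun K => cor (D.W K) (D.LL k K u) (D.LL l K v) (j - i)) U
      (𝓝 ⟪D.I i k u, D.I j l v⟫_ℂ) := by
  have := tendsto_inner_of_E (fun K => (J (D.W K) i).comp (D.LL k K))
    (fun K => (J (D.W K) j).comp (D.LL l K)) _ _ (D.gram_E i j k l) u v
  simpa only [LinearIsometry.coe_comp, Function.comp, inner_J] using this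

lemma I_LL (j : ℤ) {k m : ℕ} (h : k ≤ m) (u : H) : D.I j m (D.LL k m u) = D.I j k u := by
  have h1 : ⟪D.I j m (D.LL k m u), D.I j k u⟫_ℂ = ⟪u, u⟫_ℂ := by
    refine tendsto_nhds_unique (D.gram j j m k _ u) (tendsto_const_nhds.congr' ?_)
    filter_upwards [U_le (eventually_ge_atTop m)] with K hK
    rw [sub_self, cor_zero, D.LL_LL h hK, LinearIsometry.inner_map_map]
  have h2 := norm_sub_sq (𝕜 := ℂ) (D.I j m (D.LL k m u)) (D.I j k u)
  rw [h1, inner_self_eq_norm_sq, LinearIsometry.norm_map, LinearIsometry.norm_map,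
    LinearIsometry.norm_map] at h2
  rw [← sub_eq_zero, ← norm_eq_zero, ← sq_eq_zero_iff, h2]; ring

def Us (i : ℤ) : D.L2 →ₗᵢ[ℂ] D.L2 := cmp _ (D.mp_sh i)

lemma Us_I (i : ℤ) (k : ℕ) (u : H) : D.Us i (D.I 0 k u) = D.I i k u :=
  cmp_cmp _ _ _ _ fun ω => by simp [sh]

lemma exists_F : ∃ F₀ : D.L2, Tendsto (fun k => D.I 0 k (D.f k)) atTop (𝓝 F₀) := by
  refine cauchySeq_tendsto_of_complete (cauchySeq_of_le_geometric (1 / 2) 2 (by norm_num)
    fun k => ?_)
  rw [dist_comm, dist_eq_norm, ← D.I_LL 0 (Nat.le_succ k), ← map_sub, LinearIsometry.norm_map]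
  exact D.close k _ (Nat.le_succ k)

def F (i : ℤ) : D.L2 := D.Us i D.exists_F.choose

lemma tendsto_F (i : ℤ) : Tendsto (fun k => D.I i k (D.f k)) atTop (𝓝 (D.F i)) := by
  simpa only [Function.comp_def, D.Us_I, F] using
    ((D.Us i).continuous.tendsto _).comp D.exists_F.choose_spec

lemma norm_f (K : ℕ) : ‖D.f K‖ = 1 := by
  have := D.flat K 0
  rw [cor_zero, inner_self_eq_norm_sq_to_K, dl, if_pos rfl] at this
  have h2 : ‖D.f K‖ ^ 2 = 1 := by
    apply Complex.ofReal_injective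
    simpa using this
  exact (pow_eq_one_iff_of_nonneg (norm_nonneg _) two_ne_zero).1 h2

lemma geo (C : ℝ) : Tendsto (fun k : ℕ => C * (2 * (1 / 2 : ℝ) ^ k)) atTop (𝓝 0) := by
  simpa using ((tendsto_pow_atTop_nhds_zero_of_lt_one (r := (1 / 2 : ℝ)) (by norm_num)
    (by norm_num)).const_mul 2).const_mul C

lemma orthonormal_F : Orthonormal ℂ D.F := by
  rw [orthonormal_iff_ite]
  intro i j
  have h1 : ∀ k, ‖⟪D.I i k (D.f k), D.I j k (D.f k)⟫_ℂ - dl (j - i)‖ ≤ 2 * (2 * (1 / 2) ^ k) := by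
    intro k
    refine le_of_tendsto ((D.gram i j k k (D.f k) (D.f k)).sub_const _).norm ?_
    filter_upwards [U_le (eventually_ge_atTop k)] with K hK
    rw [← D.flat K]
    refine (norm_cor_sub _ _ _ _ _ _).trans ?_
    rw [LinearIsometry.norm_map, D.norm_f, D.norm_f, norm_sub_rev]
    linarith [D.close k K hK]
  have h2 := le_of_tendsto_of_tendsto' (((D.tendsto_F i).inner (𝕜 := ℂ)
    (D.tendsto_F j)).sub_const (dl (j - i))).norm (geo 2) h1
  rw [norm_le_zero_iff, sub_eq_zero] at h2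
  rw [h2, dl]
  simp only [sub_eq_zero, eq_comm]

lemma prom_lim (P : Prom) (m : ℕ) (h : ∀ K, m ≤ K → Holds (D.W K) (D.f K) (P.map (D.LL m K))) :
    ‖∑ i ∈ P.s, P.p i • D.F i + D.I P.j m P.v - D.I 0 m P.g‖ ≤ P.η := by
  have h1 : ∀ᶠ k in atTop, ‖∑ i ∈ P.s, P.p i • D.I i k (D.f k) + D.I P.j m P.v - D.I 0 m P.g‖ ≤
      P.η + P.wt * (2 * (1 / 2) ^ k) := by
    filter_upwards [eventually_ge_atTop m] with k hk
    have h2 := (P.map (D.LL m k)).tendsto_vec (fun K i => (J (D.W K) i).comp (D.LL k K))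
      (fun i => D.I i k) (fun i j n n' => D.gram_E i j k k n n') (D.f k)
    have h3 : (P.map (D.LL m k)).vec (fun i => D.I i k) (D.f k) =
        ∑ i ∈ P.s, P.p i • D.I i k (D.f k) + D.I P.j m P.v - D.I 0 m P.g := by
      simp only [Prom.vec, Prom.map, D.I_LL _ hk]
    rw [← h3]
    refine le_of_tendsto h2 ?_
    filter_upwards [U_le (eventually_ge_atTop k)] with K hK
    have h4 : (P.map (D.LL m k)).map (D.LL k K) = P.map (D.LL m K) := by
      simp only [Prom.map, D.LL_LL hk hK]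
    rw [← Prom.vec_map, h4]
    refine (Prom.vec_sub _ _ (D.f K) _).trans (add_le_add (h K (hk.trans hK)).le ?_)
    rw [norm_sub_rev]
    exact mul_le_mul_of_nonneg_left (D.close k K hK) P.wt_nonneg
  have h5 := (geo P.wt).const_add P.η
  rw [add_zero] at h5
  exact le_of_tendsto_of_tendsto (((tendsto_finsetSum _ fun i _ =>
    (D.tendsto_F i).const_smul (P.p i)).add_const _).sub_const _).norm h5 h1

def one : D.L2 := D.I 0 0 (E 0)

lemma I_E0 (j : ℤ) (k : ℕ) : D.I j k (E 0) = D.one :=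
  Lp.ext ((cmp_E0 (D.mp_ev j k)).trans (cmp_E0 (D.mp_ev 0 0)).symm)

lemma inner_one (g : D.L2) : ⟪D.one, g⟫_ℂ = ∫ ω, g ω ∂D.mu := by
  rw [inner_of_ae (u := D.one) (cmp_E0 (D.mp_ev 0 0)) (EventuallyEq.refl _ _)]; simp

lemma inner_one_I (j : ℤ) (k : ℕ) (u : H) : ⟪D.one, D.I j k u⟫_ℂ = ⟪E 0, u⟫_ℂ := by
  rw [← D.I_E0 j k, LinearIsometry.inner_map_map]

lemma inner_one_F (i : ℤ) : ⟪D.one, D.F i⟫_ℂ = 0 := by
  refine tendsto_nhds_unique (tendsto_const_nhds.inner (𝕜 := ℂ) (D.tendsto_F i)) ?_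
  simp only [D.inner_one_I, D.mean, tendsto_const_nhds]

def A : Submodule ℂ D.L2 :=
  (Submodule.span ℂ (Set.range fun t : ℕ × Gam => D.I 0 t.1 (E t.2))).topologicalClosure

def V : Submodule ℂ D.L2 := (Submodule.span ℂ (Set.range D.F)).topologicalClosure

lemma isClosed_A : IsClosed (D.A : Set D.L2) := Submodule.isClosed_topologicalClosure _
lemma isClosed_V : IsClosed (D.V : Set D.L2) := Submodule.isClosed_topologicalClosure _

lemma I0_mem (k : ℕ) (u : H) : D.I 0 k u ∈ D.A := by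
  refine dense_span_E.induction (P := fun u => D.I 0 k u ∈ D.A) (fun v hv => ?_)
    (D.isClosed_A.preimage (D.I 0 k).continuous) u
  induction hv using Submodule.span_induction with
  | mem x hx =>
    obtain ⟨m, rfl⟩ := hx
    exact Submodule.le_topologicalClosure _ (Submodule.subset_span ⟨(k, m), rfl⟩)
  | zero => simp
  | add y z _ _ hy hz => rw [map_add]; exact add_mem hy hz
  | smul c y _ hy => rw [map_smul]; exact Submodule.smul_mem _ _ hy

lemma approx (k : ℕ) (n : Gam) (j : ℤ) {η : ℝ} (hη : 0 < η) :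
    ∃ y ∈ D.A, ∃ z ∈ D.V, ‖D.I j k (E' n) - y‖ ≤ η ∧ ‖z - y‖ ≤ η := by
  obtain ⟨m, hm, g, s, p, h⟩ := D.prom k n j η hη
  have h1 := D.prom_lim _ m fun K hK => (h K hK).1
  have h2 := D.prom_lim _ m fun K hK => (h K hK).2
  refine ⟨_, D.I0_mem m g, ∑ i ∈ s, p i • D.F i, sum_mem fun i _ => Submodule.smul_mem _ _
    (Submodule.le_topologicalClosure _ (Submodule.subset_span ⟨i, rfl⟩)), ?_, ?_⟩
  · simpa [D.I_LL j hm] using h1
  · simpa using h2

lemma I_mem (j : ℤ) (k : ℕ) (n : Gam) : D.I j k (E n) ∈ D.A := by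
  by_cases hn : n = 0
  · rw [hn, D.I_E0, ← D.I_E0 0 0]; exact D.I0_mem _ _
  refine D.isClosed_A.closure_subset (Metric.mem_closure_iff.2 fun ε hε => ?_)
  obtain ⟨y, hy, z, -, h, -⟩ := D.approx k n j (half_pos hε)
  rw [E', if_neg hn] at h
  exact ⟨y, hy, by rw [dist_eq_norm]; linarith⟩

lemma I_mem_V (k : ℕ) {n : Gam} (hn : n ≠ 0) : D.I 0 k (E n) ∈ D.V := by
  refine D.isClosed_V.closure_subset (Metric.mem_closure_iff.2 fun ε hε => ?_)
  obtain ⟨y, -, z, hz, h, h'⟩ := D.approx k n 0 (show 0 < ε / 3 by positivity)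
  rw [E', if_neg hn] at h
  refine ⟨z, hz, ?_⟩
  have := norm_sub_le_norm_sub_add_norm_sub (D.I 0 k (E n)) y z
  rw [norm_sub_rev] at h'
  rw [dist_eq_norm]; linarith

def mulC (φ : C(Om, ℂ)) : D.L2 →L[ℂ] D.L2 :=
  (ContinuousLinearMap.mul ℂ ℂ).holderL D.mu ⊤ 2 2 (ContinuousMap.toLp ⊤ D.mu ℂ φ)

lemma mulC_ae (φ : C(Om, ℂ)) {g : D.L2} {ψ : Om → ℂ} (h : g =ᵐ[D.mu] ψ) :
    D.mulC φ g =ᵐ[D.mu] fun ω => φ ω * ψ ω := by
  filter_upwards [(ContinuousLinearMap.mul ℂ ℂ).coeFn_holder (r := 2)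
    (ContinuousMap.toLp ⊤ D.mu ℂ φ) g, ContinuousMap.coeFn_toLp (p := ⊤) (𝕜 := ℂ) D.mu φ, h]
    with ω h1 h2 h3
  refine h1.trans ?_
  rw [h2, h3]; rfl

lemma mul_gen (φ : C(Om, ℂ)) (h : ∀ k n, D.mulC φ (D.I 0 k (E n)) ∈ D.A) {g : D.L2}
    (hg : g ∈ D.A) : D.mulC φ g ∈ D.A := by
  have : D.A ≤ D.A.comap (D.mulC φ).toLinearMap := by
    refine Submodule.topologicalClosure_minimal _ (Submodule.span_le.2 ?_)
      (D.isClosed_A.preimage (D.mulC φ).continuous)
    rintro _ ⟨t, rfl⟩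
    exact h t.1 t.2
  exact this hg

lemma mul_zero_time (k : ℕ) (n : Gam) {g : D.L2} (hg : g ∈ D.A) :
    D.mulC ((e n).comp (evC 0 k)) g ∈ D.A := by
  refine D.mul_gen _ (fun l m => ?_) hg
  set K := max k l
  have hy : MemLp (fun x => e n (D.hh k K x) * e m (D.hh l K x)) 2 haar :=
    MemLp.of_bound (((e n).continuous.measurable.comp (D.mp k K).measurable).mul
      ((e m).continuous.measurable.comp (D.mp l K).measurable)).aestronglyMeasurable 1
      (ae_of_all _ fun x => by simp)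
  have h1 : ∀ {a : ℕ} (b : Gam), a ≤ K → ∀ᵐ ω ∂D.mu, e b (ω 0 a) = e b (D.hh a K (ω 0 K)) := by
    intro a b ha
    have := D.I_ae 0 a b
    rw [← D.I_LL 0 ha] at this
    exact this.symm.trans (cmp_ae' (D.mp_ev 0 K) (cmp_ae' (D.mp a K) (E_ae b)))
  have : D.mulC ((e n).comp (evC 0 k)) (D.I 0 l (E m)) = D.I 0 K (hy.toLp _) := by
    apply Lp.ext
    filter_upwards [D.mulC_ae ((e n).comp (evC 0 k)) (D.I_ae 0 l m),
      cmp_ae' (D.mp_ev 0 K) hy.coeFn_toLp, h1 n (le_max_left k l), h1 m (le_max_right k l)]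
      with ω a1 a2 a3 a4
    refine a1.trans (Eq.trans ?_ a2.symm)
    rw [← a3, ← a4]; rfl
  rw [this]; exact D.I0_mem _ _

lemma mul_time (j : ℤ) (k : ℕ) (n : Gam) {g : D.L2} (hg : g ∈ D.A) :
    D.mulC ((e n).comp (evC j k)) g ∈ D.A := by
  refine D.mul_gen _ (fun l m => ?_) hg
  have : D.mulC ((e n).comp (evC j k)) (D.I 0 l (E m)) =
      D.mulC ((e m).comp (evC 0 l)) (D.I j k (E n)) := by
    apply Lp.ext
    filter_upwards [D.mulC_ae ((e n).comp (evC j k)) (D.I_ae 0 l m),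
      D.mulC_ae ((e m).comp (evC 0 l)) (D.I_ae j k n)] with ω a1 a2
    rw [a1, a2, mul_comm]; rfl
  rw [this]
  exact D.mul_zero_time l m (D.I_mem j k n)

def alg : StarSubalgebra ℂ C(Om, ℂ) where
  carrier := {φ | ∀ g ∈ D.A, D.mulC φ g ∈ D.A ∧ D.mulC (star φ) g ∈ D.A}
  mul_mem' := by
    have key : ∀ φ ψ g, D.mulC (φ * ψ) g = D.mulC φ (D.mulC ψ g) := fun φ ψ g => Lp.ext (by
      filter_upwards [D.mulC_ae (φ * ψ) (EventuallyEq.refl _ g),
        D.mulC_ae φ (D.mulC_ae ψ (EventuallyEq.refl _ g))] with ω a1 a2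
      rw [a1, a2, ContinuousMap.mul_apply, mul_assoc])
    intro φ ψ hφ hψ g hg
    rw [star_mul', key, key]
    exact ⟨(hφ _ (hψ g hg).1).1, (hφ _ (hψ g hg).2).2⟩
  add_mem' := by
    intro φ ψ hφ hψ g hg
    simp only [star_add, mulC, map_add, add_apply]
    exact ⟨add_mem (hφ g hg).1 (hψ g hg).1, add_mem (hφ g hg).2 (hψ g hg).2⟩
  algebraMap_mem' := by
    have key : ∀ g, D.mulC 1 g = g := fun g => Lp.ext (by
      simpa using D.mulC_ae 1 (EventuallyEq.refl _ g))
    intro c g hg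
    have h : ∀ c : ℂ, D.mulC (c • 1) g ∈ D.A := fun c => by
      have : D.mulC (c • 1) g = c • D.mulC 1 g := by
        simp only [mulC, map_smul, smul_apply]
      rw [this, key]; exact Submodule.smul_mem _ _ hg
    rw [Algebra.algebraMap_eq_smul_one, star_smul, star_one]
    exact ⟨h _, h _⟩
  star_mem' := by
    intro φ hφ g hg
    rw [star_star]
    exact (hφ g hg).symm

lemma A_top (g : D.L2) : g ∈ D.A := by
  have h1 := ContinuousMap.starSubalgebra_topologicalClosure_eq_top_of_separatesPoints D.alg (by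
    intro x y hxy
    obtain ⟨j, hj⟩ := Function.ne_iff.1 hxy
    obtain ⟨k, hk⟩ := Function.ne_iff.1 hj
    obtain ⟨n, hn⟩ := e_sep _ _ hk
    refine ⟨_, ⟨(e n).comp (evC j k), fun g hg => ⟨D.mul_time j k n hg, ?_⟩, rfl⟩, hn⟩
    have : star ((e n).comp (evC j k)) = (e (-n)).comp (evC j k) := by rw [isCh_e.neg]; rfl
    rw [this]; exact D.mul_time j k _ hg)
  have h2 : ∀ φ : C(Om, ℂ), ContinuousMap.toLp 2 D.mu ℂ φ ∈ D.A := fun φ => by
    have h3 : φ ∈ D.alg.topologicalClosure := h1 ▸ StarSubalgebra.mem_top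
    refine closure_minimal (t := {φ | ContinuousMap.toLp 2 D.mu ℂ φ ∈ D.A}) (fun ψ hψ => ?_)
      (D.isClosed_A.preimage (ContinuousMap.toLp 2 D.mu ℂ).continuous) h3
    have : ContinuousMap.toLp 2 D.mu ℂ ψ = D.mulC ψ D.one := Lp.ext (by
      filter_upwards [ContinuousMap.coeFn_toLp (p := 2) (𝕜 := ℂ) D.mu ψ,
        D.mulC_ae ψ (g := D.one) (cmp_E0 (D.mp_ev 0 0))] with ω a1 a2
      rw [a1, a2, mul_one])
    change ContinuousMap.toLp 2 D.mu ℂ ψ ∈ D.A
    rw [this]
    exact (hψ _ (D.I0_mem 0 _)).1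
  exact (ContinuousMap.toLp_denseRange ℂ D.mu ℂ (p := 2) (by simp)).induction_on g D.isClosed_A h2

lemma V_eq : (D.V : Set D.L2) = {g | ∫ ω, g ω ∂D.mu = 0} := by
  ext g
  simp only [SetLike.mem_coe, Set.mem_ofPred_eq, ← D.inner_one]
  constructor
  · intro hg
    have : D.V ≤ LinearMap.ker (innerSL ℂ D.one).toLinearMap := by
      refine Submodule.topologicalClosure_minimal _ (Submodule.span_le.2 ?_)
        (ContinuousLinearMap.isClosed_ker _)
      rintro _ ⟨i, rfl⟩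
      exact D.inner_one_F i
    exact this hg
  · intro hg
    let T : D.L2 →L[ℂ] D.L2 := ContinuousLinearMap.id ℂ _ - (innerSL ℂ D.one).smulRight D.one
    have hT : ∀ g, T g = g - ⟪D.one, g⟫_ℂ • D.one := fun g => rfl
    have : D.A ≤ D.V.comap T.toLinearMap := by
      refine Submodule.topologicalClosure_minimal _ (Submodule.span_le.2 ?_)
        (D.isClosed_V.preimage T.continuous)
      rintro _ ⟨⟨k, n⟩, rfl⟩
      change T (D.I 0 k (E n)) ∈ D.V
      rw [hT, D.inner_one_I, inner_E]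
      split_ifs with h
      · rw [← h, D.I_E0]; simp
      · simpa using D.I_mem_V k (Ne.symm h)
    have h2 : T g ∈ D.V := this (D.A_top g)
    simpa [hT, hg] using h2

lemma mu_single (ω : Om) : D.mu {ω} = 0 := by
  have h := (mp_eval 0).comp (D.mp_ev 0 0)
  refine measure_mono_null (t := _ ⁻¹' {ω 0 0 0}) ?_ (h.quasiMeasurePreserving.preimage_null
    (vol_single _))
  rintro _ rfl
  rfl

end Data

def shE : Om ≃ᵐ Om where
  toFun := sh 1
  invFun := sh (-1)
  left_inv ω := by funext j; simp [sh]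
  right_inv ω := by funext j; simp [sh]
  measurable_toFun := (continuous_sh 1).measurable
  measurable_invFun := (continuous_sh (-1)).measurable

lemma shE_zpow (n : ℤ) : ⇑(shE.toEquiv ^ n : Equiv.Perm Om) = sh n := by
  induction n using Int.induction_on with
  | zero => funext ω j; simp [sh]
  | succ n ih =>
    rw [zpow_add_one, Equiv.Perm.coe_mul, ih]
    funext ω j
    change ω (j + n + 1) = ω (j + (n + 1))
    rw [add_assoc]
  | pred n ih =>
    rw [zpow_sub_one, Equiv.Perm.coe_mul, ih]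
    funext ω j
    change ω (j + -n + -1) = ω (j + (-n - 1))
    congr 1; ring

end
end Vale.Agent.P130
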