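import Vale.Agent.P130.Basic

open MeasureTheory Filter Topology
open scoped ComplexConjugate InnerProductSpace

namespace Vale.Agent.P130
noncomputable section

section conv
variable {α : Type*} {l : Filter α} {K : α → Type*} [∀ a, NormedAddCommGroup (K a)]
  [∀ a, InnerProductSpace ℂ (K a)] {K₀ : Type*} [NormedAddCommGroup K₀] [InnerProductSpace ℂ K₀]

lemma tendsto_lin_of_E (F : α → H →L[ℂ] ℂ) (F₀ : H →L[ℂ] ℂ) (C : NNReal)
    (hF : ∀ a, ‖F a‖ ≤ C) (h : ∀ m, Tendsto (fun a => F a (E m)) l (𝓝 (F₀ (E m)))) (v : H) :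
    Tendsto (fun a => F a v) l (𝓝 (F₀ v)) := by
  have hcl : IsClosed {v : H | Tendsto (fun a => F a v) l (𝓝 (F₀ v))} :=
    Equicontinuous.isClosed_setOfPred_tendsto (F := fun a v => F a v)
      (LipschitzWith.uniformEquicontinuous (fun a v => F a v) C fun a =>
        (F a).lipschitz.weaken (hF a)).equicontinuous F₀.continuous
  refine dense_span_E.induction (fun v hv => ?_) hcl v
  induction hv using Submodule.span_induction with
  | mem x hx => obtain ⟨m, rfl⟩ := hx; exact h m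
  | zero => simpa using tendsto_const_nhds
  | add y z _ _ hy hz => simpa only [map_add] using hy.add hz
  | smul c y _ hy => simpa only [map_smul] using hy.const_smul c

lemma tendsto_inner_right (U : ∀ a, K a) (U₀ : K₀) (C : NNReal) (hU : ∀ a, ‖U a‖ ≤ C)
    (B : ∀ a, H →ₗᵢ[ℂ] K a) (B₀ : H →ₗᵢ[ℂ] K₀)
    (h : ∀ m, Tendsto (fun a => ⟪U a, B a (E m)⟫_ℂ) l (𝓝 ⟪U₀, B₀ (E m)⟫_ℂ)) (v : H) :
    Tendsto (fun a => ⟪U a, B a v⟫_ℂ) l (𝓝 ⟪U₀, B₀ v⟫_ℂ) := by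
  refine tendsto_lin_of_E (fun a => (innerSL ℂ (U a)).comp (B a).toContinuousLinearMap)
    ((innerSL ℂ U₀).comp B₀.toContinuousLinearMap) C (fun a => ?_) h v
  refine ContinuousLinearMap.opNorm_le_bound _ C.2 fun w => ?_
  refine (norm_inner_le_norm (𝕜 := ℂ) (U a) (B a w)).trans ?_
  rw [LinearIsometry.norm_map]
  gcongr
  exact hU a

lemma tendsto_inner_of_E (A B : ∀ a, H →ₗᵢ[ℂ] K a) (A₀ B₀ : H →ₗᵢ[ℂ] K₀)
    (h : ∀ n m, Tendsto (fun a => ⟪A a (E n), B a (E m)⟫_ℂ) l (𝓝 ⟪A₀ (E n), B₀ (E m)⟫_ℂ))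
    (u v : H) : Tendsto (fun a => ⟪A a u, B a v⟫_ℂ) l (𝓝 ⟪A₀ u, B₀ v⟫_ℂ) := by
  refine tendsto_inner_right _ _ ‖u‖₊ (fun a => by simp) B B₀ (fun m => ?_) v
  have := tendsto_inner_right (l := l) (fun a => B a (E m)) (B₀ (E m)) 1
    (fun a => by simp [norm_E]) A A₀ (fun n => by
      simpa only [Function.comp_def, inner_conj_symm] using
        (Complex.continuous_conj.tendsto _).comp (h n m)) u
  simpa only [Function.comp_def, inner_conj_symm] using (Complex.continuous_conj.tendsto _).comp this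

lemma tendsto_norm_sum {ι : Type*} (s : Finset ι) (Y : ι → ∀ a, K a) (Y₀ : ι → K₀)
    (h : ∀ i k, Tendsto (fun a => ⟪Y i a, Y k a⟫_ℂ) l (𝓝 ⟪Y₀ i, Y₀ k⟫_ℂ)) :
    Tendsto (fun a => ‖∑ i ∈ s, Y i a‖) l (𝓝 ‖∑ i ∈ s, Y₀ i‖) := by
  simp only [norm_eq_sqrt_re_inner (𝕜 := ℂ), sum_inner, inner_sum]
  refine (Real.continuous_sqrt.tendsto _).comp ((RCLike.continuous_re.tendsto _).comp ?_)
  exact tendsto_finsetSum _ fun i _ => tendsto_finsetSum _ fun k _ => h _ _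

end conv

structure Prom where
  s : Finset ℤ
  p : ℤ → ℂ
  j : ℤ
  v : H
  g : H
  η : ℝ

def Prom.vec (P : Prom) {K : Type*} [NormedAddCommGroup K] [InnerProductSpace ℂ K]
    (A : ℤ → H →ₗᵢ[ℂ] K) (f : H) : K :=
  ∑ i ∈ P.s, P.p i • A i f + A P.j P.v - A 0 P.g

def Prom.map (L : H →ₗᵢ[ℂ] H) (P : Prom) : Prom := { P with v := L P.v, g := L P.g }

def Prom.wt (P : Prom) : ℝ := ∑ i ∈ P.s, ‖P.p i‖

lemma Prom.wt_nonneg (P : Prom) : 0 ≤ P.wt := Finset.sum_nonneg fun _ _ => norm_nonneg _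

def Holds (W : PM) (f : H) (P : Prom) : Prop := ‖P.vec (J W) f‖ < P.η

lemma Prom.vec_map (P : Prom) {K : Type*} [NormedAddCommGroup K] [InnerProductSpace ℂ K]
    (A : ℤ → H →ₗᵢ[ℂ] K) (L : H →ₗᵢ[ℂ] H) (f : H) :
    (P.map L).vec A (L f) = P.vec (fun i => (A i).comp L) f := rfl

lemma Prom.vec_sub (P : Prom) {K : Type*} [NormedAddCommGroup K] [InnerProductSpace ℂ K]
    (A : ℤ → H →ₗᵢ[ℂ] K) (f f' : H) : ‖P.vec A f'‖ ≤ ‖P.vec A f‖ + P.wt * ‖f' - f‖ := by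
  have : P.vec A f' = P.vec A f + ∑ i ∈ P.s, P.p i • A i (f' - f) := by
    simp only [Prom.vec, map_sub, smul_sub, Finset.sum_sub_distrib]; abel
  rw [this]
  refine (norm_add_le _ _).trans (add_le_add le_rfl ((norm_sum_le _ _).trans ?_))
  simp only [Prom.wt, Finset.sum_mul, norm_smul, LinearIsometry.norm_map, le_refl]

lemma Prom.tendsto_vec (P : Prom) {α : Type*} {l : Filter α} {K : α → Type*}
    [∀ a, NormedAddCommGroup (K a)] [∀ a, InnerProductSpace ℂ (K a)] {K₀ : Type*}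
    [NormedAddCommGroup K₀] [InnerProductSpace ℂ K₀]
    (A : ∀ a, ℤ → H →ₗᵢ[ℂ] K a) (A₀ : ℤ → H →ₗᵢ[ℂ] K₀)
    (h : ∀ i j n m, Tendsto (fun a => ⟪A a i (E n), A a j (E m)⟫_ℂ) l
      (𝓝 ⟪A₀ i (E n), A₀ j (E m)⟫_ℂ)) (f : H) :
    Tendsto (fun a => ‖P.vec (A a) f‖) l (𝓝 ‖P.vec A₀ f‖) := by
  let t : Option (Option ℤ) → ℤ := fun o => o.elim 0 fun o => o.elim P.j id
  let y : Option (Option ℤ) → H := fun o => o.elim (-P.g) fun o => o.elim P.v fun i => P.p i • f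
  have key : ∀ a, P.vec (A a) f = ∑ o ∈ P.s.insertNone.insertNone, A a (t o) (y o) := by
    intro a
    simp only [Finset.sum_insertNone, t, y, Option.elim, Prom.vec, map_neg, map_smul, id]
    abel
  have key₀ : P.vec A₀ f = ∑ o ∈ P.s.insertNone.insertNone, A₀ (t o) (y o) := by
    simp only [Finset.sum_insertNone, t, y, Option.elim, Prom.vec, map_neg, map_smul, id]
    abel
  simp only [key, key₀]
  exact tendsto_norm_sum _ (fun o a => A a (t o) (y o)) (fun o => A₀ (t o) (y o)) fun i k =>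
    tendsto_inner_of_E (fun a => A a (t i)) (fun a => A a (t k)) _ _ (h _ _) _ _

theorem pc_gen (W : PM) (f : H) {Ps : Set Prom} (hfin : Ps.Finite) (hP : ∀ P ∈ Ps, Holds W f P) :
    ∃ (Φ : Finset (Gam × Gam × ℤ)) (δ : ℝ), 0 < δ ∧ ∀ (L : H →ₗᵢ[ℂ] H) (W' : PM) (f' : H),
      ‖f' - L f‖ ≤ δ →
      (∀ t ∈ Φ, ‖cor W' (L (E t.1)) (L (E t.2.1)) t.2.2 - cor W (E t.1) (E t.2.1) t.2.2‖ ≤ δ) →
      ∀ P ∈ Ps, Holds W' f' (P.map L) := by
  classical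
  let S : Finset (Gam × Gam × ℤ) × ℝ → Set ((H →ₗᵢ[ℂ] H) × PM × H) := fun i =>
    {x | ‖x.2.2 - x.1 f‖ ≤ i.2 ∧ ∀ t ∈ i.1,
      ‖cor x.2.1 (x.1 (E t.1)) (x.1 (E t.2.1)) t.2.2 - cor W (E t.1) (E t.2.1) t.2.2‖ ≤ i.2}
  have hb := hasBasis_biInf_principal' (p := fun i => 0 < i.2) (s := S) (by
    intro i hi j hj
    refine ⟨(i.1 ∪ j.1, min i.2 j.2), lt_min hi hj, ?_, ?_⟩
    · rintro x ⟨h1, h2⟩
      exact ⟨h1.trans (min_le_left _ _), fun t ht =>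
        (h2 t (Finset.mem_union_left _ ht)).trans (min_le_left _ _)⟩
    · rintro x ⟨h1, h2⟩
      exact ⟨h1.trans (min_le_right _ _), fun t ht =>
        (h2 t (Finset.mem_union_right _ ht)).trans (min_le_right _ _)⟩) ⟨(∅, 1), one_pos⟩
  set F := ⨅ (i : Finset (Gam × Gam × ℤ) × ℝ) (_ : 0 < i.2), 𝓟 (S i)
  have T1 : Tendsto (fun x : (H →ₗᵢ[ℂ] H) × PM × H => ‖x.2.2 - x.1 f‖) F (𝓝 0) := by
    rw [Metric.tendsto_nhds]
    intro ε hε
    refine hb.eventually_iff.2 ⟨(∅, ε / 2), half_pos hε, fun x hx => ?_⟩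
    rw [dist_zero_right, norm_norm]
    exact hx.1.trans_lt (half_lt_self hε)
  have T2 : ∀ i j n m, Tendsto (fun x : (H →ₗᵢ[ℂ] H) × PM × H =>
      ⟪((J x.2.1 i).comp x.1) (E n), ((J x.2.1 j).comp x.1) (E m)⟫_ℂ) F
      (𝓝 ⟪J W i (E n), J W j (E m)⟫_ℂ) := by
    intro i j n m
    simp only [LinearIsometry.coe_comp, Function.comp, inner_J]
    rw [Metric.tendsto_nhds]
    intro ε hε
    refine hb.eventually_iff.2 ⟨({(n, m, j - i)}, ε / 2), half_pos hε, fun x hx => ?_⟩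
    rw [dist_eq_norm]
    exact (hx.2 _ (Finset.mem_singleton_self _)).trans_lt (half_lt_self hε)
  have T3 : ∀ᶠ x in F, ∀ P ∈ Ps, Holds x.2.1 x.2.2 (P.map x.1) := by
    rw [eventually_all_finite hfin]
    intro P hPs
    have h1 := P.tendsto_vec (fun (x : (H →ₗᵢ[ℂ] H) × PM × H) i => (J x.2.1 i).comp x.1)
      (J W) T2 f
    have h2 := h1.add (T1.const_mul P.wt)
    rw [mul_zero, add_zero] at h2
    filter_upwards [h2.eventually (gt_mem_nhds (hP P hPs))] with x hx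
    exact ((P.map x.1).vec_sub (J x.2.1) (x.1 f) x.2.2).trans_lt hx
  obtain ⟨i, hi, h⟩ := hb.eventually_iff.1 T3
  exact ⟨i.1, i.2, hi, fun L W' f' h1 h2 => h (x := (L, W', f')) ⟨h1, h2⟩⟩

theorem pc_id (W : PM) (f : H) {Ps : Set Prom} (hfin : Ps.Finite) (hP : ∀ P ∈ Ps, Holds W f P) :
    ∃ (Φ : Finset Gam) (δ : ℝ), 0 < δ ∧ ∀ (W' : PM) (f' : H),
      ‖f' - f‖ ≤ δ → (∀ m ∈ Φ, ‖hat W' m - hat W m‖ ≤ δ) → ∀ P ∈ Ps, Holds W' f' P := by
  classical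
  obtain ⟨Φ, δ, hδ, h⟩ := pc_gen W f hfin hP
  refine ⟨Φ.image fun t => t.2.2 • t.1, δ, hδ, fun W' f' h1 h2 => ?_⟩
  refine h LinearIsometry.id W' f' h1 fun t ht => ?_
  simp only [LinearIsometry.coe_id, id, cor_E]
  split_ifs
  · exact h2 _ (Finset.mem_image_of_mem _ ht)
  · simpa using hδ.le

def Prom.tight (γ : ℝ) (P : Prom) : Prom := { P with η := P.η - P.wt * γ }

lemma exists_tight (W : PM) (f : H) {Ps : Set Prom} (hfin : Ps.Finite)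
    (hP : ∀ P ∈ Ps, Holds W f P) : ∃ γ : ℝ, 0 < γ ∧ ∀ P ∈ Ps, Holds W f (P.tight γ) := by
  have : ∀ᶠ γ in 𝓝[>] (0 : ℝ), ∀ P ∈ Ps, Holds W f (P.tight γ) := by
    rw [eventually_all_finite hfin]
    intro P hPs
    have h : Tendsto (fun γ : ℝ => P.η - P.wt * γ) (𝓝 0) (𝓝 (P.η - P.wt * 0)) :=
      Continuous.tendsto (by fun_prop) _
    rw [mul_zero, sub_zero] at h
    exact (h.eventually (lt_mem_nhds (hP P hPs))).filter_mono nhdsWithin_le_nhds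
  obtain ⟨γ, h1, h2⟩ := (this.and self_mem_nhdsWithin).exists
  exact ⟨γ, h2, h1⟩

lemma holds_of_tight {W : PM} {f f' : H} {P : Prom} {γ : ℝ} {L : H →ₗᵢ[ℂ] H}
    (h : Holds W f ((P.tight γ).map L)) (hf : ‖f' - f‖ ≤ γ) : Holds W f' (P.map L) := by
  have h1 := (P.map L).vec_sub (J W) f f'
  have h2 : (P.map L).wt * ‖f' - f‖ ≤ P.wt * γ := mul_le_mul_of_nonneg_left hf P.wt_nonneg
  have h3 : ‖(P.map L).vec (J W) f‖ < P.η - P.wt * γ := h
  change _ < P.η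
  linarith

end
end Vale.Agent.P130
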