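import Vale.Agent.P130.Lift

open MeasureTheory Filter Topology
open scoped ComplexConjugate InnerProductSpace

namespace Vale.Agent.P130
noncomputable section

structure St where
  W : PM
  c : Gam →₀ ℂ
  Ps : Set Prom
  hh : ℕ → G → G
  mp : ∀ k, MeasurePreserving (hh k) haar haar
  fs : FS W
  val : Valid c
  flat : Flat W (poly c)
  fin : Ps.Finite
  holds : ∀ P ∈ Ps, Holds W (poly c) P

lemma exists_init : ∃ c, Valid c ∧ Flat haarP (poly c) := by
  classical
  set n : Gam := Finsupp.single 0 1 with hn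
  set r : ℂ := (((√2)⁻¹ : ℝ) : ℂ) with hr
  have n3 : n ≠ -n := fun h => by simpa [hn] using DFunLike.congr_fun h 0
  have n4 : n ≠ 0 := fun h => by simpa [hn] using DFunLike.congr_fun h 0
  have hr2 : ‖r‖ ^ 2 = 1 / 2 := by
    rw [hr, Complex.norm_real, Real.norm_eq_abs, sq_abs, inv_pow, Real.sq_sqrt (by norm_num)]
    norm_num
  refine ⟨Finsupp.single n r + Finsupp.single (-n) r, ⟨by simp [n4], fun m => ?_⟩, fun j => ?_⟩
  · simp only [Finsupp.add_apply, Finsupp.single_apply, ← neg_eq_iff_eq_neg, neg_neg]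
    rw [add_comm]
  · rw [cor_poly' _ _ _ (s := {n, -n}) (Finsupp.support_add.trans (by
      intro m hm
      rcases Finset.mem_union.1 hm with h | h
      · simp [Finset.mem_singleton.1 (Finsupp.support_single_subset h)]
      · simp [Finset.mem_singleton.1 (Finsupp.support_single_subset h)])), Finset.sum_pair n3]
    simp only [Finsupp.add_apply, Finsupp.single_apply, if_neg n3, if_neg n3.symm, if_true,
      add_zero, zero_add, hr2, haarP_coe, hat_haar, smul_eq_zero, n4, neg_eq_zero, or_false, dl]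
    split_ifs <;> norm_num

def E' (n : Gam) : H := if n = 0 then 0 else E n

lemma cmp_E0 {α : Type*} [MeasurableSpace α] {μ : Measure α} {h : α → G}
    (hh : MeasurePreserving h μ haar) : cmp h hh (E 0) =ᵐ[μ] fun _ => 1 := by
  simpa using cmp_ae' hh (E_ae 0)

lemma inner_E0_cmp {h : G → G} (hh : MeasurePreserving h haar haar) (v : H) :
    ⟪E 0, cmp h hh v⟫_ℂ = ⟪E 0, v⟫_ℂ := by
  have : cmp h hh (E 0) = E 0 := Lp.ext ((cmp_E0 hh).trans (by
    filter_upwards [E_ae 0] with x hx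
    simp [hx]))
  rw [← (cmp h hh).inner_map_map (E 0) v, this]

lemma inner_E0_E' (n : Gam) : ⟪E 0, E' n⟫_ℂ = 0 := by
  unfold E'
  split_ifs with h
  · simp
  · rw [inner_E, if_neg (Ne.symm h)]

def Rel (t : ℕ × Gam × ℤ) (K : ℕ) (S S' : St) : Prop :=
  ∃ (h : G → G) (hh : MeasurePreserving h haar haar),
    (∀ k, S'.hh k = if k ≤ K then S.hh k ∘ h else id) ∧ (∀ P ∈ S.Ps, P.map (cmp h hh) ∈ S'.Ps) ∧
    ‖poly S'.c - cmp h hh (poly S.c)‖ ≤ (1 / 2) ^ K ∧ ∃ (g : H) (s : Finset ℤ) (p : ℤ → ℂ),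
      (⟨∅, 0, t.2.2, cmp h hh (cmp _ (S.mp t.1) (E' t.2.1)), g, 1 / (K + 1)⟩ : Prom) ∈ S'.Ps ∧
      (⟨s, p, 0, 0, g, 1 / (K + 1)⟩ : Prom) ∈ S'.Ps

lemma exists_rel (t : ℕ × Gam × ℤ) (K : ℕ) (S : St) : ∃ S', Rel t K S S' := by
  let P₀ : Prom := ⟨{0}, 1, 0, 0, poly S.c, (1 / 2) ^ K⟩
  obtain ⟨h, hh, W', c', k1, k2, k3, k4, g, s, p, k5, k6⟩ := step S.fs S.val S.flat
    (S.fin.insert P₀) (by
      rintro P (rfl | hP)
      · simp [Holds, P₀, Prom.vec]
      · exact S.holds P hP) (cmp _ (S.mp t.1) (E' t.2.1))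
    (by rw [inner_E0_cmp, inner_E0_E']) t.2.2 (η := 1 / (K + 1)) Nat.one_div_pos_of_nat
  refine ⟨⟨W', c', insert _ (insert _ (Prom.map (cmp h hh) '' S.Ps)),
    fun k => if k ≤ K then S.hh k ∘ h else id, fun k => ?_, k1, k2, k3,
    ((S.fin.image _).insert _).insert _, ?_⟩, h, hh, fun _ => rfl,
    fun P hP => Or.inr (Or.inr ⟨P, hP, rfl⟩), ?_, g, s, p, Or.inl rfl, Or.inr (Or.inl rfl)⟩
  · split_ifs
    exacts [(S.mp k).comp hh, MeasurePreserving.id _]
  · rintro P (rfl | rfl | ⟨P, hP, rfl⟩)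
    exacts [k5, k6, k4 P (Or.inr hP)]
  · have := k4 P₀ (Or.inl rfl)
    simp only [Holds, P₀, Prom.vec, Prom.map, Finset.sum_singleton, Pi.one_apply, one_smul,
      map_zero, add_zero, ← map_sub, LinearIsometry.norm_map] at this
    exact this.le

structure Data where
  W : ℕ → PM
  f : ℕ → H
  hh : ℕ → ℕ → G → G
  mp : ∀ k K, MeasurePreserving (hh k K) haar haar
  comp : ∀ k m K, k ≤ m → m ≤ K → ∀ x, hh k K x = hh k m (hh m K x)
  flat : ∀ K, Flat (W K) (f K)
  mean : ∀ K, ⟪E 0, f K⟫_ℂ = 0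
  close : ∀ k K, k ≤ K → ‖f K - cmp _ (mp k K) (f k)‖ ≤ 2 * (1 / 2) ^ k
  prom : ∀ k n j η, 0 < η → ∃ m, k ≤ m ∧ ∃ (g : H) (s : Finset ℤ) (p : ℤ → ℂ), ∀ K, m ≤ K →
    Holds (W K) (f K) (Prom.map (cmp _ (mp m K)) ⟨∅, 0, j, cmp _ (mp k m) (E' n), g, η⟩) ∧
    Holds (W K) (f K) (Prom.map (cmp _ (mp m K)) ⟨s, p, 0, 0, g, η⟩)

theorem exists_data : Nonempty Data := by
  obtain ⟨c₀, hv, hF⟩ := exists_init
  obtain ⟨en, hen⟩ := exists_surjective_nat (ℕ × Gam × ℤ)
  choose nx hnx using fun (K : ℕ) (S : St) => exists_rel (en K.unpair.1) K S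
  let S₀ : St := ⟨haarP, c₀, ∅, fun _ => id, fun _ => MeasurePreserving.id _, fs_haar, hv, hF,
    Set.finite_empty, by simp⟩
  let S : ℕ → St := fun K => Nat.rec S₀ nx K
  have hS : ∀ K, Rel (en K.unpair.1) K (S K) (S (K + 1)) := fun K => hnx K (S K)
  choose h hh r1 r2 r3 g s p r4 r5 using hS
  have self : ∀ K k, K ≤ k → (S K).hh k = id := by
    intro K k hk
    cases K with
    | zero => rfl
    | succ K => rw [r1, if_neg (by omega)]
  have comp : ∀ k m K, k ≤ m → m ≤ K → ∀ x, (S K).hh k x = (S m).hh k ((S K).hh m x) := by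
    intro k m K hk hm
    induction K, hm using Nat.le_induction with
    | base => intro x; rw [self m m le_rfl]; rfl
    | succ K hK ih =>
      intro x
      rw [r1, r1, if_pos (by omega), if_pos hK]
      exact ih _
  have succ : ∀ k K, k ≤ K → ∀ v, cmp _ ((S (K + 1)).mp k) v =
      cmp _ (hh K) (cmp _ ((S K).mp k) v) := fun k K hk v =>
    (cmp_cmp _ _ _ _ fun x => by rw [r1, if_pos hk]; rfl).symm
  have selfc : ∀ k v, cmp _ ((S k).mp k) v = v := fun k v =>
    cmp_id _ (fun x => by rw [self k k le_rfl]; rfl) v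
  have pers : ∀ m P, P ∈ (S m).Ps → ∀ K, m ≤ K → P.map (cmp _ ((S K).mp m)) ∈ (S K).Ps := by
    intro m P hP K hK
    induction K, hK using Nat.le_induction with
    | base => simpa only [Prom.map, selfc] using hP
    | succ K hK ih => simpa only [Prom.map, succ m K hK] using r2 K _ ih
  refine ⟨⟨fun K => (S K).W, fun K => poly (S K).c, fun k K => (S K).hh k, fun k K => (S K).mp k,
    comp, fun K => (S K).flat, fun K => by rw [inner_E_poly, (S K).val.1], fun k K hK => ?_,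
    fun k n j η hη => ?_⟩⟩
  · have : ‖poly (S K).c - cmp _ ((S K).mp k) (poly (S k).c)‖ ≤
        2 * (1 / 2) ^ k - 2 * (1 / 2) ^ K := by
      induction K, hK using Nat.le_induction with
      | base => simp [selfc]
      | succ K hK ih =>
        rw [succ k K hK]
        refine (norm_sub_le_norm_sub_add_norm_sub _ (cmp _ (hh K) (poly (S K).c)) _).trans ?_
        rw [← map_sub, LinearIsometry.norm_map, pow_succ]
        linarith [r3 K]
    have h2 : (0 : ℝ) ≤ (1 / 2) ^ K := by positivity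
    linarith
  · obtain ⟨a, ha⟩ := hen (k, n, j)
    obtain ⟨N, hN⟩ := exists_nat_one_div_lt hη
    set K₀ := Nat.pair a (max k N) with hK₀
    have h1 : max k N ≤ K₀ := Nat.right_le_pair _ _
    have h2 : en K₀.unpair.1 = (k, n, j) := by rw [hK₀, Nat.unpair_pair, ha]
    have h3 : 1 / ((K₀ : ℝ) + 1) ≤ η := by
      refine le_trans ?_ hN.le
      gcongr
      exact_mod_cast (le_max_right _ _).trans h1
    have hk : k ≤ K₀ := (le_max_left _ _).trans h1
    refine ⟨K₀ + 1, by omega, g K₀, s K₀, p K₀, fun K hK => ⟨?_, ?_⟩⟩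
    · have h4 := r4 K₀
      rw [h2] at h4
      have := (S K).holds _ (pers _ _ h4 K hK)
      rw [succ k K₀ hk]
      exact this.trans_le h3
    · have := (S K).holds _ (pers _ _ (r5 K₀) K hK)
      exact this.trans_le h3

end
end Vale.Agent.P130
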