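import Vale.Agent.P130.Energy

open MeasureTheory Filter Topology
open scoped ComplexConjugate InnerProductSpace

namespace Vale.Agent.P130
noncomputable section

def rp (z : Cir) : ℝ := AddCircle.equivIco 1 0 z

lemma rp_mem (z : Cir) : 0 ≤ rp z ∧ rp z < 1 := by
  have := (AddCircle.equivIco 1 0 z).2
  simpa [rp] using this

lemma coe_rp (z : Cir) : (rp z : Cir) = z := AddCircle.coe_equivIco

lemma rp_coe {t : ℝ} (h0 : 0 ≤ t) (h1 : t < 1) : rp (t : Cir) = t :=
  AddCircle.equivIco_coe_of_mem ⟨h0, by simpa using h1⟩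

@[fun_prop] lemma measurable_rp : Measurable rp :=
  measurable_subtype_coe.comp (AddCircle.measurableEquivIco 1 0).measurable

def fl (q : ℕ) (z : Cir) : ℤ := ⌊q * rp z⌋

@[fun_prop] lemma measurable_fl (q : ℕ) : Measurable (fl q) :=
  Int.measurable_floor.comp (by fun_prop)

lemma fl_add {q : ℕ} (hq : q ≠ 0) (z : Cir) :
    ∃ m : ℤ, fl q (z + ((1 / q : ℝ) : Cir)) = fl q z + 1 + q * m := by
  have h : ((rp (z + ((1 / q : ℝ) : Cir)) - (rp z + 1 / q) : ℝ) : Cir) = 0 := by
    rw [AddCircle.coe_sub, AddCircle.coe_add, coe_rp, coe_rp, sub_self]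
  obtain ⟨m, hm⟩ := (AddCircle.coe_eq_zero_iff (1 : ℝ)).1 h
  refine ⟨m, ?_⟩
  have hq' : (q : ℝ) ≠ 0 := by exact_mod_cast hq
  have : q * rp (z + ((1 / q : ℝ) : Cir)) = q * rp z + ((1 + q * m : ℤ) : ℝ) := by
    rw [zsmul_eq_mul, mul_one, eq_sub_iff_add_eq] at hm
    rw [← hm]; push_cast; field_simp; ring
  rw [fl, this, Int.floor_add_intCast, fl, add_assoc]

lemma fl_ev {z : Cir} (hz : z ≠ 0) (j : ℤ) :
    ∀ᶠ L : ℕ in atTop, fl L (z + j • ((1 / L : ℝ) : Cir)) = fl L z + j := by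
  have h0 : 0 < rp z := lt_of_le_of_ne (rp_mem z).1 fun h => hz (by rw [← coe_rp z, ← h]; rfl)
  have ht : Tendsto (fun L : ℕ => rp z + j * (1 / (L : ℝ))) atTop (𝓝 (rp z + j * 0)) :=
    (tendsto_one_div_atTop_nhds_zero_nat.const_mul _).const_add _
  rw [mul_zero, add_zero] at ht
  filter_upwards [ht.eventually (lt_mem_nhds h0), ht.eventually (gt_mem_nhds (rp_mem z).2),
    eventually_ne_atTop 0] with L h1 h2 h3
  have : z + j • ((1 / L : ℝ) : Cir) = ((rp z + j * (1 / L) : ℝ) : Cir) := by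
    rw [AddCircle.coe_add, coe_rp, ← zsmul_eq_mul, AddCircle.coe_zsmul]
  have hL : (L : ℝ) ≠ 0 := by exact_mod_cast h3
  rw [this, fl, rp_coe h1.le h2, fl, ← Int.floor_add_intCast]
  congr 1; field_simp

lemma fo_eq_one_iff (k : ℤ) {q : ℕ} (hq : q ≠ 0) : fo k ((1 / q : ℝ) : Cir) = 1 ↔ (q : ℤ) ∣ k := by
  have hq' : (q : ℝ) ≠ 0 := by exact_mod_cast hq
  have h1 : fo k ((1 / q : ℝ) : Cir) = 1 ↔ k • ((1 / q : ℝ) : Cir) = 0 := by
    rw [fourier_apply, ← fourier_zero' (T := 1)]
    exact ⟨fun h => AddCircle.injective_toCircle one_ne_zero (Subtype.ext h), fun h => by rw [h]⟩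
  rw [h1, ← AddCircle.coe_zsmul, AddCircle.coe_eq_zero_iff]
  constructor
  · rintro ⟨m, hm⟩
    refine ⟨m, ?_⟩
    simp only [zsmul_eq_mul, mul_one] at hm
    have : (k : ℝ) = q * m := by rw [hm]; field_simp
    exact_mod_cast this
  · rintro ⟨m, rfl⟩
    exact ⟨m, by simp only [zsmul_eq_mul]; push_cast; field_simp⟩

lemma mp_eval (i : ℕ) : MeasurePreserving (fun x : G => x i) haar volume :=
  (Pi.evalAddMonoidHom (fun _ : ℕ => Cir) i).measurePreserving (continuous_apply i)
    (Function.surjective_eval i) (by simp)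

lemma exists_sample (W : PM) : ∃ A : Cir → G, MeasurePreserving A volume (W : Measure G) := by
  obtain ⟨f, hf, hm⟩ := Measure.exists_measurable_map_eq (W : Measure G)
  have h1 : MeasurePreserving (fun t : unitInterval => ((t : ℝ) : Cir)) volume volume := by
    have h2 := UnitAddCircle.measurePreserving_mk 0
    rw [zero_add, restrict_Ioc_eq_restrict_Icc] at h2
    exact h2.comp unitInterval.measurePreserving_coe
  have h3 : Measurable fun z => f (Set.projIcc 0 1 zero_le_one (rp z)) :=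
    hf.comp (continuous_projIcc.measurable.comp measurable_rp)
  refine ⟨_, h3, ?_⟩
  rw [← h1.map_eq, Measure.map_map h3 h1.measurable, ← hm]
  apply Measure.map_congr
  filter_upwards [Measure.ae_ne volume (1 : unitInterval)] with t ht
  have : (t : ℝ) < 1 := lt_of_le_of_ne t.2.2 fun h => ht (Subtype.ext h)
  simp only [Function.comp, rp_coe t.2.1 this, Set.projIcc_val]

def Low (d : ℕ) (n : Gam) : Prop := ∀ i, d ≤ i → n i = 0
def LowG (d : ℕ) (y : G) : Prop := ∀ i, d ≤ i → y i = 0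
def HighG (d : ℕ) (y : G) : Prop := ∀ i, i < d → y i = 0

def pr (d : ℕ) (x : G) : G := fun i => if i < d then x i else 0
def pj (d : ℕ) (k : Gam) : Gam := k.filter (· < d)

@[fun_prop] lemma measurable_pr (d : ℕ) : Measurable (pr d) := by
  refine measurable_pi_lambda _ fun i => ?_
  unfold pr; split_ifs <;> fun_prop

lemma pj_apply (d : ℕ) (k : Gam) (i : ℕ) : pj d k i = if i < d then k i else 0 := rfl
lemma low_pj (d : ℕ) (k : Gam) : Low d (pj d k) := fun i hi => by simp [pj_apply, hi]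
lemma lowG_pr (d : ℕ) (x : G) : LowG d (pr d x) := fun i hi => by simp [pr, hi]
lemma Low.pj {d : ℕ} {n : Gam} (h : Low d n) : pj d n = n := by
  ext i; rw [pj_apply]; split_ifs with hi; exacts [rfl, (h i (not_lt.1 hi)).symm]
lemma pj_zsmul (d : ℕ) (j : ℤ) (k : Gam) : pj d (j • k) = j • pj d k := by
  ext i; simp [pj_apply]
lemma pj_neg (d : ℕ) (k : Gam) : pj d (-k) = -pj d k := by
  ext i; simp only [pj_apply, Finsupp.coe_neg, Pi.neg_apply]; split_ifs <;> simp
lemma Low.zsmul {d : ℕ} {n : Gam} (h : Low d n) (j : ℤ) : Low d (j • n) := fun i hi => by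
  simp [h i hi]
lemma LowG.zsmul {d : ℕ} {y : G} (h : LowG d y) (j : ℤ) : LowG d (j • y) := fun i hi => by
  simp [h i hi]
lemma HighG.zsmul {d : ℕ} {y : G} (h : HighG d y) (j : ℤ) : HighG d (j • y) := fun i hi => by
  simp [h i hi]
lemma lowG_single {d i : ℕ} (hi : i < d) (t : Cir) : LowG d (Pi.single i t) := fun k hk => by
  rw [Pi.single_eq_of_ne (by omega)]
lemma highG_single {d i : ℕ} (hi : d ≤ i) (t : Cir) : HighG d (Pi.single i t) := fun k hk => by
  rw [Pi.single_eq_of_ne (by omega)]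

lemma e_eq_one {n : Gam} {y : G} (h : ∀ i, n i = 0 ∨ y i = 0) : e n y = 1 := by
  have : dot n y = 0 := Finset.sum_eq_zero fun i _ => by
    rcases h i with h | h <;> simp [h]
  simp [e_apply, this]

lemma e_low_high {d : ℕ} {n : Gam} {y : G} (hn : Low d n) (hy : HighG d y) : e n y = 1 :=
  e_eq_one fun i => (lt_or_ge i d).elim (fun h => Or.inr (hy i h)) fun h => Or.inl (hn i h)

lemma e_pr (d : ℕ) (k : Gam) (x : G) : e k (pr d x) = e (pj d k) x := by
  have h1 : e k (pr d x) = e (pj d k) (pr d x) * e (k - pj d k) (pr d x) := by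
    rw [← isCh_e.add_apply, add_sub_cancel]
  have h2 : e (pj d k) x = e (pj d k) (pr d x) * e (pj d k) (x - pr d x) := by
    rw [← e_add_right, add_sub_cancel]
  rw [h1, h2, e_eq_one (n := k - pj d k), e_eq_one (y := x - pr d x)] <;> intro i <;>
    by_cases hi : i < d <;> simp [pj_apply, pr, hi]

structure Skew (d : ℕ) (Ψ : G → G) : Prop where
  meas : Measurable Ψ
  low : ∀ x, LowG d (Ψ x)
  inv : ∀ x y, LowG d y → Ψ (x + y) = Ψ x

variable {d : ℕ} {Ψ : G → G}

lemma Skew.mp (h : Skew d Ψ) : MeasurePreserving (fun x => x + Ψ x) haar haar := by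
  have hm : Measurable fun x => x + Ψ x := measurable_id.add h.meas
  refine ⟨hm, measure_ext_hat fun m => ?_⟩
  rw [hat, integral_map hm.aemeasurable (e m).continuous.aestronglyMeasurable]
  by_cases hm : ∃ i, i < d ∧ m i ≠ 0
  · obtain ⟨i, hi, hmi⟩ := hm
    rw [hat_haar, if_neg (by rintro rfl; exact hmi rfl)]
    refine int_zero_coord _ i hmi fun x t => ?_
    rw [h.inv _ _ (lowG_single hi t)]
    simp only [e_add_right, e_single_right]; ring
  · push Not at hm
    have : ∀ x, e m (Ψ x) = 1 := fun x => e_eq_one fun i =>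
      (lt_or_ge i d).elim (fun h => Or.inl (hm i h)) fun hi => Or.inr (h.low x i hi)
    simp only [e_add_right, this, mul_one, hat]

def Skew.L (h : Skew d Ψ) : H →ₗᵢ[ℂ] H := cmp _ h.mp

lemma Skew.L_ae (h : Skew d Ψ) (n : Gam) : h.L (E n) =ᵐ[haar] fun x => e n (x + Ψ x) :=
  cmp_ae' h.mp (E_ae n)

lemma Skew.coef (h : Skew d Ψ) (k n : Gam) :
    ⟪E k, h.L (E n)⟫_ℂ = ∫ x, conj (e k x) * e n (x + Ψ x) ∂haar :=
  inner_of_ae (E_ae k) (h.L_ae n)

lemma Skew.coef_neg (h : Skew d Ψ) (k n : Gam) :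
    ⟪E (-k), h.L (E (-n))⟫_ℂ = conj ⟪E k, h.L (E n)⟫_ℂ := by
  simp only [h.coef, ← integral_conj, isCh_e.neg_apply, map_mul]

lemma Skew.coef_zero (h : Skew d Ψ) {k n : Gam} (hn : Low d n) (hk : pj d k ≠ n) :
    ⟪E k, h.L (E n)⟫_ℂ = 0 := by
  obtain ⟨i, hi⟩ := Finsupp.ne_iff.1 hk
  have hid : i < d := by
    by_contra hc
    exact hi (by rw [low_pj d k i (not_lt.1 hc), hn i (not_lt.1 hc)])
  rw [pj_apply, if_pos hid] at hi
  rw [h.coef]
  refine int_zero_coord _ i (k := -k i + n i) (fun hc => hi (neg_add_eq_zero.1 hc)) fun x t => ?_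
  rw [h.inv _ _ (lowG_single hid t)]
  simp only [e_add_right, e_single_right, isCh_fo.add_apply, isCh_fo.neg_apply, map_mul]; ring

lemma Skew.coef_poly (h : Skew d Ψ) {c : Gam →₀ ℂ} (hc : ∀ n ∈ c.support, Low d n) (k : Gam) :
    ⟪E k, h.L (poly c)⟫_ℂ = c (pj d k) * ⟪E k, h.L (E (pj d k))⟫_ℂ := by
  rw [poly_apply, map_sum, inner_sum, Finset.sum_eq_single (pj d k)]
  · rw [map_smul, inner_smul_right]
  · intro n hn hne
    rw [map_smul, inner_smul_right, h.coef_zero (hc n hn) hne.symm, mul_zero]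
  · intro hn
    simp [Finsupp.notMem_support_iff.1 hn]

def drift (d : ℕ) (K : PM) (β : G) : PM := K.map (f := fun κ => pr d κ + β) (by fun_prop)

lemma mp_drift (d : ℕ) (K : PM) (β : G) : MeasurePreserving (Prod.map id fun κ => pr d κ + β)
    (haar.prod (K : Measure G)) (haar.prod (drift d K β : Measure G)) :=
  (MeasurePreserving.id haar).prod ⟨by fun_prop, rfl⟩

lemma hat_drift (d : ℕ) (K : PM) (β : G) (m : Gam) :
    hat (drift d K β) m = hat K (pj d m) * e m β := by
  change ∫ x, e m x ∂((K : Measure G).map fun κ => pr d κ + β) = _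
  rw [integral_map (by fun_prop) (e m).continuous.aestronglyMeasurable]
  simp only [e_add_right, e_pr, integral_mul_const, hat]

lemma Skew.J_ae (h : Skew d Ψ) (K : PM) {β : G} (hβ : HighG d β) {n : Gam} (hn : Low d n) (j : ℤ) :
    cmp _ (mp_drift d K β) (J (drift d K β) j (h.L (E n))) =ᵐ[haar.prod K]
      fun z => e n (z.1 + Ψ (z.1 + j • β)) * e (j • n) z.2 := by
  refine (cmp_ae' _ (cmp_ae' _ (h.L_ae n))).trans (ae_of_all _ fun z => ?_)
  have h1 : z.1 + j • (pr d z.2 + β) = z.1 + j • β + j • pr d z.2 := by rw [smul_add]; abel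
  simp only [Prod.map, id, h1, h.inv _ _ ((lowG_pr d z.2).zsmul j), e_add_right,
    e_low_high hn (hβ.zsmul j), e_zsmul_right, e_pr, (hn.zsmul j).pj]
  ring

lemma Skew.cor_eq (h : Skew d Ψ) (K : PM) {β : G} (hβ : HighG d β) {n m : Gam} (hn : Low d n)
    (hm : Low d m) (j : ℤ) : cor (drift d K β) (h.L (E n)) (h.L (E m)) j =
      if n = m then (∫ x, e n (Ψ (x + j • β) - Ψ x) ∂haar) * hat K (j • n) else 0 := by
  rw [cor, ← (cmp _ (mp_drift d K β)).inner_map_map,
    inner_of_ae (h.J_ae K hβ hn 0) (h.J_ae K hβ hm j)]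
  simp only [zero_smul, add_zero, e_zero, mul_one, ← mul_assoc]
  rw [integral_prod_mul (fun x => conj (e n (x + Ψ x)) * e m (x + Ψ (x + j • β)))
    (fun a => e (j • m) a)]
  split_ifs with hnm
  · subst hnm
    congr 2
    funext x
    have : x + Ψ (x + j • β) = x + Ψ x + (Ψ (x + j • β) - Ψ x) := by abel
    rw [this, e_add_right n (x + Ψ x), ← mul_assoc, conj_e_mul, one_mul]
  · obtain ⟨i, hi⟩ := Finsupp.ne_iff.1 hnm
    have hid : i < d := by
      by_contra hc
      exact hi (by rw [hm i (not_lt.1 hc), hn i (not_lt.1 hc)])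
    rw [int_zero_coord _ i (k := -n i + m i) (fun hc => hi (neg_add_eq_zero.1 hc)), zero_mul]
    intro x t
    rw [add_right_comm x _ (j • β), h.inv _ _ (lowG_single hid t), h.inv _ _ (lowG_single hid t)]
    simp only [e_add_right, e_single_right, isCh_fo.add_apply, isCh_fo.neg_apply, map_mul]; ring

def tr (t : G) : H →ₗᵢ[ℂ] H := cmp _ (measurePreserving_add_right haar t)

lemma tr_coef (t : G) (k : Gam) (g : H) (h : ⟪E k, g⟫_ℂ = 0) : ⟪E k, tr t g⟫_ℂ = 0 := by
  have h1 : tr t (E k) = e k t • E k := by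
    apply Lp.ext
    filter_upwards [cmp_ae' (measurePreserving_add_right haar t) (E_ae k),
      Lp.coeFn_smul (e k t) (E k), E_ae k] with x h1 h2 h3
    rw [h2, Pi.smul_apply, h3]
    refine h1.trans ?_
    rw [e_add_right, smul_eq_mul, mul_comm]
  have h2 := (tr t).inner_map_map (E k) g
  rw [h1, inner_smul_left, h, mul_eq_zero] at h2
  refine h2.resolve_left fun h3 => ?_
  have := conj_e_mul k t
  rw [h3, zero_mul] at this
  exact zero_ne_one this

lemma Skew.link (h : Skew d Ψ) (K : PM) {β : G} (hβ : HighG d β) {n : Gam} (hn : Low d n) (j : ℤ) :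
    ‖J (drift d K β) j (h.L (E n)) - J (drift d K β) 0 (tr (j • β) (h.L (E n)))‖ =
      √(2 * (1 - (hat K (j • n)).re)) := by
  rw [← (cmp _ (mp_drift d K β)).norm_map, map_sub]
  have h1 : cmp _ (mp_drift d K β) (J (drift d K β) 0 (tr (j • β) (h.L (E n)))) =ᵐ[haar.prod K]
      fun z => e n (z.1 + Ψ (z.1 + j • β)) := by
    refine (cmp_ae' _ (cmp_ae' _ (cmp_ae' _ (h.L_ae n)))).trans (ae_of_all _ fun z => ?_)
    simp only [Prod.map, id, zero_smul, add_zero, e_add_right, e_low_high hn (hβ.zsmul j), mul_one]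
  have h2 := norm_sq_of_ae ((Lp.coeFn_sub _ _).trans ((h.J_ae K hβ hn j).sub h1))
  rw [← Real.sqrt_sq (norm_nonneg _), h2]
  congr 1
  simp only [Pi.sub_apply, ← mul_sub_one, norm_mul, norm_e, one_mul, norm_sub_one_sq (norm_e _ _)]
  have hi : Integrable (fun a => (e (j • n) a).re) (K : Measure G) :=
    integrable_C (reC (e (j • n))) _
  rw [integral_fun_snd (fun a => 2 * (1 - (e (j • n) a).re)), integral_const_mul,
    integral_sub (integrable_const _) hi]
  have := integral_re (integrable_C (e (j • n)) (K : Measure G))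
  simp only [RCLike.re_to_complex] at this
  simp [hat, this]

end
end Vale.Agent.P130
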